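import Crest.Agent.R167.Defs

/-!
# R167 / Basic: invariance of the reference measure; the partial integration operator `P`

Recipes.  `measurePreserving_sphMap`: `Measure.toSphere_apply'` (`μ.toSphere s = dim * μ (Ioo 0 1 • (↑) '' s)`),
the cone over the preimage is the preimage of the cone, `LinearIsometryEquiv.measurePreserving`.
`measurePreserving_matS`: `matS A hA = sphMap e` with `e` built from `Matrix.toEuclideanLin A`
(`LinearMap.isometryOfInner` / `LinearIsometry.toLinearIsometryEquiv`).
`Cfg` is compact, second countable, and its product σ-algebra is Borel, so continuous functions are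
bounded, measurable and integrable.  `measurePreserving_piecewise`: `Measure.eq_infinitePi`; the
preimage of `Set.pi s t` is `pi (s ∩ I) t ×ˢ pi (s \ I) t`.  `P_P`: Fubini (`integral_integral`) with
`(I ∪ J).piecewise (J.piecewise ω' ω) σ = J.piecewise ω' (I.piecewise ω σ)`.
`P_site`: `Measure.infinitePi_map_pi` for the sitewise map equal to `g x` on `I` and `id` off `I`.
`P_reindex`: `Measure.infinitePi_map_piCongrLeft` (or `eq_infinitePi`).
-/

set_option autoImplicit false

namespace Crest.Agent.R167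

open MeasureTheory Finset Matrix

open scoped Pointwise in
theorem measurePreserving_sphMap {n : ℕ} (e : En n ≃ₗᵢ[ℝ] En n) :
    MeasurePreserving (sphMap e) (volume : Measure (En n)).toSphere
      (volume : Measure (En n)).toSphere := by
  have hc : Continuous (sphMap e) :=
    Continuous.subtype_mk (e.continuous.comp continuous_subtype_val) _
  refine ⟨hc.measurable, ?_⟩
  ext s hs
  rw [Measure.map_apply hc.measurable hs, Measure.toSphere_apply' _ hs,
    Measure.toSphere_apply' _ (hc.measurable hs)]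
  congr 1
  have h1 : (Set.Ioo (0 : ℝ) 1 • (Subtype.val '' (sphMap e ⁻¹' s)) : Set (En n)) =
      e ⁻¹' (Set.Ioo (0 : ℝ) 1 • (Subtype.val '' s)) := by
    ext x
    simp only [Set.mem_smul, Set.mem_image, Set.mem_preimage]
    constructor
    · rintro ⟨t, ht, y, ⟨v, hv, rfl⟩, rfl⟩
      exact ⟨t, ht, _, ⟨_, hv, rfl⟩, by simp [sphMap]⟩
    · rintro ⟨t, ht, y, ⟨v, hv, rfl⟩, h⟩
      refine ⟨t, ht, _, ⟨sphMap e.symm v, ?_, rfl⟩, ?_⟩
      · have : sphMap e (sphMap e.symm v) = v := Subtype.ext (by simp [sphMap])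
        rwa [this]
      · apply e.injective
        rw [← h]; simp [sphMap]
  rw [h1]
  exact MeasurePreserving.measure_preimage_equiv
    (f := e.toHomeomorph.toMeasurableEquiv) e.measurePreserving _

lemma continuous_co : Continuous co := by
  unfold co; fun_prop
lemma co_matS (A : Mat) (hA : Aᵀ * A = 1) (v : Sph) : co (matS A hA v) = A *ᵥ co v := rfl
lemma co_injective : Function.Injective co := by
  intro v w h
  apply Subtype.ext
  ext i
  exact congrFun h i
lemma continuous_matS (A : Mat) (hA : Aᵀ * A = 1) : Continuous (matS A hA) := by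
  refine Continuous.subtype_mk ?_ _
  have := continuous_co
  fun_prop
theorem measurePreserving_matS (A : Mat) (hA : Aᵀ * A = 1) :
    MeasurePreserving (matS A hA) lam lam := by
  have hi : ∀ x y : En 3, inner ℝ (Matrix.toEuclideanLin A x) (Matrix.toEuclideanLin A y) =
      inner ℝ x y := by
    intro x y
    simp only [EuclideanSpace.inner_eq_star_dotProduct, star_trivial]
    show (A *ᵥ y.ofLp) ⬝ᵥ (A *ᵥ x.ofLp) = y.ofLp ⬝ᵥ x.ofLp
    rw [dotProduct_mulVec, vecMul_mulVec, hA, vecMul_one]
  let e : En 3 ≃ₗᵢ[ℝ] En 3 :=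
    ((Matrix.toEuclideanLin A).isometryOfInner hi).toLinearIsometryEquiv rfl
  have h : matS A hA = sphMap e := by
    funext v; exact Subtype.ext rfl
  rw [h]
  exact (measurePreserving_sphMap e).smul_measure _

lemma integrable_cont {F : Cfg → ℝ} (hF : Continuous F) (μ : Measure Cfg) [IsFiniteMeasure μ] :
    Integrable F μ :=
  hF.integrable_of_hasCompactSupport (HasCompactSupport.of_compactSpace F)
lemma exists_bound {F : Cfg → ℝ} (hF : Continuous F) : ∃ C, ∀ σ, |F σ| ≤ C := by
  obtain ⟨C, hC⟩ := isCompact_univ.exists_bound_of_continuousOn hF.continuousOn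
  exact ⟨C, fun σ => hC σ (Set.mem_univ _)⟩
lemma continuous_piecewise (I : Finset Site) :
    Continuous (fun p : Cfg × Cfg => (I.piecewise p.1 p.2 : Cfg)) := by
  refine continuous_pi fun x => ?_
  by_cases hx : x ∈ I
  · simp only [Finset.piecewise_eq_of_mem _ _ _ hx]; fun_prop
  · simp only [Finset.piecewise_eq_of_notMem _ _ _ hx]; fun_prop

theorem measurePreserving_piecewise (I : Finset Site) :
    MeasurePreserving (fun p : Cfg × Cfg => (I.piecewise p.1 p.2 : Cfg)) (Lam.prod Lam) Lam := by
  have hm := (continuous_piecewise I).measurable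
  refine ⟨hm, ?_⟩
  conv_rhs => unfold Lam
  refine Measure.eq_infinitePi _ fun s t ht => ?_
  rw [Measure.map_apply hm (.pi s.countable_toSet fun _ _ => ht _)]
  have h1 : (fun p : Cfg × Cfg => (I.piecewise p.1 p.2 : Cfg)) ⁻¹' (Set.pi s t) =
      (Set.pi (s.filter (· ∈ I) : Finset Site) t) ×ˢ (Set.pi (s.filter (· ∉ I) : Finset Site) t) := by
    ext p
    simp only [Set.mem_preimage, Set.mem_pi, Finset.mem_coe, Set.mem_prod, Finset.mem_filter]
    constructor
    · intro h
      refine ⟨fun x hx => ?_, fun x hx => ?_⟩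
      · simpa [Finset.piecewise_eq_of_mem _ _ _ hx.2] using h x hx.1
      · simpa [Finset.piecewise_eq_of_notMem _ _ _ hx.2] using h x hx.1
    · rintro ⟨h1, h2⟩ x hx
      by_cases hxI : x ∈ I
      · simpa [Finset.piecewise_eq_of_mem _ _ _ hxI] using h1 x ⟨hx, hxI⟩
      · simpa [Finset.piecewise_eq_of_notMem _ _ _ hxI] using h2 x ⟨hx, hxI⟩
  rw [h1, Measure.prod_prod, Lam, Measure.infinitePi_pi _ fun i _ => ht i,
    Measure.infinitePi_pi _ fun i _ => ht i, Finset.prod_filter_mul_prod_filter_not]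
theorem measurePreserving_site (g : Site → Sph → Sph) (hg : ∀ x, MeasurePreserving (g x) lam lam) :
    MeasurePreserving (fun (σ : Cfg) x => g x (σ x)) Lam Lam := by
  refine ⟨measurable_pi_lambda _ fun x => (hg x).measurable.comp (measurable_pi_apply x), ?_⟩
  unfold Lam
  rw [Measure.infinitePi_map_pi _ fun x => (hg x).measurable]
  congr 1
  funext x
  exact (hg x).map_eq

lemma basic_integral_comp {α : Type*} [MeasurableSpace α] {μ : Measure α} {f : α → Cfg}
    (hf : MeasurePreserving f μ Lam) {g : Cfg → ℝ} (hg : Continuous g) :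
    ∫ a, g (f a) ∂μ = ∫ ω, g ω ∂Lam := by
  rw [← hf.map_eq, integral_map hf.measurable.aemeasurable hg.aestronglyMeasurable]

lemma basic_cont_pw (I : Finset Site) (σ : Cfg) :
    Continuous (fun ω : Cfg => (I.piecewise ω σ : Cfg)) :=
  (continuous_piecewise I).comp (continuous_id.prodMk continuous_const)

lemma basic_int {F : Cfg → ℝ} (hF : Continuous F) (I : Finset Site) (σ : Cfg) :
    Integrable (fun ω => F (I.piecewise ω σ)) Lam :=
  integrable_cont (hF.comp (basic_cont_pw I σ)) _

variable {I I' : Finset Site} {F G : Cfg → ℝ}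

lemma continuous_P (hF : Continuous F) : Continuous (P I F) := by
  obtain ⟨C, hC⟩ := exists_bound hF
  refine continuous_of_dominated (bound := fun _ => C)
    (fun σ => (basic_int hF I σ).aestronglyMeasurable)
    (fun σ => Filter.Eventually.of_forall fun ω => hC _) (integrable_const C)
    (Filter.Eventually.of_forall fun ω => ?_)
  exact hF.comp ((continuous_piecewise I).comp (continuous_const.prodMk continuous_id))
lemma P_const (c : ℝ) (σ : Cfg) : P I (fun _ => c) σ = c := by simp [P]
lemma P_add (hF : Continuous F) (hG : Continuous G) (σ : Cfg) :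
    P I (fun ω => F ω + G ω) σ = P I F σ + P I G σ :=
  integral_add (basic_int hF I σ) (basic_int hG I σ)
lemma P_mono (hF : Continuous F) (hG : Continuous G) (h : ∀ ω, F ω ≤ G ω) (σ : Cfg) :
    P I F σ ≤ P I G σ :=
  integral_mono (basic_int hF I σ) (basic_int hG I σ) fun _ => h _
lemma P_nonneg (h : ∀ ω, 0 ≤ F ω) (σ : Cfg) : 0 ≤ P I F σ := integral_nonneg fun _ => h _
lemma P_pos (hF : Continuous F) (h : ∀ ω, 0 < F ω) (σ : Cfg) : 0 < P I F σ := by
  obtain ⟨ω₀, -, h₀⟩ := isCompact_univ.exists_isMinOn ⟨σ, Set.mem_univ _⟩ hF.continuousOn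
  have := P_mono (I := I) (continuous_const (y := F ω₀)) hF (fun ω => h₀ (Set.mem_univ ω)) σ
  rw [P_const] at this
  exact (h ω₀).trans_le this
lemma P_mul_left (hG : Indep I G) (σ : Cfg) : P I (fun ω => G ω * F ω) σ = G σ * P I F σ := by
  simp only [P, hG _ σ, integral_const_mul]
lemma P_of_indep (hG : Indep I G) (σ : Cfg) : P I G σ = G σ := by
  simp [P, hG _ σ]
/-- Cauchy–Schwarz in the form used later -/
lemma P_sq_le {F₁ F₂ : Cfg → ℝ} (hF : Continuous F) (h₁ : Continuous F₁) (h₂ : Continuous F₂)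
    (p₁ : ∀ ω, 0 ≤ F₁ ω) (p₂ : ∀ ω, 0 ≤ F₂ ω) (h : ∀ ω, F ω ^ 2 ≤ F₁ ω * F₂ ω) (σ : Cfg) :
    P I F σ ^ 2 ≤ P I F₁ σ * P I F₂ σ := by
  have key : ∀ t : ℝ, 0 ≤ P I F₁ σ * (t * t) + 2 * P I F σ * t + P I F₂ σ := by
    intro t
    have h0 : ∀ ω, 0 ≤ (t * t) * F₁ ω + (2 * t) * F ω + F₂ ω := by
      intro ω
      have a1 := p₁ ω
      have a2 := p₂ ω
      have a3 := h ω
      rcases a1.lt_or_eq with a4 | a4
      · have : 0 ≤ F₁ ω * ((t * t) * F₁ ω + (2 * t) * F ω + F₂ ω) := by
          nlinarith [sq_nonneg (t * F₁ ω + F ω)]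
        exact (mul_nonneg_iff_of_pos_left a4).1 this
      · rw [← a4] at a3 ⊢
        have : F ω = 0 := by nlinarith [sq_nonneg (F ω)]
        rw [this]; linarith
    have h1 := P_nonneg (I := I) h0 σ
    rw [P_add (by fun_prop) h₂, P_add (by fun_prop) (by fun_prop),
      P_mul_left (fun _ _ => rfl), P_mul_left (fun _ _ => rfl)] at h1
    linarith
  have := discrim_le_zero key
  rw [discrim] at this
  nlinarith
theorem P_P (hF : Continuous F) (σ : Cfg) : P I (P I' F) σ = P (I ∪ I') F σ := by
  have hc : Continuous fun ω : Cfg => F ((I ∪ I').piecewise ω σ) := hF.comp (basic_cont_pw _ σ)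
  have h1 := basic_integral_comp (measurePreserving_piecewise I') hc
  have h2 : ∀ ω ω' : Cfg, (I ∪ I').piecewise (I'.piecewise ω' ω) σ =
      I'.piecewise ω' (I.piecewise ω σ) := by
    intro ω ω'
    funext x
    by_cases h : x ∈ I <;> by_cases h' : x ∈ I' <;> simp [Finset.piecewise, h, h']
  have h3 : Integrable (fun p : Cfg × Cfg => F ((I ∪ I').piecewise (I'.piecewise p.1 p.2) σ))
      (Lam.prod Lam) :=
    (hc.comp (continuous_piecewise I')).integrable_of_hasCompactSupport
      (HasCompactSupport.of_compactSpace _)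
  rw [P, P, ← h1, integral_prod_symm _ h3]
  simp only [h2, P]
lemma indep_P_self : Indep I (P I F) := by
  intro ω σ
  simp only [P, Finset.piecewise_idem_right]
lemma basic_eq (h : Indep I F) {σ σ' : Cfg} (hσ : ∀ x, x ∉ I → σ x = σ' x) : F σ = F σ' := by
  rw [← h σ σ']
  congr 1
  funext x
  by_cases hx : x ∈ I
  · simp [Finset.piecewise, hx]
  · simp [Finset.piecewise, hx, hσ x hx]
lemma Indep.P (h : Indep I' F) : Indep I' (P I F) := by
  intro ω σ
  simp only [R167.P]
  congr 1
  funext ω'
  refine basic_eq h fun x hx => ?_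
  by_cases hxI : x ∈ I <;> simp [Finset.piecewise, hx, hxI]
lemma Indep.mono (h : Indep I F) (hI : I' ⊆ I) : Indep I' F := fun _ _ =>
  basic_eq h fun _ hx => Finset.piecewise_eq_of_notMem _ _ _ fun h' => hx (hI h')
/-- a function that depends only on spins outside `I` -/
lemma indep_of_eq (h : ∀ σ σ' : Cfg, (∀ x, x ∉ I → σ x = σ' x) → F σ = F σ') : Indep I F :=
  fun _ _ => h _ _ fun _ hx => Finset.piecewise_eq_of_notMem _ _ _ hx
lemma Indep.eq (h : Indep I F) {σ σ' : Cfg} (hσ : ∀ x, x ∉ I → σ x = σ' x) : F σ = F σ' :=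
  basic_eq h hσ
lemma Indep.comp (h : Indep I F) (φ : ℝ → ℝ) : Indep I (fun σ => φ (F σ)) :=
  fun ω σ => congrArg φ (h ω σ)
lemma Indep.comp₂ (h : Indep I F) (h' : Indep I G) (φ : ℝ → ℝ → ℝ) :
    Indep I (fun σ => φ (F σ) (G σ)) := fun ω σ => congrArg₂ φ (h ω σ) (h' ω σ)
lemma indep_const (c : ℝ) : Indep I (fun _ => c) := fun _ _ => rfl
lemma indep_sum {κ : Type*} (s : Finset κ) (Fs : κ → Cfg → ℝ) (h : ∀ i ∈ s, Indep I (Fs i)) :
    Indep I (fun σ => ∑ i ∈ s, Fs i σ) := fun ω σ => sum_congr rfl fun i hi => h i hi ω σ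

/-- `P` commutes with sitewise measure preserving maps -/
theorem P_site (g : Site → Sph → Sph) (hg : ∀ x, MeasurePreserving (g x) lam lam)
    (hF : Continuous F) (σ : Cfg) :
    P I (fun ω => F (fun x => g x (ω x))) σ = P I F (fun x => g x (σ x)) := by
  have hc : Continuous fun ω : Cfg => F (I.piecewise ω fun x => g x (σ x)) :=
    hF.comp (basic_cont_pw _ _)
  have h1 := basic_integral_comp (measurePreserving_site g hg) hc
  rw [P, P, ← h1]
  congr 1
  funext ω
  congr 1
  funext x
  by_cases hx : x ∈ I <;> simp [Finset.piecewise, hx]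
theorem P_reindex (e : Site ≃ Site) (hF : Continuous F) (σ : Cfg) :
    P (I.map e.toEmbedding) (fun ω => F (ω ∘ e)) σ = P I F (σ ∘ e) := by
  have hm : MeasurePreserving (fun ω : Cfg => (ω ∘ e : Cfg)) Lam Lam := by
    have hme : Measurable fun ω : Cfg => (ω ∘ e : Cfg) :=
      measurable_pi_lambda _ fun x => measurable_pi_apply (e x)
    refine ⟨hme, ?_⟩
    conv_rhs => unfold Lam
    refine Measure.eq_infinitePi _ fun s t ht => ?_
    rw [Measure.map_apply hme (.pi s.countable_toSet fun _ _ => ht _)]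
    have h1 : (fun ω : Cfg => (ω ∘ e : Cfg)) ⁻¹' (Set.pi s t) =
        Set.pi (s.map e.toEmbedding : Finset Site) (fun x => t (e.symm x)) := by
      ext ω
      simp only [Set.mem_preimage, Set.mem_pi, Finset.mem_coe, Finset.mem_map_equiv,
        Function.comp]
      constructor
      · intro h x hx
        simpa using h _ hx
      · intro h x hx
        simpa using h (e x) (by simpa using hx)
    rw [h1, Lam, Measure.infinitePi_pi _ fun i _ => ht _, Finset.prod_map]
    simp
  have hc : Continuous fun ω : Cfg => F (I.piecewise ω (σ ∘ e)) := hF.comp (basic_cont_pw _ _)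
  have h1 := basic_integral_comp hm hc
  rw [P, P, ← h1]
  congr 1
  funext ω
  congr 1
  funext x
  by_cases hx : x ∈ I <;> simp [Finset.piecewise, hx]
/-- if `F` depends only on the spins in `I`, then `P I F` is the full integral -/
theorem P_eq_integral (h : ∀ σ σ' : Cfg, (∀ x ∈ I, σ x = σ' x) → F σ = F σ') (σ : Cfg) :
    P I F σ = ∫ ω, F ω ∂Lam := by
  rw [P]
  congr 1
  funext ω
  exact h _ _ fun x hx => Finset.piecewise_eq_of_mem _ _ _ hx

end Crest.Agent.R167
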