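import Crest.Agent.R167.Gibbs

/-!
# R167 / Cur: currents, block averages, block Hessians

Everything is unfolding plus the `gE_*` lemmas.  `hasL_J`: `hasL_sum`, `hasL_pr`.  `hasL_S`: `HasL.gE`.
`M_le`: `cov ≥ 0` (`gE_sq_le`) and `abs_J_le` with `abs_dot_TT`.  `abs_M_le`: `|α α'| ≤ (t α² + α'²/t)/2`
and `abs_cov_le`.  `av_J_sq`: `gE_ibp` for `F = J (T k) (grad f)`, `Φ = Ham` (the commutator
`T k * T k - T k * T k` vanishes).  `M_flow`: `gE_flow`, `pr_flow`, `Rot_orth`
(`R * Rᵀ = 1` by `mul_eq_one_comm`).  `M_reindex`: `gE_reindex` and `sum_map`.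
-/

set_option autoImplicit false

namespace Crest.Agent.R167

open MeasureTheory Finset Matrix

variable {E : Finset Edge} {b : Edge → ℝ} {β : ℝ} {A B : Mat} {α α' : Edge → ℝ} {k l : Fin 3}
  {f : Site → ℝ} {U : Blk} {I : Finset Site} {F G : Cfg → ℝ}

lemma nrm_nonneg (E : Finset Edge) (α : Edge → ℝ) : 0 ≤ nrm E α :=
  sum_nonneg fun _ _ => sq_nonneg _
lemma continuous_J : Continuous (J E b A α) :=
  continuous_finsetSum _ fun e _ => continuous_const.mul (continuous_pr A e)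
lemma continuous_Ham : Continuous (Ham E b) := continuous_J
lemma indep_J (h : ∀ e ∈ E, e.1 ∉ I ∧ hd e ∉ I) : Indep I (J E b A α) := by
  intro ω σ
  refine sum_congr rfl fun e he => ?_
  unfold pr
  rw [piecewise_eq_of_notMem _ _ _ (h e he).1, piecewise_eq_of_notMem _ _ _ (h e he).2]
lemma J_congr (h : ∀ e ∈ E, α e = α' e) : J E b A α = J E b A α' :=
  funext fun _ => sum_congr rfl fun e he => by rw [h e he]
lemma J_add (σ : Cfg) : J E b A (fun e => α e + α' e) σ = J E b A α σ + J E b A α' σ := by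
  simp only [J, ← sum_add_distrib]
  exact sum_congr rfl fun e _ => by ring
lemma J_sub (σ : Cfg) : J E b A (fun e => α e - α' e) σ = J E b A α σ - J E b A α' σ := by
  simp only [J, ← sum_sub_distrib]
  exact sum_congr rfl fun e _ => by ring
lemma J_smul (c : ℝ) (σ : Cfg) : J E b A (fun e => c * α e) σ = c * J E b A α σ := by
  simp only [J, mul_sum]
  exact sum_congr rfl fun e _ => by ring
lemma J_sum {κ : Type*} (s : Finset κ) (αs : κ → Edge → ℝ) (σ : Cfg) :
    J E b A (fun e => ∑ i ∈ s, αs i e) σ = ∑ i ∈ s, J E b A (αs i) σ := by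
  simp only [J, mul_sum, sum_mul]
  exact sum_comm
lemma J_mat_add (σ : Cfg) : J E b (A + B) α σ = J E b A α σ + J E b B α σ := by
  simp only [J, pr, add_mulVec, dotProduct_add, mul_add, sum_add_distrib]
lemma J_mat_smul (c : ℝ) (σ : Cfg) : J E b (c • A) α σ = c * J E b A α σ := by
  simp only [J, pr, smul_mulVec, dotProduct_smul, smul_eq_mul, mul_sum]
  exact sum_congr rfl fun e _ => by ring
lemma J_mat_neg (σ : Cfg) : J E b (-A) α σ = -J E b A α σ := by
  rw [← neg_one_smul ℝ A, J_mat_smul, neg_one_mul]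
lemma J_mat_zero (σ : Cfg) : J E b 0 α σ = 0 := by
  simp [J, pr]
lemma abs_J_le (hb : Cpl β b) (hA : ∀ v w : Sph, |co v ⬝ᵥ A *ᵥ co w| ≤ 1) (σ : Cfg) :
    |J E b A α σ| ≤ β * ∑ e ∈ E, |α e| := by
  rw [mul_sum]
  refine (abs_sum_le_sum_abs _ _).trans (sum_le_sum fun e _ => ?_)
  rw [abs_mul, abs_mul, abs_of_nonneg (hb e).1]
  refine (mul_le_of_le_one_right (mul_nonneg (hb e).1 (abs_nonneg _)) (hA _ _)).trans ?_
  exact mul_le_mul_of_nonneg_right (hb e).2 (abs_nonneg _)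

lemma hasL_J : HasL k f (J E b A α) (fun σ =>
    J E b ((1 / 2 : ℝ) • (A * T k + T k * A)) (fun e => α e * grad f e) σ +
      J E b (A * T k - T k * A) (fun e => α e * mid f e) σ) := by
  refine (hasL_sum E _ _ (fun e _ => (hasL_pr (k := k) (f := f) A e).const_mul (b e * α e))).congr
    (fun _ => rfl) fun σ => ?_
  simp only [J, ← sum_add_distrib]
  exact sum_congr rfl fun e _ => by ring
lemma hasL_Ham : HasL k f (Ham E b) (J E b (T k) (grad f)) := by
  refine (hasL_J (E := E) (b := b) (A := 1) (α := fun _ => 1)).congr (fun _ => rfl) fun σ => ?_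
  have h : (1 / 2 : ℝ) • (1 * T k + T k * 1) = T k := by
    rw [one_mul, mul_one, ← two_smul ℝ (T k), smul_smul]; norm_num
  rw [h, one_mul, mul_one, sub_self, J_mat_zero, add_zero]
  simp only [one_mul]
lemma cur_abs_J_TT (hb : Cpl β b) (σ : Cfg) :
    |J E b ((1 / 2 : ℝ) • (T k * T k + T k * T k)) (fun e => α e * α e) σ| ≤ β * nrm E α := by
  refine (abs_J_le hb (abs_dot_TT k k) σ).trans (le_of_eq ?_)
  unfold nrm
  congr 1
  exact sum_congr rfl fun e _ => by rw [abs_mul_self, sq]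
/-- second derivative of the energy, bounded below by `-β ‖∇f‖²` -/
lemma hasL_J_grad (hb : Cpl β b) : ∃ Φ'' : Cfg → ℝ, HasL k f (J E b (T k) (grad f)) Φ'' ∧
    ∀ σ, -(β * nrm E (grad f)) ≤ Φ'' σ := by
  refine ⟨_, hasL_J, fun σ => ?_⟩
  rw [sub_self, J_mat_zero, add_zero]
  exact (abs_le.1 (cur_abs_J_TT hb σ)).1

lemma Blk.continuous_av (hF : Continuous F) : Continuous (U.av b F) :=
  continuous_gE continuous_Ham hF
lemma Blk.continuous_cov (hF : Continuous F) (hG : Continuous G) : Continuous (U.cov b F G) :=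
  (Blk.continuous_av (hF.mul hG)).sub ((Blk.continuous_av hF).mul (Blk.continuous_av hG))
lemma Blk.continuous_S : Continuous (U.S b A α) := Blk.continuous_av continuous_J
lemma Blk.continuous_M : Continuous (U.M b A B α α') :=
  (Blk.continuous_av continuous_J).neg.sub (Blk.continuous_cov continuous_J continuous_J)
lemma Blk.continuous_PP : Continuous (U.PP β b k α) :=
  continuous_const.add (Blk.continuous_cov continuous_J continuous_J)
lemma Blk.cov_self_nonneg (hF : Continuous F) (σ : Cfg) : 0 ≤ U.cov b F F σ := by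
  have h := gE_sq_le (I := U.I) (continuous_Ham (E := U.E) (b := b)) hF σ
  simp only [sq] at h
  exact sub_nonneg.2 h

lemma cur_av_congr (h : ∀ σ, F σ = G σ) : U.av b F = U.av b G := by rw [funext h]
lemma cur_av_add (hF : Continuous F) (hG : Continuous G) (σ : Cfg) :
    U.av b (fun ω => F ω + G ω) σ = U.av b F σ + U.av b G σ := gE_add continuous_Ham hF hG σ
lemma cur_av_smul (c : ℝ) (σ : Cfg) : U.av b (fun ω => c * F ω) σ = c * U.av b F σ :=
  gE_const_mul c σ
lemma cur_cov_symm (σ : Cfg) : U.cov b F G σ = U.cov b G F σ := by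
  unfold Blk.cov
  rw [mul_comm, cur_av_congr (fun ω => mul_comm (F ω) (G ω))]
lemma cur_cov_add {F' : Cfg → ℝ} (hF : Continuous F) (hF' : Continuous F') (hG : Continuous G)
    (σ : Cfg) : U.cov b (fun ω => F ω + F' ω) G σ = U.cov b F G σ + U.cov b F' G σ := by
  unfold Blk.cov
  rw [cur_av_congr (fun ω => add_mul (F ω) (F' ω) (G ω)), cur_av_add (hF.fun_mul hG) (hF'.fun_mul hG),
    cur_av_add hF hF']
  ring
lemma cur_cov_smul (c : ℝ) (σ : Cfg) : U.cov b (fun ω => c * F ω) G σ = c * U.cov b F G σ := by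
  unfold Blk.cov
  rw [cur_av_congr (fun ω => mul_assoc c (F ω) (G ω)), cur_av_smul, cur_av_smul]
  ring

lemma Blk.S_congr (h : ∀ e ∈ U.E, α e = α' e) : U.S b A α = U.S b A α' := by
  unfold Blk.S; rw [J_congr h]
lemma Blk.S_add (σ : Cfg) : U.S b A (fun e => α e + α' e) σ = U.S b A α σ + U.S b A α' σ := by
  unfold Blk.S
  rw [cur_av_congr J_add, cur_av_add continuous_J continuous_J]
lemma Blk.S_sub (σ : Cfg) : U.S b A (fun e => α e - α' e) σ = U.S b A α σ - U.S b A α' σ := by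
  unfold Blk.S
  rw [cur_av_congr J_sub]
  exact gE_sub continuous_Ham continuous_J continuous_J σ
lemma Blk.S_mat_neg (σ : Cfg) : U.S b (-A) α σ = -U.S b A α σ := by
  unfold Blk.S
  rw [cur_av_congr J_mat_neg]
  exact gE_neg σ
lemma Blk.S_mat_zero (σ : Cfg) : U.S b 0 α σ = 0 := by
  unfold Blk.S
  rw [cur_av_congr J_mat_zero]
  exact gE_const continuous_Ham 0 σ

theorem hasL_S : HasL k f (U.S b A α) (fun σ => -U.M b A (T k) α (grad f) σ +
    U.S b (A * T k - T k * A) (fun e => α e * mid f e) σ) := by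
  refine ((hasL_J (E := U.E) (b := b) (A := A) (α := α)).gE (I := U.I)
    (hasL_Ham (E := U.E) (b := b))).congr (fun _ => rfl) fun σ => ?_
  rw [gE_add continuous_Ham continuous_J continuous_J]
  unfold Blk.M Blk.S Blk.cov Blk.av
  ring
theorem hasL_logZ : HasL k f (fun σ => Real.log (P U.I (fun ω => Real.exp (Ham U.E b ω)) σ))
    (U.S b (T k) (grad f)) := hasL_Ham.logZ

lemma Blk.M_symm (σ : Cfg) : U.M b A B α α' σ = U.M b B A α' α σ := by
  unfold Blk.M
  rw [cur_cov_symm, add_comm (A * B), J_congr (α' := fun e => α' e * α e) fun e _ => mul_comm _ _]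
lemma Blk.M_congr {γ γ' : Edge → ℝ} (h : ∀ e ∈ U.E, α e = γ e) (h' : ∀ e ∈ U.E, α' e = γ' e) :
    U.M b A B α α' = U.M b A B γ γ' := by
  funext σ
  unfold Blk.M
  rw [J_congr h, J_congr h',
    J_congr (α' := fun e => γ e * γ' e) fun e he => by rw [h e he, h' e he]]
lemma Blk.M_add_left {γ : Edge → ℝ} (σ : Cfg) :
    U.M b A B (fun e => α e + γ e) α' σ = U.M b A B α α' σ + U.M b A B γ α' σ := by
  unfold Blk.M
  rw [J_congr (α' := fun e => α e * α' e + γ e * α' e) fun e _ => add_mul _ _ _,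
    cur_av_congr J_add, cur_av_add continuous_J continuous_J, funext J_add,
    cur_cov_add continuous_J continuous_J continuous_J]
  ring
lemma Blk.M_smul_left (c : ℝ) (σ : Cfg) :
    U.M b A B (fun e => c * α e) α' σ = c * U.M b A B α α' σ := by
  unfold Blk.M
  rw [J_congr (α' := fun e => c * (α e * α' e)) fun e _ => mul_assoc _ _ _,
    cur_av_congr (J_smul c), cur_av_smul, funext (J_smul c), cur_cov_smul]
  ring
lemma Blk.M_add_right {γ : Edge → ℝ} (σ : Cfg) :
    U.M b A B α (fun e => α' e + γ e) σ = U.M b A B α α' σ + U.M b A B α γ σ := by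
  rw [Blk.M_symm, Blk.M_add_left, Blk.M_symm (α := α'), Blk.M_symm (α := γ)]
lemma Blk.M_smul_right (c : ℝ) (σ : Cfg) :
    U.M b A B α (fun e => c * α' e) σ = c * U.M b A B α α' σ := by
  rw [Blk.M_symm, Blk.M_smul_left, Blk.M_symm (α := α')]
lemma cur_M_mat_add {C : Mat} (σ : Cfg) :
    U.M b (A + B) C α α' σ = U.M b A C α α' σ + U.M b B C α α' σ := by
  unfold Blk.M
  have h : (1 / 2 : ℝ) • ((A + B) * C + C * (A + B)) =
      (1 / 2 : ℝ) • (A * C + C * A) + (1 / 2 : ℝ) • (B * C + C * B) := by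
    rw [add_mul, mul_add, ← smul_add]; congr 1; abel
  rw [h, cur_av_congr J_mat_add, cur_av_add continuous_J continuous_J, funext J_mat_add,
    cur_cov_add continuous_J continuous_J continuous_J]
  ring
lemma cur_M_mat_smul (c : ℝ) (σ : Cfg) : U.M b (c • A) B α α' σ = c * U.M b A B α α' σ := by
  unfold Blk.M
  have h : (1 / 2 : ℝ) • ((c • A) * B + B * (c • A)) = c • ((1 / 2 : ℝ) • (A * B + B * A)) := by
    rw [smul_mul_assoc, mul_smul_comm, ← smul_add, smul_comm]
  rw [h, cur_av_congr (J_mat_smul c), cur_av_smul, funext (J_mat_smul c), cur_cov_smul]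
  ring
/-- bilinearity in the matrices -/
lemma Blk.M_mat_comb (p q : ℝ) (σ : Cfg) :
    U.M b (p • A + q • B) (p • A + q • B) α α σ =
      p ^ 2 * U.M b A A α α σ + 2 * p * q * U.M b A B α α σ + q ^ 2 * U.M b B B α α σ := by
  rw [cur_M_mat_add, cur_M_mat_smul, cur_M_mat_smul, Blk.M_symm (A := A), Blk.M_symm (A := B),
    cur_M_mat_add, cur_M_mat_add, cur_M_mat_smul, cur_M_mat_smul, cur_M_mat_smul, cur_M_mat_smul,
    Blk.M_symm (A := B) (B := A)]
  ring

lemma cur_abs_av_le (hF : Continuous F) {c : ℝ} (h : ∀ σ, |F σ| ≤ c) (σ : Cfg) :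
    |U.av b F σ| ≤ c :=
  (abs_gE_le continuous_Ham hF continuous_const h σ).trans (gE_const continuous_Ham c σ).le

lemma Blk.M_le (hb : Cpl β b) (σ : Cfg) : U.M b (T k) (T k) α α σ ≤ β * nrm U.E α := by
  unfold Blk.M
  have h1 := (abs_le.1 (cur_abs_av_le (U := U) (b := b) continuous_J
    (cur_abs_J_TT (E := U.E) (k := k) (α := α) hb) σ)).1
  have h2 := Blk.cov_self_nonneg (U := U) (b := b)
    (continuous_J (E := U.E) (b := b) (A := T k) (α := α)) σ
  linarith
lemma Blk.PP_nonneg (hβ : 0 ≤ β) (σ : Cfg) : 0 ≤ U.PP β b k α σ :=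
  add_nonneg (mul_nonneg hβ (nrm_nonneg _ _)) (Blk.cov_self_nonneg continuous_J σ)
lemma Blk.PP_congr (h : ∀ e ∈ U.E, α e = α' e) : U.PP β b k α = U.PP β b k α' := by
  funext σ
  unfold Blk.PP nrm
  rw [J_congr h, sum_congr rfl fun e he => by rw [h e he]]
lemma Blk.abs_M_le (hb : Cpl β b) {t : ℝ} (ht : 0 < t) (σ : Cfg) :
    |U.M b (T k) (T l) α α' σ| ≤ (t * U.PP β b k α σ + U.PP β b l α' σ / t) / 2 := by
  have hβ : 0 ≤ β := (hb ((0, 0), 0)).1.trans (hb ((0, 0), 0)).2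
  have h0 : ∑ e ∈ U.E, |α e * α' e| ≤ (t * nrm U.E α + nrm U.E α' / t) / 2 := by
    unfold nrm
    rw [mul_sum, sum_div, ← sum_add_distrib, sum_div]
    refine sum_le_sum fun e _ => ?_
    rw [abs_mul, ← sq_abs (α e), ← sq_abs (α' e), ← sub_nonneg]
    generalize |α e| = x
    generalize |α' e| = y
    have : (t * x ^ 2 + y ^ 2 / t) / 2 - x * y = (t * x - y) ^ 2 / (2 * t) := by
      field_simp; ring
    rw [this]
    positivity
  have h1 := cur_abs_av_le (U := U) (b := b) continuous_J (fun ω =>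
    (abs_J_le (E := U.E) (α := fun e => α e * α' e) hb (abs_dot_TT k l) ω).trans
      (mul_le_mul_of_nonneg_left h0 hβ)) σ
  have h2 := abs_cov_le (I := U.I) (continuous_Ham (E := U.E) (b := b))
    (continuous_J (E := U.E) (b := b) (A := T k) (α := α))
    (continuous_J (E := U.E) (b := b) (A := T l) (α := α')) ht σ
  unfold Blk.M Blk.PP
  refine (abs_sub _ _).trans ?_
  rw [abs_neg]
  refine (add_le_add h1 h2).trans (le_of_eq ?_)
  unfold Blk.cov Blk.av
  ring
lemma Blk.PP_le (hb : Cpl β b) (σ : Cfg) :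
    U.PP β b k α σ ≤ 2 * β * nrm U.E α - U.M b (T k) (T k) α α σ := by
  unfold Blk.M Blk.PP
  have h1 := (abs_le.1 (cur_abs_av_le (U := U) (b := b) continuous_J
    (cur_abs_J_TT (E := U.E) (k := k) (α := α) hb) σ)).1
  linarith

theorem Blk.av_J_sq (hb : Cpl β b) (hf : Supp U.I f) (τ : Cfg) :
    U.av b (fun σ => J U.E b (T k) (grad f) σ ^ 2) τ ≤ β * nrm U.E (grad f) := by
  obtain ⟨Φ'', h1, h2⟩ := hasL_J_grad (E := U.E) (k := k) (f := f) hb
  have h3 := gE_ibp h1 (hasL_Ham (E := U.E) (b := b)) hf τ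
  have h4 := gE_mono (I := U.I) (continuous_Ham (E := U.E) (b := b)) continuous_const h1.2.1 h2 τ
  rw [gE_const continuous_Ham] at h4
  unfold Blk.av
  simp only [sq]
  linarith
/-- `E |J| ≤ (E J²)^{1/2}` -/
theorem Blk.av_abs_J (hb : Cpl β b) (hf : Supp U.I f) {W : ℝ} (hW : 0 ≤ W)
    (h : nrm U.E (grad f) ≤ W ^ 2) (τ : Cfg) :
    U.av b (fun σ => |J U.E b (T k) (grad f) σ|) τ ≤ √β * W := by
  have hβ : 0 ≤ β := (hb ((0, 0), 0)).1.trans (hb ((0, 0), 0)).2
  have h1 := gE_sq_le (I := U.I) (continuous_Ham (E := U.E) (b := b))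
    (continuous_J (E := U.E) (b := b) (A := T k) (α := grad f)).abs τ
  simp only [sq_abs] at h1
  have h2 := h1.trans ((Blk.av_J_sq hb hf τ).trans (mul_le_mul_of_nonneg_left h hβ))
  refine (abs_le_of_sq_le_sq' ?_ (by positivity)).2
  rw [mul_pow, Real.sq_sqrt hβ]
  exact h2

lemma cur_J_flow {θ : Site → ℝ} (h : ∀ e ∈ E, θ e.1 = 1 ∧ θ (hd e) = 1) (t : ℝ) (σ : Cfg) :
    J E b A α (flow k θ t σ) = J E b ((Rot k t)ᵀ * A * Rot k t) α σ := by
  refine sum_congr rfl fun e he => ?_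
  rw [pr_flow, (h e he).1, (h e he).2, mul_one]

theorem Ham_flow {θ : Site → ℝ} (h : ∀ e ∈ E, θ e.1 = 1 ∧ θ (hd e) = 1) (t : ℝ) (σ : Cfg) :
    Ham E b (flow k θ t σ) = Ham E b σ := by
  unfold Ham
  rw [cur_J_flow h, mul_one, Rot_orth]
theorem Blk.M_flow {θ : Site → ℝ} (h : ∀ e ∈ U.E, θ e.1 = 1 ∧ θ (hd e) = 1) (t : ℝ) (σ : Cfg) :
    U.M b A B α α' (flow k θ t σ) =
      U.M b ((Rot k t)ᵀ * A * Rot k t) ((Rot k t)ᵀ * B * Rot k t) α α' σ := by
  have hav : ∀ {F : Cfg → ℝ}, Continuous F → U.av b F (flow k θ t σ) =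
      U.av b (fun ω => F (flow k θ t ω)) σ := fun hF =>
    (gE_flow continuous_Ham hF t (Ham_flow h t) σ).symm
  have hR : Rot k t * (Rot k t)ᵀ = 1 := mul_eq_one_comm.1 (Rot_orth k t)
  have hm : ∀ A B : Mat, (Rot k t)ᵀ * A * Rot k t * ((Rot k t)ᵀ * B * Rot k t) =
      (Rot k t)ᵀ * (A * B) * Rot k t := by
    intro A B
    simp only [mul_assoc]
    rw [← mul_assoc (Rot k t) (Rot k t)ᵀ, hR, one_mul]
  unfold Blk.M Blk.cov
  rw [hav continuous_J, hav continuous_J, hav continuous_J, hav (continuous_J.fun_mul continuous_J)]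
  simp only [cur_J_flow h]
  rw [hm, hm, ← add_mul, ← mul_add, mul_smul_comm, smul_mul_assoc]
theorem Blk.M_reindex (e : Site ≃ Site) (ê : Edge ≃ Edge) (h₁ : ∀ ε, (ê ε).1 = e ε.1)
    (h₂ : ∀ ε, hd (ê ε) = e (hd ε)) (σ : Cfg) :
    (⟨U.I.map e.toEmbedding, U.E.map ê.toEmbedding⟩ : Blk).M b A B α α' σ =
      U.M (b ∘ ê) A B (α ∘ ê) (α' ∘ ê) (σ ∘ e) := by
  have hJ : ∀ (A : Mat) (α : Edge → ℝ), J (U.E.map ê.toEmbedding) b A α =
      fun ω => J U.E (b ∘ ê) A (α ∘ ê) (ω ∘ e) := by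
    intro A α
    funext ω
    unfold J
    rw [sum_map]
    refine sum_congr rfl fun ε _ => ?_
    simp only [pr, Equiv.coe_toEmbedding, Function.comp, h₁, h₂]
  have hav : ∀ {F : Cfg → ℝ}, Continuous F →
      (⟨U.I.map e.toEmbedding, U.E.map ê.toEmbedding⟩ : Blk).av b (fun ω => F (ω ∘ e)) σ =
        U.av (b ∘ ê) F (σ ∘ e) := by
    intro F hF
    unfold Blk.av Ham
    simp only
    rw [hJ]
    exact gE_reindex e continuous_J hF σ
  unfold Blk.M Blk.cov
  simp only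
  rw [hJ, hJ, hJ, hav continuous_J, hav continuous_J, hav continuous_J]
  erw [hav ((continuous_J (E := U.E) (b := b ∘ ê) (A := A) (α := α ∘ ê)).fun_mul
    (continuous_J (E := U.E) (b := b ∘ ê) (A := B) (α := α' ∘ ê)))]
  rfl

end Crest.Agent.R167
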