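import Mathlib
import Crest.Prelude.Def_SpinON

/-!
# Row 167 (exponential decay of the planar `O(n)` model, `n ≥ 3`): definitions

Plan of the proof (all for `n = 3`; `Reduce` conditions on the other components).

* `Blk.M U b A A α α σ` is the second derivative of the free energy of the block `U` with boundary
  condition `σ` under the twist `A ⊗ α`.  `Stiff β L ν`: it is at most `ν L²` for the affine twist of
  an `L × L` block, for all couplings in `[0, β]` and all boundary conditions.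
* `Stiff β 1 β`; `Stiff β L ν → Stiff β (K L) (ν - c)` when `ν ≥ ν₀` (`Strip`): near equality in the
  law of total variance makes the coarse current `X` almost constant and the block Hessians almost
  `ν · Id`; differentiating `X` along a slowly varying rotation about another axis produces the
  current of the commutator `[T₀, T₁] = T₂`, whose variance is bounded below by `ν`.
* small `ν` gives `m(2r) ≤ m(r)/4` for the magnetisation at the centre of a box, for all boundary
  conditions (`Mag`); the Ward identity with the Griffiths and Ginibre inequalities gives a Simon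
  inequality, hence exponential decay (`Simon`).
-/

set_option autoImplicit false

namespace Crest.Agent.R167

open MeasureTheory Finset Matrix Crest.ProbabilityR.SpinModel

noncomputable section

abbrev En (n : ℕ) := EuclideanSpace ℝ (Fin n)
abbrev Sph := Metric.sphere (0 : En 3) 1
abbrev Site := ℤ × ℤ
abbrev Edge := Site × Fin 2
abbrev Cfg := Site → Sph
abbrev Mat := Matrix (Fin 3) (Fin 3) ℝ

/-- the uniform probability measure on the sphere -/
def lam : Measure Sph :=
  ((volume : Measure (En 3)).toSphere Set.univ)⁻¹ • (volume : Measure (En 3)).toSphere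

instance : IsProbabilityMeasure lam := by
  constructor
  have h : (volume : Measure (En 3)).toSphere Set.univ ≠ 0 := by
    rw [Measure.toSphere_apply_univ]
    exact mul_ne_zero (by simp) (Metric.measure_ball_pos _ _ one_pos).ne'
  rw [lam, Measure.smul_apply, smul_eq_mul, ENNReal.inv_mul_cancel h (measure_ne_top _ _)]

/-- independent uniform spins -/
def Lam : Measure Cfg := Measure.infinitePi (fun _ => lam)

instance : IsProbabilityMeasure Lam := by unfold Lam; infer_instance

/-- integrate out the spins in `I` against the uniform measure -/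
def P (I : Finset Site) (F : Cfg → ℝ) (σ : Cfg) : ℝ := ∫ ω, F (I.piecewise ω σ) ∂Lam

/-- `F` does not depend on the spins in `I` -/
def Indep (I : Finset Site) (F : Cfg → ℝ) : Prop := ∀ ω σ : Cfg, F (I.piecewise ω σ) = F σ

/-- Gibbs average in `I` with weight `exp Φ` and boundary condition `σ` -/
def gE (I : Finset Site) (Φ F : Cfg → ℝ) (σ : Cfg) : ℝ :=
  P I (fun ω => F ω * Real.exp (Φ ω)) σ / P I (fun ω => Real.exp (Φ ω)) σ

/-- a linear isometry acts on the unit sphere -/
def sphMap {n : ℕ} (e : En n ≃ₗᵢ[ℝ] En n) (v : Metric.sphere (0 : En n) 1) :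
    Metric.sphere (0 : En n) 1 := ⟨e v, by simp⟩

/-- the coordinates of a point of the sphere -/
def co (v : Sph) : Fin 3 → ℝ := fun i => (v : En 3) i

lemma co_dot (v : Sph) : co v ⬝ᵥ co v = 1 := by
  have h : ‖(v : En 3)‖ = 1 := by simp
  have h2 := EuclideanSpace.real_norm_sq_eq (v : En 3)
  rw [h] at h2
  simp only [dotProduct, co, ← sq]
  rw [← h2]; norm_num

/-- an orthogonal matrix acts on the sphere -/
def matS (A : Mat) (hA : Aᵀ * A = 1) (v : Sph) : Sph :=
  ⟨WithLp.toLp 2 (A *ᵥ co v), by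
    have h : (A *ᵥ co v) ⬝ᵥ (A *ᵥ co v) = 1 := by
      rw [dotProduct_mulVec, vecMul_mulVec, hA, vecMul_one, co_dot]
    rw [mem_sphere_zero_iff_norm, EuclideanSpace.norm_eq]
    simp only [Real.norm_eq_abs, sq_abs]
    simp only [dotProduct, ← sq] at h
    rw [h, Real.sqrt_one]⟩

/-- the generators of the rotations about the three axes; `T 0 * T 1 - T 1 * T 0 = T 2` -/
def T : Fin 3 → Mat :=
  ![!![0, 0, 0; 0, 0, -1; 0, 1, 0], !![0, 0, 1; 0, 0, 0; -1, 0, 0], !![0, -1, 0; 1, 0, 0; 0, 0, 0]]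

/-- rotation by `t` about the axis `k` -/
def Rot (k : Fin 3) (t : ℝ) : Mat := 1 + Real.sin t • T k + (1 - Real.cos t) • (T k * T k)

lemma Rot_orth (k : Fin 3) (t : ℝ) : (Rot k t)ᵀ * Rot k t = 1 := by
  have h := Real.sin_sq_add_cos_sq t
  ext i j
  fin_cases k <;> fin_cases i <;> fin_cases j <;>
    simp [Rot, T, Matrix.mul_apply, Fin.sum_univ_three] <;> nlinarith

/-- rotate the spin at `x` by `t * f x` about the axis `k` -/
def flow (k : Fin 3) (f : Site → ℝ) (t : ℝ) (σ : Cfg) : Cfg :=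
  fun x => matS (Rot k (t * f x)) (Rot_orth k _) (σ x)

/-- `F'` is the derivative of `F` along the flow -/
def HasL (k : Fin 3) (f : Site → ℝ) (F F' : Cfg → ℝ) : Prop :=
  Continuous F ∧ Continuous F' ∧ ∀ σ, HasDerivAt (fun t => F (flow k f t σ)) (F' σ) 0

/-- `f` vanishes off `I` -/
def Supp (I : Finset Site) (f : Site → ℝ) : Prop := ∀ x, x ∉ I → f x = 0

/-- component `c` of the spin at `x` -/
def spin (x : Site) (c : Fin 3) (σ : Cfg) : ℝ := co (σ x) c

/-- the head of an edge (its tail is `e.1`) -/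
def hd (e : Edge) : Site := e.1 + latticeDir e.2

def grad (f : Site → ℝ) (e : Edge) : ℝ := f (hd e) - f e.1

def mid (f : Site → ℝ) (e : Edge) : ℝ := (f (hd e) + f e.1) / 2

/-- the constant unit one-form in direction `d` -/
def ed (d : Fin 2) (e : Edge) : ℝ := if e.2 = d then 1 else 0

/-- squared `ℓ²` norm of a one-form -/
def nrm (E : Finset Edge) (α : Edge → ℝ) : ℝ := ∑ e ∈ E, α e ^ 2

/-- product function `u(x) v(y)` -/
def tens (u v : ℤ → ℝ) (p : Site) : ℝ := u p.1 * v p.2

/-- `σ_x · A σ_y` on the edge `e = (x, y)` -/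
def pr (A : Mat) (e : Edge) (σ : Cfg) : ℝ := co (σ e.1) ⬝ᵥ A *ᵥ co (σ (hd e))

/-- the current `∑ b_e α_e σ_x · A σ_y` -/
def J (E : Finset Edge) (b : Edge → ℝ) (A : Mat) (α : Edge → ℝ) (σ : Cfg) : ℝ :=
  ∑ e ∈ E, b e * α e * pr A e σ

/-- minus the energy -/
def Ham (E : Finset Edge) (b : Edge → ℝ) : Cfg → ℝ := J E b 1 (fun _ => 1)

/-- couplings in `[0, β]` -/
def Cpl (β : ℝ) (b : Edge → ℝ) : Prop := ∀ e, 0 ≤ b e ∧ b e ≤ β

/-- a block: free sites and edges -/
structure Blk where
  I : Finset Site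
  E : Finset Edge

/-- Gibbs average in the block -/
def Blk.av (U : Blk) (b : Edge → ℝ) (F : Cfg → ℝ) : Cfg → ℝ := gE U.I (Ham U.E b) F

def Blk.cov (U : Blk) (b : Edge → ℝ) (F G : Cfg → ℝ) (σ : Cfg) : ℝ :=
  U.av b (fun ω => F ω * G ω) σ - U.av b F σ * U.av b G σ

/-- mean current given the boundary condition -/
def Blk.S (U : Blk) (b : Edge → ℝ) (A : Mat) (α : Edge → ℝ) : Cfg → ℝ := U.av b (J U.E b A α)

/-- Hessian of the free energy of the block -/
def Blk.M (U : Blk) (b : Edge → ℝ) (A B : Mat) (α α' : Edge → ℝ) (σ : Cfg) : ℝ :=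
  -U.av b (J U.E b ((1 / 2 : ℝ) • (A * B + B * A)) (fun e => α e * α' e)) σ -
    U.cov b (J U.E b A α) (J U.E b B α') σ

/-- crude majorant of the Hessian -/
def Blk.PP (U : Blk) (β : ℝ) (b : Edge → ℝ) (k : Fin 3) (α : Edge → ℝ) (σ : Cfg) : ℝ :=
  β * nrm U.E α + U.cov b (J U.E b (T k) α) (J U.E b (T k) α) σ

/-- the rectangle with lower left corner `a`, width `w`, height `h` -/
def rect (a : Site) (w h : ℕ) : Blk where
  I := Ioo a.1 (a.1 + w) ×ˢ Ioo a.2 (a.2 + h)
  E := (Ico a.1 (a.1 + w) ×ˢ Ico a.2 (a.2 + h)) ×ˢ univ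

/-- the blocks `U i`, `i ∈ s`, tile `R` -/
structure Tiling {κ : Type} (R : Blk) (s : Finset κ) (U : κ → Blk) : Prop where
  sub : ∀ i ∈ s, (U i).I ⊆ R.I
  sum : ∀ φ : Edge → ℝ, ∑ e ∈ R.E, φ e = ∑ i ∈ s, ∑ e ∈ (U i).E, φ e
  sep : ∀ i ∈ s, ∀ j ∈ s, i ≠ j → ∀ e ∈ (U j).E, e.1 ∉ (U i).I ∧ hd e ∉ (U i).I

/-- the stiffness at scale `L` is at most `ν` -/
def Stiff (β : ℝ) (L : ℕ) (ν : ℝ) : Prop :=
  ∀ b, Cpl β b → ∀ σ, (rect 0 L L).M b (T 1) (T 1) (ed 0) (ed 0) σ ≤ ν * (L : ℝ) ^ 2

/-- defect of the block Hessian in the horizontal direction -/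
def Nk (ν : ℝ) (L : ℕ) (U : Blk) (b : Edge → ℝ) (k : Fin 3) (σ : Cfg) : ℝ :=
  ν * (L : ℝ) ^ 2 - U.M b (T k) (T k) (ed 0) (ed 0) σ

/-- the box of radius `r` centred at `x` -/
def box (x : Site) (r : ℕ) : Blk := rect (x.1 - r, x.2 - r) (2 * r) (2 * r)

/-- the components `1, 2` of the magnetisation at the centre of a box of radius `r` are at most
`m`, for all couplings and boundary conditions -/
def Mag (β : ℝ) (r : ℕ) (m : ℝ) : Prop :=
  ∀ b, Cpl β b → ∀ (x : Site) (c : Fin 3), c ≠ 0 → ∀ τ, |(box x r).av b (spin x c) τ| ≤ m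

/-- constant of the belt lemma -/
def Cb (β : ℝ) : ℝ := √β * Real.exp (2 * β) + 2 * β

/-- `0` for `t ≤ 0`, `1` for `t ≥ ℓ`, affine between -/
def ramp (ℓ : ℝ) (t : ℝ) : ℝ := max 0 (min 1 (t / ℓ))

end

end Crest.Agent.R167
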