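import Crest.Agent.R167.Rot

/-!
# R167 / Gibbs: the Gibbs average `gE`

Recipes.  `gE_eq_integral`: `μ = (Lam.map (I.piecewise · τ)).tilted Φ` (`integral_tilted`), or prove the
linear lemmas directly from `P_add`, `P_mul_left`.
`gE_dlr`: `exp Φ = exp (Φ - Φ') exp Φ'`; with `Z' = P I' (exp Φ')`,
`P I (gE' F · exp Φ) = P I (P I' (gE' F · exp (Φ - Φ') · exp Φ')) = P I (gE' F · exp (Φ - Φ') · Z')
 = P I (exp (Φ - Φ') · P I' (F exp Φ')) = P I (P I' (F exp Φ)) = P I (F exp Φ)` (`P_P`, `I ∪ I' = I`).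
`gE_ibp`: `HasL.P_eq_zero` for `F · exp Φ`.  `HasL.gE`: quotient rule.
`gE_cs`: `P I (F₁ ∘ flow s · exp Φ) = P I (F₁ · exp (Φ ∘ flow (-s)))` (`P_flow_supp`, `flow_add`);
`second_diff` gives `(F exp Φ)² ≤ exp (c s²) · F₁ exp (Φ ∘ flow (-s)) · F₂ exp (Φ ∘ flow s)`; `P_sq_le`.
`gE_coarse`: prove `P I (F exp (Ψ + ∑_{i ∈ s} Φ i)) = P I (F exp (Ψ + ∑_{i ∈ s} log P (Is i) (exp (Φ i))))`
by induction on `s`, for all continuous `Ψ` independent of all `Is i`, `i ∈ s`.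
-/

set_option autoImplicit false

namespace Crest.Agent.R167

open MeasureTheory Finset Matrix

variable {I I' : Finset Site} {Φ Φ' Φ'' F F' G : Cfg → ℝ} {k : Fin 3} {f : Site → ℝ}

lemma Gibbs_cexp (hΦ : Continuous Φ) : Continuous (fun ω => Real.exp (Φ ω)) :=
  Real.continuous_exp.comp hΦ

lemma Gibbs_Zpos (hΦ : Continuous Φ) (τ : Cfg) : 0 < P I (fun ω => Real.exp (Φ ω)) τ :=
  P_pos (Gibbs_cexp hΦ) (fun _ => Real.exp_pos _) τ

lemma Gibbs_P_const_mul (c : ℝ) (τ : Cfg) : P I (fun ω => c * F ω) τ = c * P I F τ :=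
  P_mul_left (indep_const c) τ

lemma Gibbs_P_congr (h : ∀ ω, F ω = G ω) (τ : Cfg) : P I F τ = P I G τ := by
  rw [funext h]

lemma Gibbs_gE_congr (h : ∀ ω, F ω = G ω) (τ : Cfg) : gE I Φ F τ = gE I Φ G τ := by
  rw [funext h]

lemma Gibbs_gE_mul_Z (hΦ : Continuous Φ) (τ : Cfg) :
    gE I Φ F τ * P I (fun ω => Real.exp (Φ ω)) τ = P I (fun ω => F ω * Real.exp (Φ ω)) τ := by
  unfold gE
  exact div_mul_cancel₀ _ (Gibbs_Zpos hΦ τ).ne'

theorem gE_eq_integral (hΦ : Continuous Φ) (I : Finset Site) (τ : Cfg) :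
    ∃ μ : Measure Cfg, IsProbabilityMeasure μ ∧
      ∀ F : Cfg → ℝ, Continuous F → gE I Φ F τ = ∫ σ, F σ ∂μ := by
  have hc : Continuous (fun ω : Cfg => (I.piecewise ω τ : Cfg)) :=
    (continuous_piecewise I).comp (continuous_id.prodMk continuous_const)
  have hm : Measurable (fun ω : Cfg => (I.piecewise ω τ : Cfg)) := hc.measurable
  set ν : Measure Cfg := Lam.map (fun ω : Cfg => (I.piecewise ω τ : Cfg)) with hν
  have : IsProbabilityMeasure ν := Measure.isProbabilityMeasure_map hm.aemeasurable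
  have hP : ∀ G : Cfg → ℝ, Continuous G → P I G τ = ∫ σ, G σ ∂ν := by
    intro G hG
    rw [hν, integral_map hm.aemeasurable hG.aestronglyMeasurable]
    rfl
  refine ⟨ν.tilted Φ, isProbabilityMeasure_tilted (integrable_cont (Gibbs_cexp hΦ) ν), ?_⟩
  intro F hF
  rw [integral_tilted, gE, hP _ (hF.fun_mul (Gibbs_cexp hΦ)), hP _ (Gibbs_cexp hΦ), ← integral_div]
  refine integral_congr_ae (Filter.Eventually.of_forall fun σ => ?_)
  simp only [smul_eq_mul]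
  ring

lemma continuous_gE (hΦ : Continuous Φ) (hF : Continuous F) : Continuous (gE I Φ F) :=
  (continuous_P (hF.fun_mul (Gibbs_cexp hΦ))).div (continuous_P (Gibbs_cexp hΦ))
    (fun τ => (Gibbs_Zpos hΦ τ).ne')
lemma gE_const (hΦ : Continuous Φ) (c : ℝ) (τ : Cfg) : gE I Φ (fun _ => c) τ = c := by
  unfold gE
  rw [Gibbs_P_const_mul, mul_div_assoc, div_self (Gibbs_Zpos hΦ τ).ne', mul_one]
lemma gE_add (hΦ : Continuous Φ) (hF : Continuous F) (hG : Continuous G) (τ : Cfg) :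
    gE I Φ (fun σ => F σ + G σ) τ = gE I Φ F τ + gE I Φ G τ := by
  unfold gE
  rw [← add_div, ← P_add (hF.fun_mul (Gibbs_cexp hΦ)) (hG.fun_mul (Gibbs_cexp hΦ))]
  congr 1
  exact Gibbs_P_congr (fun ω => add_mul _ _ _) τ
lemma Gibbs_gE_const_mul (c : ℝ) (τ : Cfg) : gE I Φ (fun σ => c * F σ) τ = c * gE I Φ F τ := by
  unfold gE
  rw [← mul_div_assoc, ← Gibbs_P_const_mul]
  congr 1
  exact Gibbs_P_congr (fun ω => mul_assoc _ _ _) τ
lemma gE_sub (hΦ : Continuous Φ) (hF : Continuous F) (hG : Continuous G) (τ : Cfg) :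
    gE I Φ (fun σ => F σ - G σ) τ = gE I Φ F τ - gE I Φ G τ := by
  have h := gE_add (I := I) hΦ hF (continuous_const.fun_mul hG : Continuous fun σ => (-1 : ℝ) * G σ) τ
  rw [Gibbs_gE_const_mul] at h
  rw [Gibbs_gE_congr (G := fun σ => F σ + (-1 : ℝ) * G σ) (fun σ => by ring), h]
  ring
lemma gE_const_mul (c : ℝ) (τ : Cfg) : gE I Φ (fun σ => c * F σ) τ = c * gE I Φ F τ :=
  Gibbs_gE_const_mul c τ
lemma gE_neg (τ : Cfg) : gE I Φ (fun σ => -F σ) τ = -gE I Φ F τ := by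
  rw [Gibbs_gE_congr (G := fun σ => (-1 : ℝ) * F σ) (fun σ => by ring), gE_const_mul]
  ring
lemma gE_sum {κ : Type*} (hΦ : Continuous Φ) (s : Finset κ) (Fs : κ → Cfg → ℝ)
    (h : ∀ i ∈ s, Continuous (Fs i)) (τ : Cfg) :
    gE I Φ (fun σ => ∑ i ∈ s, Fs i σ) τ = ∑ i ∈ s, gE I Φ (Fs i) τ := by
  classical
  induction s using Finset.induction_on with
  | empty => simpa using gE_const (I := I) hΦ 0 τ
  | insert a s ha ih =>
    have h1 : ∀ i ∈ s, Continuous (Fs i) := fun i hi => h i (mem_insert_of_mem hi)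
    rw [sum_insert ha, ← ih h1, ← gE_add hΦ (h a (mem_insert_self _ _))
      (continuous_finsetSum s h1)]
    exact Gibbs_gE_congr (fun σ => sum_insert ha) τ
lemma gE_mono (hΦ : Continuous Φ) (hF : Continuous F) (hG : Continuous G) (h : ∀ σ, F σ ≤ G σ)
    (τ : Cfg) : gE I Φ F τ ≤ gE I Φ G τ :=
  div_le_div_of_nonneg_right
    (P_mono (hF.fun_mul (Gibbs_cexp hΦ)) (hG.fun_mul (Gibbs_cexp hΦ))
      (fun ω => mul_le_mul_of_nonneg_right (h ω) (Real.exp_pos _).le) τ) (Gibbs_Zpos hΦ τ).le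
lemma gE_nonneg (h : ∀ σ, 0 ≤ F σ) (τ : Cfg) : 0 ≤ gE I Φ F τ :=
  div_nonneg (P_nonneg (fun ω => mul_nonneg (h ω) (Real.exp_pos _).le) τ)
    (P_nonneg (fun _ => (Real.exp_pos _).le) τ)
lemma abs_gE_le (hΦ : Continuous Φ) (hF : Continuous F) (hG : Continuous G)
    (h : ∀ σ, |F σ| ≤ G σ) (τ : Cfg) : |gE I Φ F τ| ≤ gE I Φ G τ := by
  rw [abs_le]
  constructor
  · rw [← gE_neg]
    exact gE_mono hΦ hG.neg hF (fun σ => (abs_le.1 (h σ)).1) τ
  · exact gE_mono hΦ hF hG (fun σ => (abs_le.1 (h σ)).2) τ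
lemma gE_sq_le (hΦ : Continuous Φ) (hF : Continuous F) (τ : Cfg) :
    gE I Φ F τ ^ 2 ≤ gE I Φ (fun σ => F σ ^ 2) τ := by
  have hZ := Gibbs_Zpos (I := I) hΦ τ
  have h := P_sq_le (I := I) (F := fun ω => F ω * Real.exp (Φ ω))
    (F₁ := fun ω => F ω ^ 2 * Real.exp (Φ ω)) (F₂ := fun ω => Real.exp (Φ ω))
    (hF.fun_mul (Gibbs_cexp hΦ)) ((hF.pow 2).fun_mul (Gibbs_cexp hΦ)) (Gibbs_cexp hΦ)
    (fun ω => mul_nonneg (sq_nonneg _) (Real.exp_pos _).le) (fun ω => (Real.exp_pos _).le)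
    (fun ω => le_of_eq (by ring)) τ
  unfold gE
  rw [div_pow, div_le_div_iff₀ (pow_pos hZ 2) hZ]
  nlinarith [mul_le_mul_of_nonneg_right h hZ.le]
lemma gE_mul_left (hG : Indep I G) (τ : Cfg) :
    gE I Φ (fun σ => G σ * F σ) τ = G τ * gE I Φ F τ := by
  unfold gE
  rw [← mul_div_assoc, ← P_mul_left hG]
  congr 1
  exact Gibbs_P_congr (fun ω => mul_assoc _ _ _) τ
lemma indep_gE_self : Indep I (gE I Φ F) :=
  Indep.comp₂ (indep_P_self (F := fun ω => F ω * Real.exp (Φ ω)))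
    (indep_P_self (F := fun ω => Real.exp (Φ ω))) (fun a b => a / b)
lemma Indep.gE (hΦ : Indep I' Φ) (hF : Indep I' F) : Indep I' (gE I Φ F) :=
  Indep.comp₂ (Indep.P (I := I) (hF.comp₂ hΦ (fun a b => a * Real.exp b)))
    (Indep.P (I := I) (hΦ.comp Real.exp)) (fun a b => a / b)
/-- `|Cov (F, G)| ≤ (t Var F + Var G / t) / 2` -/
lemma abs_cov_le (hΦ : Continuous Φ) (hF : Continuous F) (hG : Continuous G) {t : ℝ} (ht : 0 < t)
    (τ : Cfg) : |gE I Φ (fun σ => F σ * G σ) τ - gE I Φ F τ * gE I Φ G τ| ≤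
      (t * (gE I Φ (fun σ => F σ * F σ) τ - gE I Φ F τ * gE I Φ F τ) +
        (gE I Φ (fun σ => G σ * G σ) τ - gE I Φ G τ * gE I Φ G τ) / t) / 2 := by
  have key : ∀ ε : ℝ, (t * gE I Φ F τ + ε * gE I Φ G τ) ^ 2 ≤
      t ^ 2 * gE I Φ (fun σ => F σ * F σ) τ + (2 * t * ε * gE I Φ (fun σ => F σ * G σ) τ +
        ε ^ 2 * gE I Φ (fun σ => G σ * G σ) τ) := by
    intro ε
    have c1 : Continuous fun σ => t * F σ := continuous_const.mul hF
    have c2 : Continuous fun σ => ε * G σ := continuous_const.mul hG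
    have c3 : Continuous fun σ => t ^ 2 * (F σ * F σ) := continuous_const.mul (hF.mul hF)
    have c4 : Continuous fun σ => 2 * t * ε * (F σ * G σ) := continuous_const.mul (hF.mul hG)
    have c5 : Continuous fun σ => ε ^ 2 * (G σ * G σ) := continuous_const.mul (hG.mul hG)
    have h := gE_sq_le (I := I) hΦ (c1.fun_add c2) τ
    rw [gE_add hΦ c1 c2, gE_const_mul, gE_const_mul] at h
    rw [← gE_const_mul (t ^ 2), ← gE_const_mul (2 * t * ε), ← gE_const_mul (ε ^ 2),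
      ← gE_add hΦ c4 c5, ← gE_add hΦ c3 (c4.fun_add c5)]
    exact h.trans (le_of_eq (Gibbs_gE_congr (fun σ => by ring) τ))
  have h1 := key 1
  have h2 := key (-1)
  set a := gE I Φ F τ
  set b := gE I Φ G τ
  set A := gE I Φ (fun σ => F σ * F σ) τ
  set B := gE I Φ (fun σ => G σ * G σ) τ
  set C := gE I Φ (fun σ => F σ * G σ) τ
  have e : (t * (A - a * a) + (B - b * b) / t) / 2 =
      (t ^ 2 * (A - a * a) + (B - b * b)) / (2 * t) := by
    field_simp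
  rw [e, abs_le, neg_le, le_div_iff₀ (by positivity), le_div_iff₀ (by positivity)]
  constructor <;> nlinarith

theorem gE_dlr (hΦ : Continuous Φ) (hΦ' : Continuous Φ') (hF : Continuous F) (hI : I' ⊆ I)
    (h : Indep I' (fun σ => Φ σ - Φ' σ)) (τ : Cfg) : gE I Φ (gE I' Φ' F) τ = gE I Φ F τ := by
  have hU : I ∪ I' = I := union_eq_left.2 hI
  have hE : Indep I' (fun σ => Real.exp (Φ σ - Φ' σ)) := h.comp Real.exp
  have hsplit : ∀ σ, Real.exp (Φ σ) = Real.exp (Φ σ - Φ' σ) * Real.exp (Φ' σ) := by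
    intro σ
    rw [← Real.exp_add]; congr 1; ring
  have key : ∀ σ, P I' (fun ω => gE I' Φ' F ω * Real.exp (Φ ω)) σ =
      P I' (fun ω => F ω * Real.exp (Φ ω)) σ := by
    intro σ
    have h1 : P I' (fun ω => gE I' Φ' F ω * Real.exp (Φ ω)) σ =
        (gE I' Φ' F σ * Real.exp (Φ σ - Φ' σ)) * P I' (fun ω => Real.exp (Φ' ω)) σ := by
      rw [← P_mul_left (Indep.comp₂ (indep_gE_self (I := I') (Φ := Φ') (F := F)) hE
        (fun a b => a * b))]
      exact Gibbs_P_congr (fun ω => by rw [hsplit ω]; ring) σ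
    have h2 : P I' (fun ω => F ω * Real.exp (Φ ω)) σ =
        Real.exp (Φ σ - Φ' σ) * P I' (fun ω => F ω * Real.exp (Φ' ω)) σ := by
      rw [← P_mul_left hE]
      exact Gibbs_P_congr (fun ω => by rw [hsplit ω]; ring) σ
    rw [h1, h2, ← Gibbs_gE_mul_Z (I := I') (F := F) hΦ' σ]
    ring
  have c1 : Continuous fun ω => gE I' Φ' F ω * Real.exp (Φ ω) :=
    (continuous_gE hΦ' hF).fun_mul (Gibbs_cexp hΦ)
  have c2 : Continuous fun ω => F ω * Real.exp (Φ ω) := hF.fun_mul (Gibbs_cexp hΦ)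
  have e1 := P_P (I := I) (I' := I') c1 τ
  have e2 := P_P (I := I) (I' := I') c2 τ
  rw [hU] at e1 e2
  show P I (fun ω => gE I' Φ' F ω * Real.exp (Φ ω)) τ / _ =
    P I (fun ω => F ω * Real.exp (Φ ω)) τ / _
  rw [← e1, ← e2, Gibbs_P_congr key τ]

lemma Gibbs_hasL_exp (hΦ : HasL k f Φ Φ') :
    HasL k f (fun σ => Real.exp (Φ σ)) (fun σ => Real.exp (Φ σ) * Φ' σ) :=
  hΦ.comp Real.hasDerivAt_exp Real.continuous_exp

lemma Gibbs_P_deriv (hF : HasL k f F F') (hΦ : HasL k f Φ Φ') (τ : Cfg) :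
    P I (fun σ => F' σ * Real.exp (Φ σ) + F σ * (Real.exp (Φ σ) * Φ' σ)) τ =
      P I (fun σ => F' σ * Real.exp (Φ σ)) τ + P I (fun σ => F σ * Φ' σ * Real.exp (Φ σ)) τ := by
  rw [← P_add (hF.2.1.fun_mul (Gibbs_cexp hΦ.1)) ((hF.1.fun_mul hΦ.2.1).fun_mul (Gibbs_cexp hΦ.1))]
  exact Gibbs_P_congr (fun ω => by ring) τ

theorem gE_ibp (hF : HasL k f F F') (hΦ : HasL k f Φ Φ') (hf : Supp I f) (τ : Cfg) :
    gE I Φ F' τ + gE I Φ (fun σ => F σ * Φ' σ) τ = 0 := by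
  have h := (hF.mul (Gibbs_hasL_exp hΦ)).P_eq_zero hf τ
  rw [Gibbs_P_deriv hF hΦ] at h
  unfold gE
  rw [← add_div, h, zero_div]
theorem HasL.gE (hF : HasL k f F F') (hΦ : HasL k f Φ Φ') :
    HasL k f (gE I Φ F) (fun τ => gE I Φ F' τ +
      (gE I Φ (fun σ => F σ * Φ' σ) τ - gE I Φ F τ * gE I Φ Φ' τ)) := by
  have h1 := (hF.mul (Gibbs_hasL_exp hΦ)).P (I := I)
  have h2 := (Gibbs_hasL_exp hΦ).P (I := I)
  refine (h1.div h2 (fun τ => (Gibbs_Zpos hΦ.1 τ).ne')).congr (fun _ => rfl) (fun τ => ?_)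
  have hZ := (Gibbs_Zpos (I := I) hΦ.1 τ).ne'
  rw [Gibbs_P_deriv hF hΦ, Gibbs_P_congr (G := fun σ => Φ' σ * Real.exp (Φ σ))
    (fun σ => mul_comm (Real.exp (Φ σ)) (Φ' σ))]
  unfold Crest.Agent.R167.gE
  field_simp
  ring
theorem HasL.logZ (hΦ : HasL k f Φ Φ') :
    HasL k f (fun τ => Real.log (Crest.Agent.R167.P I (fun σ => Real.exp (Φ σ)) τ))
      (Crest.Agent.R167.gE I Φ Φ') := by
  have h2 := (Gibbs_hasL_exp hΦ).P (I := I)
  refine (h2.log (fun τ => (Gibbs_Zpos hΦ.1 τ).ne')).congr (fun _ => rfl) (fun τ => ?_)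
  rw [Gibbs_P_congr (G := fun σ => Φ' σ * Real.exp (Φ σ))
    (fun σ => mul_comm (Real.exp (Φ σ)) (Φ' σ))]
  rfl
theorem gE_flow (hΦ : Continuous Φ) (hF : Continuous F) (t : ℝ)
    (h : ∀ σ, Φ (flow k f t σ) = Φ σ) (τ : Cfg) :
    gE I Φ (fun σ => F (flow k f t σ)) τ = gE I Φ F (flow k f t τ) := by
  unfold gE
  rw [← P_flow (hF.fun_mul (Gibbs_cexp hΦ)), ← P_flow (Gibbs_cexp hΦ)]
  simp only [h]

lemma Gibbs_P_shift {H : Cfg → ℝ} (hΦ : Continuous Φ) (hH : Continuous H) (hf : Supp I f) (s : ℝ)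
    (τ : Cfg) : P I (fun σ => H (flow k f s σ) * Real.exp (Φ σ)) τ =
      P I (fun σ => H σ * Real.exp (Φ (flow k f (-s) σ))) τ := by
  rw [← P_flow_supp (k := k) (F := fun σ => H σ * Real.exp (Φ (flow k f (-s) σ)))
    (hH.fun_mul (Gibbs_cexp (hΦ.comp (continuous_flow k f (-s))))) hf s τ]
  refine Gibbs_P_congr (fun σ => ?_) τ
  rw [← flow_add, neg_add_cancel, flow_zero]

/-- the Mermin–Wagner inequality -/
theorem gE_cs {F₁ F₂ : Cfg → ℝ} (hΦ : HasL k f Φ Φ') (hΦ' : HasL k f Φ' Φ'') {c : ℝ}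
    (hc : ∀ σ, -c ≤ Φ'' σ) (hf : Supp I f) (hF : Continuous F) (h₁ : Continuous F₁)
    (h₂ : Continuous F₂) (p₁ : ∀ σ, 0 ≤ F₁ σ) (p₂ : ∀ σ, 0 ≤ F₂ σ)
    (h : ∀ σ, F σ ^ 2 ≤ F₁ σ * F₂ σ) (s : ℝ) (τ : Cfg) :
    gE I Φ F τ ^ 2 ≤ Real.exp (c * s ^ 2) * (gE I Φ (fun σ => F₁ (flow k f s σ)) τ *
      gE I Φ (fun σ => F₂ (flow k f (-s) σ)) τ) := by
  have hZ := Gibbs_Zpos (I := I) hΦ.1 τ
  have c1 : Continuous fun σ => F₁ σ * Real.exp (Φ (flow k f (-s) σ)) :=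
    h₁.fun_mul (Gibbs_cexp (hΦ.1.comp (continuous_flow k f (-s))))
  have c2 : Continuous fun σ => F₂ σ * Real.exp (Φ (flow k f s σ)) :=
    h₂.fun_mul (Gibbs_cexp (hΦ.1.comp (continuous_flow k f s)))
  have hcs := P_sq_le (I := I) (F := fun ω => F ω * Real.exp (Φ ω))
    (F₁ := fun σ => Real.exp (c * s ^ 2) * (F₁ σ * Real.exp (Φ (flow k f (-s) σ))))
    (F₂ := fun σ => F₂ σ * Real.exp (Φ (flow k f s σ)))
    (hF.fun_mul (Gibbs_cexp hΦ.1)) (continuous_const.mul c1) c2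
    (fun σ => mul_nonneg (Real.exp_pos _).le (mul_nonneg (p₁ σ) (Real.exp_pos _).le))
    (fun σ => mul_nonneg (p₂ σ) (Real.exp_pos _).le)
    (fun σ => by
      have hd := second_diff hΦ hΦ' hc s σ
      have he : Real.exp (Φ σ) ^ 2 ≤ Real.exp (c * s ^ 2) *
          (Real.exp (Φ (flow k f (-s) σ)) * Real.exp (Φ (flow k f s σ))) := by
        rw [← Real.exp_add, ← Real.exp_add, ← Real.exp_nat_mul]
        apply Real.exp_le_exp.2
        push_cast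
        linarith
      calc (F σ * Real.exp (Φ σ)) ^ 2 = F σ ^ 2 * Real.exp (Φ σ) ^ 2 := mul_pow _ _ _
        _ ≤ (F₁ σ * F₂ σ) * (Real.exp (c * s ^ 2) *
          (Real.exp (Φ (flow k f (-s) σ)) * Real.exp (Φ (flow k f s σ)))) :=
            mul_le_mul (h σ) he (sq_nonneg _) (mul_nonneg (p₁ σ) (p₂ σ))
        _ = _ := by ring) τ
  rw [Gibbs_P_const_mul] at hcs
  unfold gE
  rw [Gibbs_P_shift hΦ.1 h₁ hf s, Gibbs_P_shift hΦ.1 h₂ hf (-s), neg_neg, div_pow,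
    div_mul_div_comm, ← sq, ← mul_div_assoc, ← mul_assoc]
  exact div_le_div_of_nonneg_right hcs (pow_pos hZ 2).le

lemma Gibbs_coarse {κ : Type*} (s : Finset κ) (Is : κ → Finset Site) (Φs : κ → Cfg → ℝ)
    (hc : ∀ i ∈ s, Continuous (Φs i)) (hI : ∀ i ∈ s, Is i ⊆ I)
    (hsep : ∀ i ∈ s, ∀ j ∈ s, i ≠ j → Indep (Is i) (Φs j)) (τ : Cfg) (H : Cfg → ℝ)
    (hH : Continuous H) (hHi : ∀ i ∈ s, Indep (Is i) H) :
    P I (fun σ => H σ * Real.exp (∑ i ∈ s, Φs i σ)) τ =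
      P I (fun σ => H σ *
        Real.exp (∑ i ∈ s, Real.log (P (Is i) (fun ω => Real.exp (Φs i ω)) σ))) τ := by
  classical
  induction s using Finset.induction_on generalizing H with
  | empty => simp
  | insert a s ha ih =>
    have ma : a ∈ insert a s := mem_insert_self _ _
    have ms : ∀ i ∈ s, i ∈ insert a s := fun i hi => mem_insert_of_mem hi
    have ne : ∀ i ∈ s, a ≠ i := fun i hi h => ha (h ▸ hi)
    have hU : I ∪ Is a = I := union_eq_left.2 (hI a ma)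
    have cS : Continuous fun σ => ∑ i ∈ s, Φs i σ :=
      continuous_finsetSum s fun i hi => hc i (ms i hi)
    have iS : Indep (Is a) (fun σ => H σ * Real.exp (∑ i ∈ s, Φs i σ)) :=
      (hHi a ma).comp₂ (indep_sum s Φs fun i hi => hsep a ma i (ms i hi) (ne i hi))
        (fun x y => x * Real.exp y)
    have cZ : Continuous (P (Is a) (fun ω => Real.exp (Φs a ω))) :=
      continuous_P (Gibbs_cexp (hc a ma))
    have c1 : Continuous fun σ => H σ * Real.exp (∑ i ∈ insert a s, Φs i σ) :=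
      hH.fun_mul (Gibbs_cexp (continuous_finsetSum _ hc))
    have e1 := P_P (I := I) (I' := Is a) c1 τ
    rw [hU] at e1
    have e2 : ∀ σ, P (Is a) (fun σ => H σ * Real.exp (∑ i ∈ insert a s, Φs i σ)) σ =
        (H σ * P (Is a) (fun ω => Real.exp (Φs a ω)) σ) * Real.exp (∑ i ∈ s, Φs i σ) := by
      intro σ
      rw [Gibbs_P_congr (G := fun σ => (H σ * Real.exp (∑ i ∈ s, Φs i σ)) * Real.exp (Φs a σ))
        (fun σ => by rw [sum_insert ha, Real.exp_add]; ring), P_mul_left iS]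
      ring
    rw [← e1, Gibbs_P_congr e2, ih (fun i hi => hc i (ms i hi)) (fun i hi => hI i (ms i hi))
      (fun i hi j hj => hsep i (ms i hi) j (ms j hj)) _ (hH.fun_mul cZ)
      (fun i hi => (hHi i (ms i hi)).comp₂
        (Indep.P (I := Is a) ((hsep i (ms i hi) a ma (ne i hi).symm).comp Real.exp))
        (fun x y => x * y))]
    refine Gibbs_P_congr (fun σ => ?_) τ
    rw [sum_insert ha, Real.exp_add, Real.exp_log (Gibbs_Zpos (hc a ma) σ)]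
    ring

/-- integrate out the interiors of the blocks -/
theorem gE_coarse {κ : Type*} (s : Finset κ) (Is : κ → Finset Site) (Φs : κ → Cfg → ℝ)
    (hc : ∀ i ∈ s, Continuous (Φs i)) (hI : ∀ i ∈ s, Is i ⊆ I)
    (hsep : ∀ i ∈ s, ∀ j ∈ s, i ≠ j → Indep (Is i) (Φs j)) (hF : Continuous F)
    (hFi : ∀ i ∈ s, Indep (Is i) F) (τ : Cfg) :
    gE I (fun σ => ∑ i ∈ s, Φs i σ) F τ =
      gE I (fun σ => ∑ i ∈ s, Real.log (P (Is i) (fun ω => Real.exp (Φs i ω)) σ)) F τ := by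
  have h1 := Gibbs_coarse s Is Φs hc hI hsep τ F hF hFi
  have h2 := Gibbs_coarse s Is Φs hc hI hsep τ (fun _ => 1) continuous_const
    (fun _ _ => indep_const 1)
  simp only [one_mul] at h2
  unfold gE
  rw [h1, h2]
theorem gE_reindex (e : Site ≃ Site) (hΦ : Continuous Φ) (hF : Continuous F) (τ : Cfg) :
    gE (I.map e.toEmbedding) (fun σ => Φ (σ ∘ e)) (fun σ => F (σ ∘ e)) τ = gE I Φ F (τ ∘ e) := by
  unfold gE
  rw [← P_reindex e (hF.fun_mul (Gibbs_cexp hΦ)), ← P_reindex e (Gibbs_cexp hΦ)]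
/-- free boundary condition -/
theorem gE_eq_div (hΦ : ∀ σ σ' : Cfg, (∀ x ∈ I, σ x = σ' x) → Φ σ = Φ σ')
    (hF : ∀ σ σ' : Cfg, (∀ x ∈ I, σ x = σ' x) → F σ = F σ') (τ : Cfg) :
    gE I Φ F τ = (∫ σ, F σ * Real.exp (Φ σ) ∂Lam) / ∫ σ, Real.exp (Φ σ) ∂Lam := by
  unfold gE
  rw [P_eq_integral (F := fun σ => F σ * Real.exp (Φ σ))
      (fun σ σ' h => by simp only [hΦ σ σ' h, hF σ σ' h]),
    P_eq_integral (F := fun σ => Real.exp (Φ σ)) (fun σ σ' h => by simp only [hΦ σ σ' h])]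

end Crest.Agent.R167
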