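import Crest.Agent.R167.GinibreAux3

/-!
# R167 / Ginibre: Griffiths' first inequality and the negative correlation of different components

General lemma (`cone_exp`): on a probability space let `𝒢` be a set of bounded measurable functions with
`0 ≤ ∫ ∏ l` for every list (or multiset) `l` of elements of `𝒢`.  Let `𝒞` be the set of finite
nonnegative combinations of such products (closed under `+`, `*`, nonnegative scalars; e.g. an
inductive predicate).  Then `0 ≤ ∫ g · exp h` for `g, h ∈ 𝒞` (`exp h = ∑ hⁿ/n!`, dominated convergence /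
`hasSum_integral_of_summable_norm`).

`griffiths`: `𝒢 = {spin x c}`.  A product is `∏_x ∏_c (spin x c)^{n x c}`; if some `n x c` is odd, the
reflection of the component `c` at the site `x` (`measurePreserving_site`, `measurePreserving_matS` with
a diagonal matrix) changes the sign, so the integral vanishes; otherwise the integrand is `≥ 0`.
(No factorisation is needed: use a count function on the list.)  `Ham E b ∈ 𝒞`:
`pr 1 e = ∑_c spin e.1 c * spin (hd e) c`.

`ginibre`: `F = spin δ' 0 * spin z 0`, `G = spin x 1 * spin δ 1 + spin x 2 * spin δ 2`.  It suffices that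
`0 ≤ ∫∫ (F σ - F σ') (G σ' - G σ) exp (Ham σ + Ham σ')`.  Write `z = spin · 0`, `a = √(1 - z²)`.
(1) For `θ` Haar distributed on `Circle` (or uniform on `[0, 2π)`), independent of `v ∼ lam`, the point
`(v₀, a cos θ, a sin θ)` has law `lam` (for fixed `v` it is the average of `Rot 0 θ v`, by translation
invariance in `θ`; `Rot 0 θ` preserves `lam`).  (2) `(α, γ) ↦ (α γ, α γ⁻¹)` preserves the Haar
probability of `Circle²` (`MonoidHom.measurePreserving`: continuous, surjective).  So replace `σ_x` by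
`(z_x, a_x e^{i(α_x + γ_x)})` and `σ'_x` by `(z'_x, a'_x e^{i(α_x - γ_x)})`.  Generators on the space of
`(σ, σ', α, γ)`: `u± x = z_x ± z'_x`, `p x = a_x + a'_x`, `q x = a'_x - a_x`,
`C x y = cos (α_x - α_y) cos (γ_x - γ_y)`, `S x y = sin (α_x - α_y) sin (γ_x - γ_y)`.
`z z + z' z' = (u⁺u⁺ + u⁻u⁻)/2`, `z z - z' z' = (u⁺u⁻ + u⁻u⁺)/2`, planar parts:
sum `= (pp + qq) C/2 + (pq + qp) S/2`, difference (primed minus unprimed) `= (pq + qp) C/2 + (pp + qq) S/2`.
A product of generators is `Π₁(σ, σ') Π(α) Π(γ)`; the angular integral is a square.  For `Π₁`, at a site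
with exponents `(u⁺)^k (u⁻)^l p^i q^j`: `k + l` odd: the flip `(z, z') ↦ (-z, -z')` at this site gives
zero; `l + j` odd: the swap `σ_x ↔ σ'_x` gives zero; otherwise `k ≡ l ≡ j (mod 2)` at every site and
the integrand is `≥ 0` because `u⁺ u⁻ q = (z² - z'²)(a' - a) ≥ 0`.
-/

set_option autoImplicit false

namespace Crest.Agent.R167

open MeasureTheory Finset Matrix

theorem griffiths (E : Finset Edge) {b : Edge → ℝ} (hb : ∀ e, 0 ≤ b e) (l : List (Site × Fin 3)) :
    0 ≤ ∫ σ, (l.map (fun p => spin p.1 p.2 σ)).prod * Real.exp (Ham E b σ) ∂Lam := by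
  have gen : ∀ x c, GinCone (fun (p : Site × Fin 3) σ => spin p.1 p.2 σ) (spin x c) :=
    fun x c => GinCone.gen (g := fun (p : Site × Fin 3) σ => spin p.1 p.2 σ) (x, c)
  refine GinCone.integral_exp_nonneg (g := fun (p : Site × Fin 3) σ => spin p.1 p.2 σ) Lam
    (fun p => continuous_spin p.1 p.2) gin_griffiths_list (GinCone.mono l) ?_
  exact (GinCone.sum E _ fun e _ => (GinCone.sum univ _ fun c _ =>
    (gen e.1 c).mul (gen (hd e) c)).smul (hb e)).congr (gin_Ham_eq E b)

theorem ginibre (E : Finset Edge) {b : Edge → ℝ} (hb : ∀ e, 0 ≤ b e) (x δ δ' z : Site) :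
    (∫ σ, (spin x 1 σ * spin δ 1 σ + spin x 2 σ * spin δ 2 σ) * (spin δ' 0 σ * spin z 0 σ) *
        Real.exp (Ham E b σ) ∂Lam) * ∫ σ, Real.exp (Ham E b σ) ∂Lam ≤
      (∫ σ, (spin x 1 σ * spin δ 1 σ + spin x 2 σ * spin δ 2 σ) * Real.exp (Ham E b σ) ∂Lam) *
        ∫ σ, spin δ' 0 σ * spin z 0 σ * Real.exp (Ham E b σ) ∂Lam := by
  let Φ : (Site ⊕ Site → Fin 3 → ℝ) → ℝ := fun c =>
    ((c (Sum.inl δ') 0 * c (Sum.inl z) 0 - c (Sum.inr δ') 0 * c (Sum.inr z) 0) *
      ((c (Sum.inr x) 1 * c (Sum.inr δ) 1 + c (Sum.inr x) 2 * c (Sum.inr δ) 2) -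
        (c (Sum.inl x) 1 * c (Sum.inl δ) 1 + c (Sum.inl x) 2 * c (Sum.inl δ) 2))) *
      Real.exp (∑ e ∈ E, b e *
        ((c (Sum.inl e.1) 0 * c (Sum.inl (hd e)) 0 + c (Sum.inr e.1) 0 * c (Sum.inr (hd e)) 0) +
          ((c (Sum.inl e.1) 1 * c (Sum.inl (hd e)) 1 + c (Sum.inl e.1) 2 * c (Sum.inl (hd e)) 2) +
          (c (Sum.inr e.1) 1 * c (Sum.inr (hd e)) 1 + c (Sum.inr e.1) 2 * c (Sum.inr (hd e)) 2))))
  have hΦ : Continuous Φ := by fun_prop
  have h1 : 0 ≤ ∫ p, Φ (ginPsi p) ∂ginN :=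
    GinCone.integral_exp_nonneg ginN continuous_ginG gin_list_nonneg
      ((gin_cone_zz_diff δ' z).mul (gin_cone_pl_diff x δ))
      (GinCone.sum E _ fun e _ =>
        ((gin_cone_zz_sum e.1 (hd e)).add (gin_cone_pl_sum e.1 (hd e))).smul (hb e))
  rw [← gin_polar Φ hΦ, ← gin_mp_elim.map_eq, integral_map gin_mp_elim.aemeasurable
    (Continuous.aestronglyMeasurable (by have := continuous_co; fun_prop))] at h1
  set F : Cfg → ℝ := fun σ => spin δ' 0 σ * spin z 0 σ with hF
  set G : Cfg → ℝ := fun σ => spin x 1 σ * spin δ 1 σ + spin x 2 σ * spin δ 2 σ with hG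
  set W : Cfg → ℝ := fun σ => Real.exp (Ham E b σ) with hW
  have cF : Continuous F := (continuous_spin _ _).mul (continuous_spin _ _)
  have cG : Continuous G := ((continuous_spin _ _).mul (continuous_spin _ _)).add
    ((continuous_spin _ _).mul (continuous_spin _ _))
  have cW : Continuous W := Real.continuous_exp.comp continuous_Ham
  have e : ∀ p : Cfg × Cfg, Φ (fun s => co ((Sum.elim p.1 p.2 : GinD) s)) =
      ((F p.1 * W p.1) * (G p.2 * W p.2) + (G p.1 * W p.1) * (F p.2 * W p.2)) -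
        ((G p.1 * F p.1 * W p.1) * W p.2 + W p.1 * (G p.2 * F p.2 * W p.2)) := fun p => by
    have : ∑ e ∈ E, b e *
        ((co (p.1 e.1) 0 * co (p.1 (hd e)) 0 + co (p.2 e.1) 0 * co (p.2 (hd e)) 0) +
          ((co (p.1 e.1) 1 * co (p.1 (hd e)) 1 + co (p.1 e.1) 2 * co (p.1 (hd e)) 2) +
          (co (p.2 e.1) 1 * co (p.2 (hd e)) 1 + co (p.2 e.1) 2 * co (p.2 (hd e)) 2))) =
        Ham E b p.1 + Ham E b p.2 := by
      rw [gin_Ham_eq, gin_Ham_eq, ← sum_add_distrib]
      refine sum_congr rfl fun e _ => ?_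
      simp only [Fin.sum_univ_three, spin]
      ring
    simp only [Φ, Sum.elim_inl, Sum.elim_inr, this, Real.exp_add, hF, hG, hW, spin]
    ring
  simp only [e] at h1
  rw [integral_sub (gin_integrable _ (by fun_prop)) (gin_integrable _ (by fun_prop)),
    integral_add (gin_integrable _ (by fun_prop)) (gin_integrable _ (by fun_prop)),
    integral_add (gin_integrable _ (by fun_prop)) (gin_integrable _ (by fun_prop)),
    integral_prod_mul (fun σ => F σ * W σ) (fun σ => G σ * W σ),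
    integral_prod_mul (fun σ => G σ * W σ) (fun σ => F σ * W σ),
    integral_prod_mul (fun σ => G σ * F σ * W σ) W,
    integral_prod_mul W (fun σ => G σ * F σ * W σ)] at h1
  change (∫ σ, G σ * F σ * W σ ∂Lam) * ∫ σ, W σ ∂Lam ≤
    (∫ σ, G σ * W σ ∂Lam) * ∫ σ, F σ * W σ ∂Lam
  linarith

end Crest.Agent.R167
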