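import Crest.Agent.R167.Cur

/-!
# R167 / GinibreAux1: the cone lemma and the sign lemma
-/

set_option autoImplicit false

namespace Crest.Agent.R167

open MeasureTheory Finset Matrix Filter Topology

section cone

variable {Ω ι : Type*}

/-- finite nonnegative combinations of products of generators -/
inductive GinCone (g : ι → Ω → ℝ) : (Ω → ℝ) → Prop
  | mono (l : List ι) : GinCone g (fun ω => (l.map (fun i => g i ω)).prod)
  | add {f f' : Ω → ℝ} : GinCone g f → GinCone g f' → GinCone g (fun ω => f ω + f' ω)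
  | smul {f : Ω → ℝ} {c : ℝ} : 0 ≤ c → GinCone g f → GinCone g (fun ω => c * f ω)

variable {g : ι → Ω → ℝ}

lemma GinCone.congr {f f' : Ω → ℝ} (h : GinCone g f) (e : ∀ ω, f' ω = f ω) : GinCone g f' := by
  rw [funext e]; exact h

lemma GinCone.one : GinCone g (fun _ => 1) := (GinCone.mono []).congr (by simp)

lemma GinCone.const {c : ℝ} (hc : 0 ≤ c) : GinCone g (fun _ => c) :=
  (GinCone.one.smul hc).congr (by simp)

lemma GinCone.gen (i : ι) : GinCone g (g i) := (GinCone.mono [i]).congr (by simp)

lemma GinCone.mono_mul (l : List ι) {f : Ω → ℝ} (h : GinCone g f) :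
    GinCone g (fun ω => (l.map (fun i => g i ω)).prod * f ω) := by
  induction h with
  | mono l' => exact (GinCone.mono (l ++ l')).congr (by simp)
  | add _ _ ih ih' => exact (ih.add ih').congr (fun ω => by ring)
  | smul hc _ ih => exact (ih.smul hc).congr (fun ω => by ring)

lemma GinCone.mul {f f' : Ω → ℝ} (h : GinCone g f) (h' : GinCone g f') :
    GinCone g (fun ω => f ω * f' ω) := by
  induction h with
  | mono l => exact h'.mono_mul l
  | add _ _ ih ih' => exact (ih.add ih').congr (fun ω => by ring)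
  | smul hc _ ih => exact (ih.smul hc).congr (fun ω => by ring)

lemma GinCone.pow {f : Ω → ℝ} (h : GinCone g f) (n : ℕ) : GinCone g (fun ω => f ω ^ n) := by
  induction n with
  | zero => exact GinCone.one.congr (by simp)
  | succ n ih => exact (ih.mul h).congr (fun ω => by ring)

lemma GinCone.sum {κ : Type*} (s : Finset κ) (f : κ → Ω → ℝ) (h : ∀ i ∈ s, GinCone g (f i)) :
    GinCone g (fun ω => ∑ i ∈ s, f i ω) := by
  classical
  induction s using Finset.induction_on with
  | empty => exact (GinCone.const le_rfl).congr (by simp)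
  | insert a s ha ih =>
    exact ((h a (mem_insert_self _ _)).add (ih fun i hi => h i (mem_insert_of_mem hi))).congr
      (fun ω => by rw [sum_insert ha])

variable [TopologicalSpace Ω]

lemma gin_continuous_list (hg : ∀ i, Continuous (g i)) (l : List ι) :
    Continuous (fun ω => (l.map (fun i => g i ω)).prod) := by
  induction l with
  | nil => simpa using continuous_const
  | cons a l ih =>
    simp only [List.map_cons, List.prod_cons]
    exact (hg a).mul ih

lemma GinCone.continuous (hg : ∀ i, Continuous (g i)) {f : Ω → ℝ} (h : GinCone g f) :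
    Continuous f := by
  induction h with
  | mono l => exact gin_continuous_list hg l
  | add _ _ ih ih' => exact ih.add ih'
  | smul _ _ ih => exact continuous_const.mul ih

variable [CompactSpace Ω] [MeasurableSpace Ω] [OpensMeasurableSpace Ω]

lemma gin_integrable (μ : Measure Ω) [IsFiniteMeasure μ] {f : Ω → ℝ} (hf : Continuous f) :
    Integrable f μ :=
  hf.integrable_of_hasCompactSupport (HasCompactSupport.of_compactSpace f)

lemma GinCone.integral_nonneg (μ : Measure Ω) [IsFiniteMeasure μ] (hg : ∀ i, Continuous (g i))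
    (hl : ∀ l : List ι, 0 ≤ ∫ ω, (l.map (fun i => g i ω)).prod ∂μ) {f : Ω → ℝ}
    (h : GinCone g f) : 0 ≤ ∫ ω, f ω ∂μ := by
  induction h with
  | mono l => exact hl l
  | add h h' ih ih' =>
    rw [integral_add (gin_integrable μ (h.continuous hg)) (gin_integrable μ (h'.continuous hg))]
    exact add_nonneg ih ih'
  | smul hc _ ih =>
    rw [integral_const_mul]
    exact mul_nonneg hc ih

theorem GinCone.integral_exp_nonneg (μ : Measure Ω) [IsFiniteMeasure μ]
    (hg : ∀ i, Continuous (g i))
    (hl : ∀ l : List ι, 0 ≤ ∫ ω, (l.map (fun i => g i ω)).prod ∂μ) {f h : Ω → ℝ}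
    (hf : GinCone g f) (hh : GinCone g h) : 0 ≤ ∫ ω, f ω * Real.exp (h ω) ∂μ := by
  have cf := hf.continuous hg
  have ch := hh.continuous hg
  have key : ∀ n : ℕ, GinCone g (fun ω => f ω * (1 + h ω / (n : ℝ)) ^ n) := fun n =>
    hf.mul (((GinCone.one.add (hh.smul (c := (n : ℝ)⁻¹) (by positivity))).pow n).congr
      (fun ω => by rw [div_eq_inv_mul]))
  have lim : Tendsto (fun n : ℕ => ∫ ω, f ω * (1 + h ω / (n : ℝ)) ^ n ∂μ) atTop
      (𝓝 (∫ ω, f ω * Real.exp (h ω) ∂μ)) := by
    refine tendsto_integral_of_dominated_convergence (fun ω => |f ω| * Real.exp |h ω|)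
      (fun n => ((key n).continuous hg).aestronglyMeasurable)
      (gin_integrable μ (by fun_prop)) (fun n => ae_of_all _ fun ω => ?_)
      (ae_of_all _ fun ω => ?_)
    · rw [Real.norm_eq_abs, abs_mul, abs_pow]
      refine mul_le_mul_of_nonneg_left ?_ (abs_nonneg _)
      rcases Nat.eq_zero_or_pos n with rfl | hn
      · simp
      · have hn' : (0 : ℝ) < n := by exact_mod_cast hn
        have h1 : |1 + h ω / (n : ℝ)| ≤ Real.exp (|h ω| / n) := by
          refine le_trans ?_ (Real.add_one_le_exp _)
          calc |1 + h ω / (n : ℝ)| ≤ |(1 : ℝ)| + |h ω / n| := abs_add_le _ _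
            _ = |h ω| / n + 1 := by rw [abs_one, abs_div, abs_of_pos hn']; ring
        calc |1 + h ω / (n : ℝ)| ^ n ≤ Real.exp (|h ω| / n) ^ n :=
              pow_le_pow_left₀ (abs_nonneg _) h1 n
          _ = Real.exp |h ω| := by
              rw [← Real.exp_nat_mul]; congr 1; field_simp
    · exact (Real.tendsto_one_add_div_pow_exp (h ω)).const_mul _
  exact ge_of_tendsto' lim (fun n => (key n).integral_nonneg μ hg hl)

end cone

/-- a product of site factors, each nonnegative or odd under a symmetry fixing the others -/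
theorem gin_sign {Ω κ : Type*} [MeasurableSpace Ω] (μ : Measure Ω) (S : Finset κ)
    (m : κ → Ω → ℝ) (hm : AEStronglyMeasurable (fun ω => ∏ x ∈ S, m x ω) μ)
    (h : ∀ x ∈ S, (∀ ω, 0 ≤ m x ω) ∨ ∃ T : Ω → Ω, MeasurePreserving T μ μ ∧
      (∀ ω, m x (T ω) = -m x ω) ∧ ∀ y, y ≠ x → ∀ ω, m y (T ω) = m y ω) :
    0 ≤ ∫ ω, ∏ x ∈ S, m x ω ∂μ := by
  classical
  by_cases hall : ∀ x ∈ S, ∀ ω, 0 ≤ m x ω
  · exact integral_nonneg fun ω => prod_nonneg fun x hx => hall x hx ω
  · push Not at hall
    obtain ⟨x, hx, ω₀, hω₀⟩ := hall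
    rcases h x hx with h0 | ⟨T, hT, h1, h2⟩
    · exact absurd (h0 ω₀) (not_le.2 hω₀)
    · have e1 : ∫ ω, ∏ y ∈ S, m y ω ∂μ = ∫ ω, ∏ y ∈ S, m y (T ω) ∂μ := by
        conv_lhs => rw [← hT.map_eq]
        exact integral_map hT.aemeasurable (by rw [hT.map_eq]; exact hm)
      have e2 : ∀ ω, ∏ y ∈ S, m y (T ω) = -∏ y ∈ S, m y ω := fun ω => by
        rw [← mul_prod_erase S _ hx, ← mul_prod_erase S (fun y => m y ω) hx, h1,
          prod_congr rfl fun y hy => h2 y (ne_of_mem_erase hy) ω]
        ring
      simp only [e2, integral_neg] at e1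
      linarith

/-- a product over a list of (site, type) pairs, sorted by sites -/
lemma gin_list_prod {κ τ : Type*} [Fintype τ] (l : List (κ × τ)) :
    ∃ (S : Finset κ) (n : κ → τ → ℕ), ∀ F : κ → τ → ℝ,
      (l.map (fun p => F p.1 p.2)).prod = ∏ x ∈ S, ∏ k, F x k ^ n x k := by
  classical
  refine ⟨(l.map Prod.fst).toFinset, fun x k => @List.count _ instBEqOfDecidableEq (x, k) l,
    fun F => ?_⟩
  rw [Finset.prod_list_map_count l (fun p => F p.1 p.2), ← Finset.prod_product'
    (f := fun x k => F x k ^ @List.count _ instBEqOfDecidableEq (x, k) l)]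
  refine Finset.prod_subset (fun p hp => ?_) (fun p _ hp => ?_)
  · simp only [List.mem_toFinset] at hp
    simp only [mem_product, List.mem_toFinset, mem_univ, and_true]
    exact List.mem_map_of_mem hp
  · simp only [List.mem_toFinset] at hp
    rw [@List.count_eq_zero_of_not_mem _ instBEqOfDecidableEq _ _ _ hp, pow_zero]

end Crest.Agent.R167
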