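import Crest.Agent.R167.GinibreAux1

/-!
# R167 / GinibreAux2: the doubled configuration space and its symmetries
-/

set_option autoImplicit false

namespace Crest.Agent.R167

open MeasureTheory Finset Matrix

noncomputable section

lemma gin_mp_site {κ : Type*} (g : κ → Sph → Sph) (hg : ∀ x, MeasurePreserving (g x) lam lam) :
    MeasurePreserving (fun (σ : κ → Sph) x => g x (σ x)) (Measure.infinitePi fun _ => lam)
      (Measure.infinitePi fun _ => lam) := by
  refine ⟨measurable_pi_lambda _ fun x => (hg x).measurable.comp (measurable_pi_apply x), ?_⟩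
  rw [Measure.infinitePi_map_pi _ (fun x => (hg x).measurable)]
  congr 1
  funext x
  exact (hg x).map_eq

lemma gin_mp_reindex {κ : Type*} (e : κ ≃ κ) :
    MeasurePreserving (fun (σ : κ → Sph) x => σ (e x)) (Measure.infinitePi fun _ => lam)
      (Measure.infinitePi fun _ => lam) :=
  ⟨measurable_pi_lambda _ fun x => measurable_pi_apply (e x),
    Measure.map_infinitePi_infinitePi_of_inj (P := fun _ : κ => lam) e.injective⟩

/-- reflection of the component `c` -/
def ginRefl (c : Fin 3) : Sph → Sph :=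
  matS (diagonal fun i => if i = c then -1 else 1) (by
    rw [diagonal_transpose, diagonal_mul_diagonal, ← diagonal_one]
    congr 1
    funext i
    split_ifs <;> simp)

lemma co_ginRefl (c : Fin 3) (v : Sph) (i : Fin 3) :
    co (ginRefl c v) i = (if i = c then -1 else 1) * co v i := by
  rw [ginRefl, co_matS, mulVec_diagonal]

lemma mp_ginRefl (c : Fin 3) : MeasurePreserving (ginRefl c) lam lam := measurePreserving_matS _ _

lemma gin_Ham_eq (E : Finset Edge) (b : Edge → ℝ) (σ : Cfg) :
    Ham E b σ = ∑ e ∈ E, b e * ∑ c, spin e.1 c σ * spin (hd e) c σ := by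
  simp [Ham, J, pr, spin, dotProduct]

theorem gin_griffiths_list (l : List (Site × Fin 3)) :
    0 ≤ ∫ σ, (l.map (fun p => spin p.1 p.2 σ)).prod ∂Lam := by
  classical
  obtain ⟨S, n, hS⟩ := gin_list_prod l
  have e : ∀ σ : Cfg, (l.map (fun p => spin p.1 p.2 σ)).prod =
      ∏ x ∈ S, ∏ k, spin x k σ ^ n x k := fun σ => hS (fun x k => spin x k σ)
  simp only [e]
  refine gin_sign Lam S (fun x σ => ∏ k, spin x k σ ^ n x k) ?_ fun x _ => ?_
  · refine Continuous.aestronglyMeasurable ?_
    exact continuous_finsetProd _ fun x _ => continuous_finsetProd _ fun k _ =>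
      (continuous_spin x k).pow _
  · by_cases h : ∀ k, Even (n x k)
    · exact Or.inl fun σ => prod_nonneg fun k _ => (h k).pow_nonneg _
    · push Not at h
      obtain ⟨c, hc⟩ := h
      rw [Nat.not_even_iff_odd] at hc
      refine Or.inr ⟨fun σ y => (if y = x then ginRefl c else id) (σ y), ?_, fun σ => ?_,
        fun y hy σ => ?_⟩
      · refine gin_mp_site _ fun y => ?_
        split_ifs
        · exact mp_ginRefl c
        · exact MeasurePreserving.id _
      · simp only [spin, if_true, co_ginRefl]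
        rw [← mul_prod_erase _ _ (mem_univ c), ← mul_prod_erase _ (fun k => co (σ x) k ^ n x k)
          (mem_univ c), prod_congr rfl fun k hk => by rw [if_neg (ne_of_mem_erase hk), one_mul]]
        simp [hc.neg_pow]
      · simp only [spin, if_neg hy, id]

/-- doubled configurations -/
abbrev GinD := Site ⊕ Site → Sph

def ginM : Measure GinD := Measure.infinitePi (fun _ => lam)

instance gin_prob_M : IsProbabilityMeasure ginM := by unfold ginM; infer_instance

theorem gin_mp_elim :
    MeasurePreserving (fun p : Cfg × Cfg => (Sum.elim p.1 p.2 : GinD)) (Lam.prod Lam) ginM := by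
  classical
  have hm : Measurable (fun p : Cfg × Cfg => (Sum.elim p.1 p.2 : GinD)) := by
    refine measurable_pi_lambda _ fun s => ?_
    rcases s with x | x
    · exact (measurable_pi_apply x).comp measurable_fst
    · exact (measurable_pi_apply x).comp measurable_snd
  refine ⟨hm, ?_⟩
  refine Measure.eq_infinitePi _ fun s t ht => ?_
  rw [Measure.map_apply hm (.pi s.countable_toSet fun _ _ => ht _)]
  have : (fun p : Cfg × Cfg => (Sum.elim p.1 p.2 : GinD)) ⁻¹' ((s : Set (Site ⊕ Site)).pi t) =
      ((s.toLeft : Set Site).pi fun x => t (Sum.inl x)) ×ˢ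
        ((s.toRight : Set Site).pi fun x => t (Sum.inr x)) := by
    ext p
    simp [Set.mem_pi]
  rw [this, Measure.prod_prod, Lam, Measure.infinitePi_pi _ (fun x _ => ht _),
    Measure.infinitePi_pi _ (fun x _ => ht _), Finset.prod_sum_eq_prod_toLeft_mul_prod_toRight]

/-- the planar radius -/
def ginA (v : Sph) : ℝ := √(co v 1 ^ 2 + co v 2 ^ 2)

lemma ginA_nonneg (v : Sph) : 0 ≤ ginA v := Real.sqrt_nonneg _

lemma ginA_sq (v : Sph) : ginA v ^ 2 = 1 - co v 0 ^ 2 := by
  have h := co_dot v
  simp only [dotProduct, Fin.sum_univ_three] at h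
  rw [ginA, Real.sq_sqrt (by positivity)]
  nlinarith

lemma continuous_ginA : Continuous ginA := by
  have h := continuous_co
  unfold ginA
  fun_prop

lemma ginA_refl (v : Sph) : ginA (ginRefl 0 v) = ginA v := by
  simp [ginA, co_ginRefl]

/-- the four site generators `u⁺, u⁻, p, q` -/
def ginU (k : Fin 4) (v w : Sph) : ℝ :=
  ![co v 0 + co w 0, co v 0 - co w 0, ginA v + ginA w, ginA w - ginA v] k

lemma continuous_ginU (k : Fin 4) (s t : Site ⊕ Site) :
    Continuous (fun ω : GinD => ginU k (ω s) (ω t)) := by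
  have h := continuous_co
  have h' := continuous_ginA
  fin_cases k <;> simp only [ginU] <;> simp <;> fun_prop

lemma ginU_uuq (v w : Sph) : 0 ≤ ginU 0 v w * ginU 1 v w * ginU 3 v w := by
  have h1 := ginA_sq v
  have h2 := ginA_sq w
  have h3 := ginA_nonneg v
  have h4 := ginA_nonneg w
  have : ginU 0 v w * ginU 1 v w * ginU 3 v w = (ginA w + ginA v) * (ginA w - ginA v) ^ 2 := by
    simp only [ginU]
    simp
    have : (co v 0 + co w 0) * (co v 0 - co w 0) = (ginA w + ginA v) * (ginA w - ginA v) := by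
      nlinarith
    rw [this]; ring
  rw [this]; positivity

theorem gin_site_list (l : List (Site × Fin 4)) :
    0 ≤ ∫ ω, (l.map (fun p => ginU p.2 (ω (Sum.inl p.1)) (ω (Sum.inr p.1)))).prod ∂ginM := by
  classical
  obtain ⟨S, n, hS⟩ := gin_list_prod l
  have e : ∀ ω : GinD, (l.map (fun p => ginU p.2 (ω (Sum.inl p.1)) (ω (Sum.inr p.1)))).prod =
      ∏ x ∈ S, ∏ k, ginU k (ω (Sum.inl x)) (ω (Sum.inr x)) ^ n x k :=
    fun ω => hS (fun x k => ginU k (ω (Sum.inl x)) (ω (Sum.inr x)))
  simp only [e]
  refine gin_sign ginM S (fun x ω => ∏ k, ginU k (ω (Sum.inl x)) (ω (Sum.inr x)) ^ n x k) ?_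
    fun x _ => ?_
  · refine Continuous.aestronglyMeasurable ?_
    exact continuous_finsetProd _ fun x _ => continuous_finsetProd _ fun k _ =>
      (continuous_ginU k _ _).pow _
  · by_cases h1 : Odd (n x 0 + n x 1)
    · refine Or.inr ⟨fun ω s => (if s = Sum.inl x ∨ s = Sum.inr x then ginRefl 0 else id) (ω s),
        ?_, fun ω => ?_, fun y hy ω => ?_⟩
      · refine gin_mp_site _ fun y => ?_
        split_ifs
        · exact mp_ginRefl 0
        · exact MeasurePreserving.id _
      · have a0 : ∀ v w, ginU 0 (ginRefl 0 v) (ginRefl 0 w) = -ginU 0 v w := fun v w => by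
          simp [ginU, co_ginRefl]; ring
        have a1 : ∀ v w, ginU 1 (ginRefl 0 v) (ginRefl 0 w) = -ginU 1 v w := fun v w => by
          simp [ginU, co_ginRefl]; ring
        have a2 : ∀ v w, ginU 2 (ginRefl 0 v) (ginRefl 0 w) = ginU 2 v w := fun v w => by
          simp [ginU, ginA_refl]
        have a3 : ∀ v w, ginU 3 (ginRefl 0 v) (ginRefl 0 w) = ginU 3 v w := fun v w => by
          simp [ginU, ginA_refl]
        simp only [true_or, or_true, if_true, Fin.prod_univ_four, a0, a1, a2, a3]
        rw [neg_pow, neg_pow (ginU 1 _ _)]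
        have := h1.neg_one_pow (α := ℝ)
        rw [pow_add] at this
        linear_combination (ginU 0 (ω (Sum.inl x)) (ω (Sum.inr x)) ^ n x 0 *
          ginU 1 (ω (Sum.inl x)) (ω (Sum.inr x)) ^ n x 1 *
          ginU 2 (ω (Sum.inl x)) (ω (Sum.inr x)) ^ n x 2 *
          ginU 3 (ω (Sum.inl x)) (ω (Sum.inr x)) ^ n x 3) * this
      · simp [hy]
    by_cases h2 : Odd (n x 1 + n x 3)
    · refine Or.inr ⟨fun ω s => ω (Equiv.swap (Sum.inl x) (Sum.inr x) s),
        gin_mp_reindex _, fun ω => ?_, fun y hy ω => ?_⟩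
      · have a0 : ∀ v w, ginU 0 w v = ginU 0 v w := fun v w => by
          simp [ginU]; ring
        have a1 : ∀ v w, ginU 1 w v = -ginU 1 v w := fun v w => by
          simp [ginU]
        have a2 : ∀ v w, ginU 2 w v = ginU 2 v w := fun v w => by
          simp [ginU]; ring
        have a3 : ∀ v w, ginU 3 w v = -ginU 3 v w := fun v w => by
          simp [ginU]
        simp only [Equiv.swap_apply_left, Equiv.swap_apply_right, Fin.prod_univ_four]
        rw [a0 (ω (Sum.inl x)), a1 (ω (Sum.inl x)), a2 (ω (Sum.inl x)), a3 (ω (Sum.inl x)),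
          neg_pow, neg_pow (ginU 3 _ _)]
        have := h2.neg_one_pow (α := ℝ)
        rw [pow_add] at this
        linear_combination (ginU 0 (ω (Sum.inl x)) (ω (Sum.inr x)) ^ n x 0 *
          ginU 1 (ω (Sum.inl x)) (ω (Sum.inr x)) ^ n x 1 *
          ginU 2 (ω (Sum.inl x)) (ω (Sum.inr x)) ^ n x 2 *
          ginU 3 (ω (Sum.inl x)) (ω (Sum.inr x)) ^ n x 3) * this
      · have b1 : Equiv.swap (Sum.inl x) (Sum.inr x) (Sum.inl y : Site ⊕ Site) = Sum.inl y :=
          Equiv.swap_apply_of_ne_of_ne (by simpa using hy) (by simp)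
        have b2 : Equiv.swap (Sum.inl x) (Sum.inr x) (Sum.inr y : Site ⊕ Site) = Sum.inr y :=
          Equiv.swap_apply_of_ne_of_ne (by simp) (by simpa using hy)
        simp only [b1, b2]
    · refine Or.inl fun ω => ?_
      rw [Nat.not_odd_iff_even] at h1 h2
      have hp : 0 ≤ ginU 2 (ω (Sum.inl x)) (ω (Sum.inr x)) := by
        simp only [ginU]
        simpa using add_nonneg (ginA_nonneg _) (ginA_nonneg _)
      have hq := ginU_uuq (ω (Sum.inl x)) (ω (Sum.inr x))
      simp only [Fin.prod_univ_four]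
      generalize ginU 0 (ω (Sum.inl x)) (ω (Sum.inr x)) = u₀ at *
      generalize ginU 1 (ω (Sum.inl x)) (ω (Sum.inr x)) = u₁ at *
      generalize ginU 2 (ω (Sum.inl x)) (ω (Sum.inr x)) = u₂ at *
      generalize ginU 3 (ω (Sum.inl x)) (ω (Sum.inr x)) = u₃ at *
      rcases Nat.even_or_odd (n x 1) with h | h
      · have h0 : Even (n x 0) := by
          rw [Nat.even_add] at h1; exact h1.2 h
        have h3 : Even (n x 3) := by
          rw [Nat.even_add] at h2; exact h2.1 h
        have := h0.pow_nonneg u₀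
        have := h.pow_nonneg u₁
        have := h3.pow_nonneg u₃
        positivity
      · have h0 : Odd (n x 0) := by
          rw [Nat.even_add'] at h1; exact h1.2 h
        have h3 : Odd (n x 3) := by
          rw [Nat.even_add'] at h2; exact h2.1 h
        obtain ⟨i, hi⟩ := h0
        obtain ⟨j, hj⟩ := h
        obtain ⟨k, hk⟩ := h3
        rw [hi, hj, hk]
        have : u₀ ^ (2 * i + 1) * u₁ ^ (2 * j + 1) * u₂ ^ n x 2 * u₃ ^ (2 * k + 1) =
            (u₀ * u₁ * u₃) * (u₀ ^ i * u₁ ^ j * u₃ ^ k) ^ 2 * u₂ ^ n x 2 := by ring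
        rw [this]
        positivity

end

end Crest.Agent.R167
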