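import Crest.Agent.R167.GinibreAux2

/-!
# R167 / GinibreAux3: polar coordinates on the doubled space and the Ginibre generators
-/

set_option autoImplicit false

namespace Crest.Agent.R167

open MeasureTheory Finset Matrix

noncomputable section

instance gin_compact_angle : CompactSpace Real.Angle :=
  haveI : Fact (0 < 2 * Real.pi) := ⟨by positivity⟩
  inferInstanceAs (CompactSpace (AddCircle (2 * Real.pi)))

instance gin_ms_angle : MeasurableSpace Real.Angle := borel _

instance gin_borel_angle : BorelSpace Real.Angle := ⟨rfl⟩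

abbrev GinAng := Site → Real.Angle

/-- Haar probability on the angles -/
def ginH : Measure GinAng := Measure.addHaarMeasure ⊤

instance gin_haar_H : ginH.IsAddHaarMeasure := by unfold ginH; infer_instance

instance gin_prob_H : IsProbabilityMeasure ginH :=
  ⟨by
    have := Measure.addHaarMeasure_self (G := GinAng) (K₀ := ⊤)
    simpa [ginH] using this⟩

/-- rotation about the axis `0` -/
def ginRot (θ : Real.Angle) : Sph → Sph :=
  matS !![1, 0, 0; 0, θ.cos, -θ.sin; 0, θ.sin, θ.cos] (by
    have h := θ.cos_sq_add_sin_sq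
    ext i j
    fin_cases i <;> fin_cases j <;> simp [Matrix.mul_apply, Fin.sum_univ_three] <;> nlinarith)

lemma co_ginRot (θ : Real.Angle) (v : Sph) :
    co (ginRot θ v) =
      ![co v 0, θ.cos * co v 1 - θ.sin * co v 2, θ.sin * co v 1 + θ.cos * co v 2] := by
  rw [ginRot, co_matS]
  funext i
  fin_cases i <;> simp [mulVec, dotProduct, Fin.sum_univ_three]
  ring

lemma mp_ginRot (θ : Real.Angle) : MeasurePreserving (ginRot θ) lam lam :=
  measurePreserving_matS _ _

/-- the point with the height of `v` and the planar angle `θ` -/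
def ginPol (v : Sph) (θ : Real.Angle) : Fin 3 → ℝ := ![co v 0, ginA v * θ.cos, ginA v * θ.sin]

def ginTh (a : GinAng × GinAng) : Site ⊕ Site → Real.Angle :=
  Sum.elim (fun x => a.1 x + a.2 x) (fun x => a.1 x - a.2 x)

abbrev GinX := GinD × (GinAng × GinAng)

def ginPsi (p : GinX) (s : Site ⊕ Site) : Fin 3 → ℝ := ginPol (p.1 s) (ginTh p.2 s)

def ginN : Measure GinX := ginM.prod (ginH.prod ginH)

instance gin_prob_N : IsProbabilityMeasure ginN := by unfold ginN; infer_instance

lemma continuous_ginTh (s : Site ⊕ Site) : Continuous (fun a => ginTh a s) := by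
  rcases s with x | x <;> simp only [ginTh, Sum.elim_inl, Sum.elim_inr] <;> fun_prop

lemma continuous_ginPsi : Continuous ginPsi := by
  refine continuous_pi fun s => continuous_pi fun i => ?_
  have h1 := continuous_co
  have h2 := continuous_ginA
  have h3 := continuous_ginTh s
  have h4 := Real.Angle.continuous_cos
  have h5 := Real.Angle.continuous_sin
  fin_cases i <;> simp [ginPsi, ginPol] <;> fun_prop

lemma continuous_ginRot_co :
    Continuous (fun p : GinX => fun s => co (ginRot (ginTh p.2 s) (p.1 s))) := by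
  refine continuous_pi fun s => continuous_pi fun i => ?_
  have h1 := continuous_co
  have h3 := continuous_ginTh s
  have h4 := Real.Angle.continuous_cos
  have h5 := Real.Angle.continuous_sin
  fin_cases i <;> simp [co_ginRot] <;> fun_prop

lemma gin_exists_angle (v : Sph) :
    ∃ φ : ℝ, co v 1 = ginA v * Real.cos φ ∧ co v 2 = ginA v * Real.sin φ := by
  have hn : ‖(⟨co v 1, co v 2⟩ : ℂ)‖ = ginA v := by
    rw [Complex.norm_eq_sqrt_sq_add_sq]; rfl
  refine ⟨Complex.arg ⟨co v 1, co v 2⟩, ?_, ?_⟩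
  · rw [← hn, Complex.norm_mul_cos_arg]
  · rw [← hn, Complex.norm_mul_sin_arg]

theorem gin_polar (Φ : (Site ⊕ Site → Fin 3 → ℝ) → ℝ) (hΦ : Continuous Φ) :
    ∫ ω, Φ (fun s => co (ω s)) ∂ginM = ∫ p, Φ (ginPsi p) ∂ginN := by
  have hco := continuous_co
  have c0 : Continuous (fun ω : GinD => Φ (fun s => co (ω s))) := by fun_prop
  have c1 : Continuous (fun p : GinX => Φ (fun s => co (ginRot (ginTh p.2 s) (p.1 s)))) :=
    hΦ.comp continuous_ginRot_co
  have c2 : Continuous (fun p : GinX => Φ (ginPsi p)) := hΦ.comp continuous_ginPsi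
  have h1 : ∀ a : GinAng × GinAng, ∫ ω, Φ (fun s => co (ginRot (ginTh a s) (ω s))) ∂ginM =
      ∫ ω, Φ (fun s => co (ω s)) ∂ginM := fun a => by
    have hT : MeasurePreserving (fun (ω : GinD) s => ginRot (ginTh a s) (ω s)) ginM ginM :=
      gin_mp_site (fun s => ginRot (ginTh a s)) fun s => mp_ginRot _
    conv_rhs => rw [← hT.map_eq]
    exact (integral_map hT.aemeasurable c0.aestronglyMeasurable).symm
  have h2 : ∀ ω : GinD, ∫ a, Φ (fun s => co (ginRot (ginTh a s) (ω s))) ∂(ginH.prod ginH) =
      ∫ a, Φ (ginPsi (ω, a)) ∂(ginH.prod ginH) := fun ω => by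
    choose φ hφ using fun s => gin_exists_angle (ω s)
    let t : GinAng × GinAng :=
      (fun x => (((φ (Sum.inl x) + φ (Sum.inr x)) / 2 : ℝ) : Real.Angle),
        fun x => (((φ (Sum.inl x) - φ (Sum.inr x)) / 2 : ℝ) : Real.Angle))
    have ht : ∀ a s, ginTh (t + a) s = (φ s : Real.Angle) + ginTh a s := by
      intro a s
      rcases s with x | x
      · have : (φ (Sum.inl x) : Real.Angle) = t.1 x + t.2 x := by
          simp only [t, ← Real.Angle.coe_add]; congr 1; ring
        simp only [ginTh, Sum.elim_inl, Prod.fst_add, Prod.snd_add, Pi.add_apply, this]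
        abel
      · have : (φ (Sum.inr x) : Real.Angle) = t.1 x - t.2 x := by
          simp only [t, ← Real.Angle.coe_sub]; congr 1; ring
        simp only [ginTh, Sum.elim_inr, Prod.fst_add, Prod.snd_add, Pi.add_apply, this]
        abel
    rw [← integral_add_left_eq_self (fun a => Φ (ginPsi (ω, a))) t]
    refine integral_congr_ae (ae_of_all _ fun a => ?_)
    refine congrArg Φ (funext fun s => ?_)
    rw [co_ginRot, ginPsi, ht, ginPol, (hφ s).1, (hφ s).2, Real.Angle.cos_add, Real.Angle.sin_add,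
      Real.Angle.cos_coe, Real.Angle.sin_coe]
    funext i
    fin_cases i <;> simp <;> ring
  calc ∫ ω, Φ (fun s => co (ω s)) ∂ginM
      = ∫ a, ∫ ω, Φ (fun s => co (ginRot (ginTh a s) (ω s))) ∂ginM ∂(ginH.prod ginH) := by
        simp only [h1, integral_const, probReal_univ, one_smul]
    _ = ∫ ω, ∫ a, Φ (fun s => co (ginRot (ginTh a s) (ω s))) ∂(ginH.prod ginH) ∂ginM :=
        (integral_integral_swap (f := fun (ω : GinD) (a : GinAng × GinAng) =>
          Φ (fun s => co (ginRot (ginTh a s) (ω s)))) (gin_integrable _ c1)).symm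
    _ = ∫ ω, ∫ a, Φ (ginPsi (ω, a)) ∂(ginH.prod ginH) ∂ginM := by simp only [h2]
    _ = ∫ p, Φ (ginPsi p) ∂ginN := (integral_prod _ (gin_integrable _ c2)).symm

abbrev GinI := (Site × Fin 4) ⊕ (Site × Site × Bool)

def ginGA (i : GinI) (ω : GinD) : ℝ :=
  Sum.elim (fun p => ginU p.2 (ω (Sum.inl p.1)) (ω (Sum.inr p.1))) (fun _ => 1) i

def ginGB (i : GinI) (α : GinAng) : ℝ :=
  Sum.elim (fun _ => 1)
    (fun q => if q.2.2 then (α q.1 - α q.2.1).cos else (α q.1 - α q.2.1).sin) i

/-- the generators -/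
def ginG (i : GinI) (p : GinX) : ℝ := ginGA i p.1 * (ginGB i p.2.1 * ginGB i p.2.2)

lemma continuous_ginG (i : GinI) : Continuous (ginG i) := by
  have h4 := Real.Angle.continuous_cos
  have h5 := Real.Angle.continuous_sin
  have hA : Continuous (ginGA i) := by
    rcases i with p | q
    · exact continuous_ginU _ _ _
    · exact continuous_const
  have hB : Continuous (ginGB i) := by
    rcases i with p | ⟨x, y, _ | _⟩
    · exact continuous_const
    · show Continuous fun α : GinAng => (α x - α y).sin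
      fun_prop
    · show Continuous fun α : GinAng => (α x - α y).cos
      fun_prop
  unfold ginG
  fun_prop

theorem gin_list_nonneg (l : List GinI) : 0 ≤ ∫ p, (l.map (fun i => ginG i p)).prod ∂ginN := by
  obtain ⟨l', hl'⟩ : ∃ l' : List (Site × Fin 4), ∀ ω : GinD, (l.map (fun i => ginGA i ω)).prod =
      (l'.map (fun p => ginU p.2 (ω (Sum.inl p.1)) (ω (Sum.inr p.1)))).prod := by
    induction l with
    | nil => exact ⟨[], fun _ => rfl⟩
    | cons i l ih =>
      obtain ⟨l', hl'⟩ := ih
      rcases i with p | q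
      · exact ⟨p :: l', fun ω => by
          rw [List.map_cons, List.prod_cons, hl', List.map_cons, List.prod_cons]; rfl⟩
      · exact ⟨l', fun ω => by
          rw [List.map_cons, List.prod_cons, hl']; exact one_mul _⟩
  simp only [ginG, List.prod_map_mul, ginN]
  rw [integral_prod_mul (fun ω => (l.map (fun i => ginGA i ω)).prod)
    (fun a : GinAng × GinAng =>
      (l.map (fun i => ginGB i a.1)).prod * (l.map (fun i => ginGB i a.2)).prod),
    integral_prod_mul (fun α => (l.map (fun i => ginGB i α)).prod)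
      (fun α => (l.map (fun i => ginGB i α)).prod)]
  simp only [hl']
  exact mul_nonneg (gin_site_list l') (mul_self_nonneg _)

lemma gin_cone_u (x : Site) (k : Fin 4) :
    GinCone ginG (fun p => ginU k (p.1 (Sum.inl x)) (p.1 (Sum.inr x))) :=
  (GinCone.gen (Sum.inl (x, k))).congr fun p => by simp [ginG, ginGA, ginGB]

lemma gin_cone_C (x y : Site) :
    GinCone ginG (fun p => (p.2.1 x - p.2.1 y).cos * (p.2.2 x - p.2.2 y).cos) :=
  (GinCone.gen (Sum.inr (x, y, true))).congr fun p => by simp [ginG, ginGA, ginGB]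

lemma gin_cone_S (x y : Site) :
    GinCone ginG (fun p => (p.2.1 x - p.2.1 y).sin * (p.2.2 x - p.2.2 y).sin) :=
  (GinCone.gen (Sum.inr (x, y, false))).congr fun p => by simp [ginG, ginGA, ginGB]

lemma gin_cone_zz_sum (x y : Site) : GinCone ginG (fun p =>
    ginPsi p (Sum.inl x) 0 * ginPsi p (Sum.inl y) 0 +
      ginPsi p (Sum.inr x) 0 * ginPsi p (Sum.inr y) 0) :=
  ((((gin_cone_u x 0).mul (gin_cone_u y 0)).add ((gin_cone_u x 1).mul (gin_cone_u y 1))).smul
    (c := 1 / 2) (by norm_num)).congr fun p => by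
      simp [ginPsi, ginPol, ginU]; ring

lemma gin_cone_zz_diff (x y : Site) : GinCone ginG (fun p =>
    ginPsi p (Sum.inl x) 0 * ginPsi p (Sum.inl y) 0 -
      ginPsi p (Sum.inr x) 0 * ginPsi p (Sum.inr y) 0) :=
  ((((gin_cone_u x 0).mul (gin_cone_u y 1)).add ((gin_cone_u x 1).mul (gin_cone_u y 0))).smul
    (c := 1 / 2) (by norm_num)).congr fun p => by
      simp [ginPsi, ginPol, ginU]; ring

lemma gin_cone_pl_sum (x y : Site) : GinCone ginG (fun p =>
    (ginPsi p (Sum.inl x) 1 * ginPsi p (Sum.inl y) 1 +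
      ginPsi p (Sum.inl x) 2 * ginPsi p (Sum.inl y) 2) +
    (ginPsi p (Sum.inr x) 1 * ginPsi p (Sum.inr y) 1 +
      ginPsi p (Sum.inr x) 2 * ginPsi p (Sum.inr y) 2)) :=
  ((((((gin_cone_u x 2).mul (gin_cone_u y 2)).add ((gin_cone_u x 3).mul (gin_cone_u y 3))).mul
    (gin_cone_C x y)).add
    ((((gin_cone_u x 2).mul (gin_cone_u y 3)).add ((gin_cone_u x 3).mul (gin_cone_u y 2))).mul
    (gin_cone_S x y))).smul (c := 1 / 2) (by norm_num)).congr fun p => by
      simp [ginPsi, ginPol, ginU, ginTh, sub_eq_add_neg, Real.Angle.cos_add, Real.Angle.sin_add]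
      ring

lemma gin_cone_pl_diff (x y : Site) : GinCone ginG (fun p =>
    (ginPsi p (Sum.inr x) 1 * ginPsi p (Sum.inr y) 1 +
      ginPsi p (Sum.inr x) 2 * ginPsi p (Sum.inr y) 2) -
    (ginPsi p (Sum.inl x) 1 * ginPsi p (Sum.inl y) 1 +
      ginPsi p (Sum.inl x) 2 * ginPsi p (Sum.inl y) 2)) :=
  ((((((gin_cone_u x 2).mul (gin_cone_u y 3)).add ((gin_cone_u x 3).mul (gin_cone_u y 2))).mul
    (gin_cone_C x y)).add
    ((((gin_cone_u x 2).mul (gin_cone_u y 2)).add ((gin_cone_u x 3).mul (gin_cone_u y 3))).mul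
    (gin_cone_S x y))).smul (c := 1 / 2) (by norm_num)).congr fun p => by
      simp [ginPsi, ginPol, ginU, ginTh, sub_eq_add_neg, Real.Angle.cos_add, Real.Angle.sin_add]
      ring

end

end Crest.Agent.R167
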