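import Crest.Agent.R167.Stiff

/-!
# R167 / Mag: small stiffness gives fast polynomial decay, uniformly in the boundary condition

`mag_step`.  `R = box x (2 (n L))` is `rect a (4n L) (4n L)` with `a = x - (2nL, 2nL)`, tiled by
`4n × 4n` blocks of side `L` (`rect_tiling`).  Let `ψ u = min (φ (u.1 - x.1)) (φ (u.2 - x.2))`,
`φ t = ramp (nL) (2nL - |t|)`; `ψ = 1` on the closed box of radius `nL`, `ψ = 0` off `R.I`, `ψ` is
`1/(nL)`-Lipschitz.  For the column `i < 4n` put `ι i = i - 2n` if `i ≥ 2n`, `2n - 1 - i` otherwise: on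
the closed column `ι i · L ≤ |u.1 - x.1| ≤ (ι i + 1) L`, and `φ (u.1 - x.1)` is affine there with slope
of absolute value `≤ 1/(nL)`.  If `ι i > ι j` then `grad ψ = c • ed 0` on the edges of the block `(i, j)`,
so `M ≤ c² ν L² ≤ ν/n²` (`M_congr`, `M_smul_left/right`, `Stiff.all`); symmetrically for `ι i < ι j`; for
the at most `8n` blocks with `ι i = ι j` use `M_le`, `nrm_rect_le`: `M ≤ 2β/n²`.  The sum is at most
`16/500 + 16 β/n ≤ 1/20`.  Let `F = (box x (nL)).av b (spin x c)`, `|F| ≤ m`; `F` is independent of the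
interior of every block (a block lies inside the small box, or has no edge of the small box touching
its interior); `F ∘ flow 0 ψ (±π) = -F` (`gE_flow`, `Ham_flow`, `spin_flow_pi`).  `Tiling.cs` for `m + F` and
`m - F` gives with `y = R.av F = R.av (spin x c)` (`gE_dlr`, `not_mem_rect_I`):
`(m ± y)² ≤ exp (π²/20) (m ∓ y)²`, `exp (π²/20) ≤ exp (1/2) ≤ (5/3)²`, so `|y| ≤ m/4`.
`mag_small`: start from `Mag β (n₀ L) 1` (`abs_co_le`), iterate: `Mag β (2^j n₀ L) 4^{-j}`.
-/

set_option autoImplicit false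

namespace Crest.Agent.R167

open MeasureTheory Finset Matrix

/-- the integer pyramid on `[0, 4N]²`, truncated at height `N` -/
def Mag_pyr (N s t : ℤ) : ℤ := max 0 (min N (min (min s (4 * N - s)) (min t (4 * N - t))))

lemma Mag_pyr_lip1 (N s t : ℤ) : |Mag_pyr N (s + 1) t - Mag_pyr N s t| ≤ 1 := by
  unfold Mag_pyr; rw [abs_le]; omega

lemma Mag_pyr_lip2 (N s t : ℤ) : |Mag_pyr N s (t + 1) - Mag_pyr N s t| ≤ 1 := by
  unfold Mag_pyr; rw [abs_le]; omega

lemma Mag_pyr_top {N s t : ℤ} (_h0 : 0 ≤ N) (h1 : N ≤ s) (h2 : s ≤ 3 * N) (h3 : N ≤ t)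
    (h4 : t ≤ 3 * N) : Mag_pyr N s t = N := by
  unfold Mag_pyr; omega

lemma Mag_pyr_zero {N s t : ℤ} (h : ¬((0 < s ∧ s < 4 * N) ∧ (0 < t ∧ t < 4 * N))) :
    Mag_pyr N s t = 0 := by
  unfold Mag_pyr; omega

lemma Mag_pyr_left {N s t : ℤ} (hN : 0 ≤ N) (h0 : 0 ≤ s) (h1 : s ≤ t) (h2 : s + t ≤ 4 * N) :
    Mag_pyr N s t = min N s := by
  unfold Mag_pyr; omega

lemma Mag_pyr_bot {N s t : ℤ} (hN : 0 ≤ N) (h0 : 0 ≤ t) (h1 : t ≤ s) (h2 : s + t ≤ 4 * N) :
    Mag_pyr N s t = min N t := by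
  unfold Mag_pyr; omega

lemma Mag_pyr_right {N s t : ℤ} (hN : 0 ≤ N) (h0 : s ≤ 4 * N) (h1 : t ≤ s) (h2 : 4 * N ≤ s + t) :
    Mag_pyr N s t = min N (4 * N - s) := by
  unfold Mag_pyr; omega

lemma Mag_pyr_up {N s t : ℤ} (hN : 0 ≤ N) (h0 : t ≤ 4 * N) (h1 : s ≤ t) (h2 : 4 * N ≤ s + t) :
    Mag_pyr N s t = min N (4 * N - t) := by
  unfold Mag_pyr; omega

lemma Mag_mul_step {L i j : ℤ} (hL : 0 ≤ L) (h : i < j) : i * L + L ≤ j * L := by
  have : (i + 1) * L ≤ j * L := mul_le_mul_of_nonneg_right h hL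
  linarith

lemma Mag_blk {L n i j : ℤ} (hL : 0 ≤ L) (hi0 : 0 ≤ i) (hi : i < 4 * n) (hj0 : 0 ≤ j)
    (hj : j < 4 * n) (h1 : j ≠ i) (h2 : i + j + 1 ≠ 4 * n) :
    ∃ (d : Fin 2) (c : ℤ), |c| ≤ 1 ∧ ∀ s t : ℤ, i * L ≤ s → s < i * L + L → j * L ≤ t →
      t < j * L + L →
      (Mag_pyr (n * L) (s + 1) t - Mag_pyr (n * L) s t = if (0 : Fin 2) = d then c else 0) ∧
      (Mag_pyr (n * L) s (t + 1) - Mag_pyr (n * L) s t = if (1 : Fin 2) = d then c else 0) := by
  have hN : 0 ≤ n * L := mul_nonneg (by omega) hL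
  have p0 : 0 ≤ i * L := mul_nonneg hi0 hL
  have q0 : 0 ≤ j * L := mul_nonneg hj0 hL
  have p4 : i * L + L ≤ 4 * (n * L) := by have := Mag_mul_step hL hi; linarith
  have q4 : j * L + L ≤ 4 * (n * L) := by have := Mag_mul_step hL hj; linarith
  have e01 : ((0 : Fin 2) = 1) = False := by simp
  have e10 : ((1 : Fin 2) = 0) = False := by simp
  rcases lt_or_gt_of_ne h2 with h2 | h2
  · have hs : i * L + j * L + 2 * L ≤ 4 * (n * L) := by
      have := Mag_mul_step hL h2; linarith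
    rcases lt_or_gt_of_ne h1 with h1 | h1
    · -- bottom
      have hij := Mag_mul_step hL h1
      rcases lt_or_ge j n with h3 | h3
      · have h4 := Mag_mul_step hL h3
        refine ⟨1, 1, by simp, fun s t a1 a2 a3 a4 => ?_⟩
        rw [Mag_pyr_bot (s := s + 1) hN (by omega) (by omega) (by omega),
          Mag_pyr_bot (s := s) (t := t) hN (by omega) (by omega) (by omega),
          Mag_pyr_bot (t := t + 1) hN (by omega) (by omega) (by omega)]
        simp only [e01, if_false, if_true]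
        omega
      · have h4 : n * L ≤ j * L := mul_le_mul_of_nonneg_right h3 hL
        refine ⟨1, 0, by simp, fun s t a1 a2 a3 a4 => ?_⟩
        rw [Mag_pyr_bot (s := s + 1) hN (by omega) (by omega) (by omega),
          Mag_pyr_bot (s := s) (t := t) hN (by omega) (by omega) (by omega),
          Mag_pyr_bot (t := t + 1) hN (by omega) (by omega) (by omega)]
        simp only [e01, if_false, if_true]
        omega
    · -- left
      have hij := Mag_mul_step hL h1
      rcases lt_or_ge i n with h3 | h3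
      · have h4 := Mag_mul_step hL h3
        refine ⟨0, 1, by simp, fun s t a1 a2 a3 a4 => ?_⟩
        rw [Mag_pyr_left (s := s + 1) hN (by omega) (by omega) (by omega),
          Mag_pyr_left (s := s) (t := t) hN (by omega) (by omega) (by omega),
          Mag_pyr_left (t := t + 1) hN (by omega) (by omega) (by omega)]
        simp only [e10, if_false, if_true]
        omega
      · have h4 : n * L ≤ i * L := mul_le_mul_of_nonneg_right h3 hL
        refine ⟨0, 0, by simp, fun s t a1 a2 a3 a4 => ?_⟩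
        rw [Mag_pyr_left (s := s + 1) hN (by omega) (by omega) (by omega),
          Mag_pyr_left (s := s) (t := t) hN (by omega) (by omega) (by omega),
          Mag_pyr_left (t := t + 1) hN (by omega) (by omega) (by omega)]
        simp only [e10, if_false, if_true]
        omega
  · have hs : 4 * (n * L) ≤ i * L + j * L := by
      have : 4 * n * L ≤ (i + j) * L := mul_le_mul_of_nonneg_right (by omega) hL
      linarith
    rcases lt_or_gt_of_ne h1 with h1 | h1
    · -- right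
      have hij := Mag_mul_step hL h1
      rcases lt_or_ge i (3 * n) with h3 | h3
      · have h4 : i * L + L ≤ 3 * (n * L) := by have := Mag_mul_step hL h3; linarith
        refine ⟨0, 0, by simp, fun s t a1 a2 a3 a4 => ?_⟩
        rw [Mag_pyr_right (s := s + 1) hN (by omega) (by omega) (by omega),
          Mag_pyr_right (s := s) (t := t) hN (by omega) (by omega) (by omega),
          Mag_pyr_right (t := t + 1) hN (by omega) (by omega) (by omega)]
        simp only [e10, if_false, if_true]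
        omega
      · have h4 : 3 * (n * L) ≤ i * L := by
          have := mul_le_mul_of_nonneg_right h3 hL; linarith
        refine ⟨0, -1, by simp, fun s t a1 a2 a3 a4 => ?_⟩
        rw [Mag_pyr_right (s := s + 1) hN (by omega) (by omega) (by omega),
          Mag_pyr_right (s := s) (t := t) hN (by omega) (by omega) (by omega),
          Mag_pyr_right (t := t + 1) hN (by omega) (by omega) (by omega)]
        simp only [e10, if_false, if_true]
        omega
    · -- top
      have hij := Mag_mul_step hL h1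
      rcases lt_or_ge j (3 * n) with h3 | h3
      · have h4 : j * L + L ≤ 3 * (n * L) := by have := Mag_mul_step hL h3; linarith
        refine ⟨1, 0, by simp, fun s t a1 a2 a3 a4 => ?_⟩
        rw [Mag_pyr_up (s := s + 1) hN (by omega) (by omega) (by omega),
          Mag_pyr_up (s := s) (t := t) hN (by omega) (by omega) (by omega),
          Mag_pyr_up (t := t + 1) hN (by omega) (by omega) (by omega)]
        simp only [e01, if_false, if_true]
        omega
      · have h4 : 3 * (n * L) ≤ j * L := by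
          have := mul_le_mul_of_nonneg_right h3 hL; linarith
        refine ⟨1, -1, by simp, fun s t a1 a2 a3 a4 => ?_⟩
        rw [Mag_pyr_up (s := s + 1) hN (by omega) (by omega) (by omega),
          Mag_pyr_up (s := s) (t := t) hN (by omega) (by omega) (by omega),
          Mag_pyr_up (t := t + 1) hN (by omega) (by omega) (by omega)]
        simp only [e01, if_false, if_true]
        omega

/-- the test function: the pyramid with base corner `a`, normalised to height `1` -/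
noncomputable def Mag_psi (a : Site) (N : ℤ) (u : Site) : ℝ :=
  (Mag_pyr N (u.1 - a.1) (u.2 - a.2) : ℝ) / (N : ℝ)

lemma Mag_grad_zero (a : Site) (N : ℤ) (u : Site) : grad (Mag_psi a N) (u, 0) =
    ((Mag_pyr N (u.1 - a.1 + 1) (u.2 - a.2) - Mag_pyr N (u.1 - a.1) (u.2 - a.2) : ℤ) : ℝ) /
      (N : ℝ) := by
  unfold grad Mag_psi
  rw [hd_zero, show u.1 + 1 - a.1 = u.1 - a.1 + 1 by ring]
  push_cast
  ring

lemma Mag_grad_one (a : Site) (N : ℤ) (u : Site) : grad (Mag_psi a N) (u, 1) =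
    ((Mag_pyr N (u.1 - a.1) (u.2 - a.2 + 1) - Mag_pyr N (u.1 - a.1) (u.2 - a.2) : ℤ) : ℝ) /
      (N : ℝ) := by
  unfold grad Mag_psi
  rw [hd_one, show u.2 + 1 - a.2 = u.2 - a.2 + 1 by ring]
  push_cast
  ring

lemma Mag_abs_grad (a : Site) {N : ℤ} (hN : 0 < N) (e : Edge) :
    |grad (Mag_psi a N) e| ≤ 1 / (N : ℝ) := by
  have hN' : (0 : ℝ) < N := by exact_mod_cast hN
  obtain ⟨u, d⟩ := e
  have key : ∀ z : ℤ, |z| ≤ 1 → |(z : ℝ) / (N : ℝ)| ≤ 1 / (N : ℝ) := by
    intro z hz
    rw [abs_div, abs_of_pos hN']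
    exact div_le_div_of_nonneg_right (by exact_mod_cast hz) hN'.le
  fin_cases d
  · exact (congrArg abs (Mag_grad_zero a N u)).trans_le (key _ (Mag_pyr_lip1 _ _ _))
  · exact (congrArg abs (Mag_grad_one a N u)).trans_le (key _ (Mag_pyr_lip2 _ _ _))

lemma Mag_M_blk {β : ℝ} {L n : ℕ} (hL : 1 ≤ L) (hS : Stiff β L (1 / 500)) (hn : 1 ≤ n)
    {b : Edge → ℝ} (hb : Cpl β b) (a : Site) {i j : ℕ} (hi : i < 4 * n) (hj : j < 4 * n)
    (σ : Cfg) :
    (rect (a.1 + i * L, a.2 + j * L) L L).M b (T 0) (T 0) (grad (Mag_psi a (n * L)))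
      (grad (Mag_psi a (n * L))) σ ≤ 1 / 500 / (n : ℝ) ^ 2 +
        ((if j = i then 2 * β / (n : ℝ) ^ 2 else 0) +
          (if j = 4 * n - 1 - i then 2 * β / (n : ℝ) ^ 2 else 0)) := by
  have hβ : 0 ≤ β := (hb (0, 0)).1.trans (hb (0, 0)).2
  have hL' : (0 : ℝ) < L := by exact_mod_cast hL
  have hn' : (0 : ℝ) < n := by exact_mod_cast hn
  have hN : (0 : ℤ) < n * L := by positivity
  have hpos : 0 ≤ 2 * β / (n : ℝ) ^ 2 := by positivity
  have hpos' : (0 : ℝ) ≤ 1 / 500 / (n : ℝ) ^ 2 := by positivity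
  by_cases hd : j = i ∨ j = 4 * n - 1 - i
  · have h1 := Blk.M_le (U := rect (a.1 + i * L, a.2 + j * L) L L) (k := 0)
      (α := grad (Mag_psi a (n * L))) hb σ
    have h2 := nrm_rect_le (a.1 + i * L, a.2 + j * L) L L (α := grad (Mag_psi a (n * L)))
      (fun e _ => Mag_abs_grad a hN e)
    have h3 : β * (2 * (L : ℝ) * L * (1 / (((n : ℤ) * (L : ℤ) : ℤ) : ℝ)) ^ 2) =
        2 * β / (n : ℝ) ^ 2 := by
      push_cast
      field_simp
    have h4 := (h1.trans (mul_le_mul_of_nonneg_left h2 hβ)).trans_eq h3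
    rcases hd with hd | hd
    · rw [if_pos hd]
      split_ifs <;> linarith
    · rw [if_pos hd]
      split_ifs <;> linarith
  · push Not at hd
    rw [if_neg hd.1, if_neg hd.2, add_zero, add_zero]
    obtain ⟨d, c, hc, hdc⟩ := Mag_blk (L := L) (n := n) (i := i) (j := j) (by positivity)
      (by positivity) (by exact_mod_cast hi) (by positivity) (by exact_mod_cast hj)
      (by exact_mod_cast hd.1) (by have := hd.2; omega)
    have hg : ∀ e ∈ (rect (a.1 + i * L, a.2 + j * L) L L).E, grad (Mag_psi a (n * L)) e =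
        ((c : ℝ) / ((n : ℝ) * L)) * ed d e := by
      rintro ⟨u, d'⟩ he
      rw [mem_rect_E] at he
      simp only at he
      obtain ⟨h0, h1⟩ := hdc (u.1 - a.1) (u.2 - a.2) (by omega) (by omega) (by omega) (by omega)
      fin_cases d'
      · refine (Mag_grad_zero a _ u).trans ?_
        rw [h0]
        unfold ed
        by_cases h : (0 : Fin 2) = d
        · simp [h]
        · simp [h]
      · refine (Mag_grad_one a _ u).trans ?_
        rw [h1]
        unfold ed
        by_cases h : (1 : Fin 2) = d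
        · simp [h]
        · simp [h]
    rw [Blk.M_congr hg hg, Blk.M_smul_left, Blk.M_smul_right, ← mul_assoc, ← sq]
    have h5 := hS.all hb (a.1 + i * L, a.2 + j * L) 0 d σ
    have h6 : (c : ℝ) ^ 2 ≤ 1 := by
      have : |(c : ℝ)| ≤ 1 := by exact_mod_cast hc
      exact (sq_le_one_iff_abs_le_one _).2 this
    calc _ ≤ ((c : ℝ) / ((n : ℝ) * L)) ^ 2 * (1 / 500 * (L : ℝ) ^ 2) :=
          mul_le_mul_of_nonneg_left h5 (sq_nonneg _)
      _ = (c : ℝ) ^ 2 * (1 / 500 / (n : ℝ) ^ 2) := by field_simp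
      _ ≤ 1 * (1 / 500 / (n : ℝ) ^ 2) := mul_le_mul_of_nonneg_right h6 hpos'
      _ = _ := one_mul _

lemma Mag_M_sum {β : ℝ} {L n : ℕ} (hL : 1 ≤ L) (hS : Stiff β L (1 / 500)) (hn : 1 ≤ n)
    (hβ : 1000 * β ≤ n) {b : Edge → ℝ} (hb : Cpl β b) (a : Site) (σ : Cfg) :
    ∑ ij ∈ range (4 * n) ×ˢ range (4 * n),
      (rect (a.1 + ij.1 * L, a.2 + ij.2 * L) L L).M b (T 0) (T 0) (grad (Mag_psi a (n * L)))
        (grad (Mag_psi a (n * L))) σ ≤ 1 / 20 := by
  have hβ0 : 0 ≤ β := (hb (0, 0)).1.trans (hb (0, 0)).2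
  have hn' : (0 : ℝ) < n := by exact_mod_cast hn
  have hpos : 0 ≤ 2 * β / (n : ℝ) ^ 2 := by positivity
  rw [sum_product]
  have h1 : ∀ i ∈ range (4 * n), ∑ j ∈ range (4 * n),
      (rect (a.1 + (i : ℤ) * L, a.2 + (j : ℤ) * L) L L).M b (T 0) (T 0)
        (grad (Mag_psi a (n * L))) (grad (Mag_psi a (n * L))) σ ≤
      (4 * n : ℝ) * (1 / 500 / (n : ℝ) ^ 2) + (2 * β / (n : ℝ) ^ 2 + 2 * β / (n : ℝ) ^ 2) := by
    intro i hi
    refine (sum_le_sum fun j hj => Mag_M_blk hL hS hn hb a (mem_range.1 hi) (mem_range.1 hj) σ).trans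
      ?_
    rw [sum_add_distrib, sum_add_distrib, sum_const, card_range, nsmul_eq_mul, sum_ite_eq',
      sum_ite_eq']
    push_cast
    gcongr
    · rw [if_pos hi]
    · split_ifs
      · exact le_rfl
      · exact hpos
  refine (sum_le_sum h1).trans ?_
  rw [sum_const, card_range, nsmul_eq_mul]
  push_cast
  have e : (4 * (n : ℝ)) * ((4 * n : ℝ) * (1 / 500 / (n : ℝ) ^ 2) +
      (2 * β / (n : ℝ) ^ 2 + 2 * β / (n : ℝ) ^ 2)) = 16 / 500 + 16 * (β / n) := by
    field_simp
    ring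
  have h2 : β / n ≤ 1 / 1000 := by
    rw [div_le_iff₀ hn']; linarith
  rw [e]
  linarith

lemma Mag_hd_cases (e : Edge) :
    (hd e = (e.1.1 + 1, e.1.2)) ∨ (hd e = (e.1.1, e.1.2 + 1)) := by
  obtain ⟨u, d⟩ := e
  fin_cases d
  · exact Or.inl (hd_zero u)
  · exact Or.inr (hd_one u)

lemma Mag_indep_spin {I : Finset Site} {x : Site} (hx : x ∉ I) (c : Fin 3) :
    Indep I (spin x c) :=
  indep_of_eq fun σ σ' h => by unfold spin; rw [h x hx]

lemma Mag_exp_le : Real.exp (1 / 20 * Real.pi ^ 2) ≤ (5 / 3) ^ 2 := by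
  have h1 : Real.pi ^ 2 ≤ 16 := by nlinarith [Real.pi_le_four, Real.pi_pos]
  have h2 : Real.exp (1 / 20 * Real.pi ^ 2) ≤ Real.exp 1 := Real.exp_le_exp.2 (by linarith)
  have h3 := Real.exp_one_lt_d9
  linarith

theorem mag_step {β m : ℝ} {L n : ℕ} (hL : 1 ≤ L) (hS : Stiff β L (1 / 500)) (hn : 1 ≤ n)
    (hβ : 1000 * β ≤ n) (h : Mag β (n * L) m) : Mag β (2 * n * L) (m / 4) := by
  intro b hb x c hc τ
  set a : Site := (x.1 - 2 * (n * L), x.2 - 2 * (n * L)) with ha
  have ha1 : a.1 = x.1 - 2 * (n * L) := rfl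
  have ha2 : a.2 = x.2 - 2 * (n * L) := rfl
  have hR : box x (2 * n * L) = rect a (4 * n * L) (4 * n * L) := by
    unfold box
    rw [show 2 * (2 * n * L) = 4 * n * L by ring, ha]
    push_cast
    rw [mul_assoc]
  have hT := rect_tiling a L L (4 * n) (4 * n)
  rw [hR]
  set R := rect a (4 * n * L) (4 * n * L) with hRdef
  set B := box x (n * L) with hB
  have hN : (0 : ℤ) < n * L := by positivity
  have hL0 : (0 : ℤ) ≤ L := by positivity
  have memRI : ∀ u : Site, u ∈ R.I ↔ (a.1 < u.1 ∧ u.1 < a.1 + 4 * (n * L)) ∧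
      (a.2 < u.2 ∧ u.2 < a.2 + 4 * (n * L)) := by
    intro u
    rw [hRdef, mem_rect_I]
    push_cast
    rw [mul_assoc]
  have memRE : ∀ e : Edge, e ∈ R.E ↔ (a.1 ≤ e.1.1 ∧ e.1.1 < a.1 + 4 * (n * L)) ∧
      (a.2 ≤ e.1.2 ∧ e.1.2 < a.2 + 4 * (n * L)) := by
    intro e
    rw [hRdef, mem_rect_E]
    push_cast
    rw [mul_assoc]
  have memBI : ∀ u : Site, u ∈ B.I ↔ (a.1 + n * L < u.1 ∧ u.1 < a.1 + 3 * (n * L)) ∧
      (a.2 + n * L < u.2 ∧ u.2 < a.2 + 3 * (n * L)) := by
    intro u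
    rw [hB, box, mem_rect_I]
    push_cast
    omega
  have memBE : ∀ e : Edge, e ∈ B.E ↔ (a.1 + n * L ≤ e.1.1 ∧ e.1.1 < a.1 + 3 * (n * L)) ∧
      (a.2 + n * L ≤ e.1.2 ∧ e.1.2 < a.2 + 3 * (n * L)) := by
    intro e
    rw [hB, box, mem_rect_E]
    push_cast
    omega
  set ψ := Mag_psi a (n * L) with hψ
  have hsupp : Supp R.I ψ := by
    intro u hu
    rw [memRI] at hu
    rw [hψ, Mag_psi, Mag_pyr_zero (by omega)]
    simp
  have hone : ∀ u : Site, a.1 + n * L ≤ u.1 → u.1 ≤ a.1 + 3 * (n * L) → a.2 + n * L ≤ u.2 →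
      u.2 ≤ a.2 + 3 * (n * L) → ψ u = 1 := by
    intro u h1 h2 h3 h4
    rw [hψ, Mag_psi, Mag_pyr_top hN.le (by omega) (by omega) (by omega) (by omega)]
    exact div_self (by exact_mod_cast hN.ne')
  have hψE : ∀ e ∈ B.E, ψ e.1 = 1 ∧ ψ (hd e) = 1 := by
    intro e he
    rw [memBE] at he
    refine ⟨hone _ (by omega) (by omega) (by omega) (by omega), ?_⟩
    rcases Mag_hd_cases e with h' | h' <;> rw [h'] <;>
      exact hone _ (by simp only; omega) (by simp only; omega) (by simp only; omega)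
        (by simp only; omega)
  have hψx : ψ x = 1 := hone x (by omega) (by omega) (by omega) (by omega)
  set F := B.av b (spin x c) with hF
  have cF : Continuous F := Blk.continuous_av (continuous_spin x c)
  have bF : ∀ σ, |F σ| ≤ m := fun σ => h b hb x c hc σ
  have iF : ∀ ij ∈ range (4 * n) ×ˢ range (4 * n),
      Indep (rect (a.1 + (ij : ℕ × ℕ).1 * L, a.2 + ij.2 * L) L L).I F := by
    rintro ⟨i, j⟩ _
    by_cases hin : ((n : ℤ) ≤ i ∧ (i : ℤ) < 3 * n) ∧ ((n : ℤ) ≤ j ∧ (j : ℤ) < 3 * n)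
    · refine Indep.mono (I := B.I) indep_gE_self ?_
      intro u hu
      rw [mem_rect_I] at hu
      rw [memBI]
      have h1 : (n : ℤ) * L ≤ i * L := mul_le_mul_of_nonneg_right hin.1.1 hL0
      have h2 : (i : ℤ) * L + L ≤ 3 * (n * L) := by
        have := Mag_mul_step hL0 hin.1.2; linarith
      have h3 : (n : ℤ) * L ≤ j * L := mul_le_mul_of_nonneg_right hin.2.1 hL0
      have h4 : (j : ℤ) * L + L ≤ 3 * (n * L) := by
        have := Mag_mul_step hL0 hin.2.2; linarith
      simp only at hu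
      omega
    · have hout : ∀ u : Site, a.1 + n * L ≤ u.1 → u.1 ≤ a.1 + 3 * (n * L) → a.2 + n * L ≤ u.2 →
          u.2 ≤ a.2 + 3 * (n * L) → u ∉ (rect (a.1 + (i : ℤ) * L, a.2 + (j : ℤ) * L) L L).I := by
        intro u h1 h2 h3 h4 hu
        rw [mem_rect_I] at hu
        simp only at hu
        have g1 : (i : ℤ) < n → (i : ℤ) * L + L ≤ n * L := Mag_mul_step hL0
        have g2 : (j : ℤ) < n → (j : ℤ) * L + L ≤ n * L := Mag_mul_step hL0
        have g3 : 3 * (n : ℤ) ≤ i → 3 * ((n : ℤ) * L) ≤ i * L := fun h' => by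
          have := mul_le_mul_of_nonneg_right h' hL0; linarith
        have g4 : 3 * (n : ℤ) ≤ j → 3 * ((n : ℤ) * L) ≤ j * L := fun h' => by
          have := mul_le_mul_of_nonneg_right h' hL0; linarith
        omega
      refine Indep.gE (indep_J fun e he => ?_)
        (Mag_indep_spin (hout x (by omega) (by omega) (by omega) (by omega)) c)
      rw [memBE] at he
      refine ⟨hout _ (by omega) (by omega) (by omega) (by omega), ?_⟩
      rcases Mag_hd_cases e with h' | h' <;> rw [h'] <;>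
        exact hout _ (by simp only; omega) (by simp only; omega) (by simp only; omega)
          (by simp only; omega)
  have flF : ∀ t, (∀ σ, spin x c (flow 0 ψ t σ) = -spin x c σ) → ∀ σ, F (flow 0 ψ t σ) = -F σ := by
    intro t ht σ
    have := gE_flow (I := B.I) (k := 0) (f := ψ) (continuous_Ham (E := B.E) (b := b))
      (continuous_spin x c) t (Ham_flow hψE t) σ
    rw [hF, Blk.av, ← this, funext ht, gE_neg]
  have fl1 := flF Real.pi fun σ => (spin_flow_pi hψx hc σ).1
  have fl2 := flF (-Real.pi) fun σ => (spin_flow_pi hψx hc σ).2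
  have hy : R.av b F τ = R.av b (spin x c) τ := by
    refine gE_dlr continuous_Ham continuous_Ham (continuous_spin x c) ?_ ?_ τ
    · intro u hu
      rw [memBI] at hu
      rw [memRI]
      omega
    · have hsub : B.E ⊆ R.E := by
        intro e he
        rw [memBE] at he
        rw [memRE]
        omega
      have e1 : (fun σ => Ham R.E b σ - Ham B.E b σ) = Ham (R.E \ B.E) b := by
        funext σ
        unfold Ham J
        rw [sum_sdiff_eq_sub hsub]
      rw [e1]
      exact indep_J fun e he => not_mem_rect_I (mem_sdiff.1 he).2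
  rw [← hy]
  have avp : R.av b (fun σ => m + F σ) τ = m + R.av b F τ := by
    rw [Blk.av, gE_add continuous_Ham continuous_const cF, gE_const continuous_Ham]
    rfl
  have avm : R.av b (fun σ => m - F σ) τ = m - R.av b F τ := by
    rw [Blk.av, gE_sub continuous_Ham continuous_const cF, gE_const continuous_Ham]
    rfl
  have pp : ∀ σ, 0 ≤ m + F σ := fun σ => by have := (abs_le.1 (bF σ)).1; linarith
  have pm : ∀ σ, 0 ≤ m - F σ := fun σ => by have := (abs_le.1 (bF σ)).2; linarith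
  have hc1 := hT.cs (b := b) (k := 0) hsupp (Mag_M_sum hL hS hn hβ hb a)
    (F := fun σ => m + F σ) (continuous_const.fun_add cF) pp
    (fun ij hij => (iF ij hij).comp fun z => m + z) Real.pi τ
  have hc2 := hT.cs (b := b) (k := 0) hsupp (Mag_M_sum hL hS hn hβ hb a)
    (F := fun σ => m - F σ) (continuous_const.fun_sub cF) pm
    (fun ij hij => (iF ij hij).comp fun z => m - z) Real.pi τ
  simp only [fl1, fl2, ← sub_eq_add_neg, sub_neg_eq_add] at hc1 hc2
  rw [avp, avm, ← sq] at hc1 hc2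
  have p1 : 0 ≤ m + R.av b F τ := avp ▸ gE_nonneg pp τ
  have p2 : 0 ≤ m - R.av b F τ := avm ▸ gE_nonneg pm τ
  set y := R.av b F τ
  have k1 : m + y ≤ 5 / 3 * (m - y) := by
    refine (pow_le_pow_iff_left₀ (by assumption) (by positivity) two_ne_zero).1 ?_
    rw [mul_pow]
    exact hc1.trans (mul_le_mul_of_nonneg_right Mag_exp_le (sq_nonneg _))
  have k2 : m - y ≤ 5 / 3 * (m + y) := by
    refine (pow_le_pow_iff_left₀ (by assumption) (by positivity) two_ne_zero).1 ?_
    rw [mul_pow]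
    exact hc2.trans (mul_le_mul_of_nonneg_right Mag_exp_le (sq_nonneg _))
  rw [abs_le]
  constructor <;> linarith

lemma Mag_one (β : ℝ) (r : ℕ) : Mag β r 1 := by
  intro b _ x c _ τ
  have h := abs_gE_le (I := (box x r).I) (continuous_Ham (E := (box x r).E) (b := b))
    (continuous_spin x c) (continuous_const (y := (1 : ℝ))) (fun σ => abs_co_le (σ x) c) τ
  rwa [gE_const continuous_Ham] at h

theorem mag_small {β : ℝ} {L : ℕ} (hL : 1 ≤ L) (hS : Stiff β L (1 / 500)) {η : ℝ} (hη : 0 < η) :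
    ∃ r : ℕ, 1 ≤ r ∧ Mag β r (η / r) := by
  obtain ⟨n, hn, hβ⟩ : ∃ n : ℕ, 1 ≤ n ∧ 1000 * β ≤ n :=
    ⟨⌈1000 * β⌉₊ + 1, by omega, by push_cast; linarith [Nat.le_ceil (1000 * β)]⟩
  have key : ∀ j : ℕ, Mag β (2 ^ j * n * L) (1 / 4 ^ j) := by
    intro j
    induction j with
    | zero => simpa using Mag_one β (n * L)
    | succ j ih =>
      have h1 : 1 ≤ 2 ^ j := Nat.one_le_two_pow
      have h2 : n ≤ 2 ^ j * n := Nat.le_mul_of_pos_left n h1
      have := mag_step hL hS (hn.trans h2) (hβ.trans (by exact_mod_cast h2)) ih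
      rw [show 2 ^ (j + 1) * n * L = 2 * (2 ^ j * n) * L by ring,
        show (1 : ℝ) / 4 ^ (j + 1) = 1 / 4 ^ j / 4 by rw [pow_succ, div_div]]
      exact this
  obtain ⟨j, hj⟩ := pow_unbounded_of_one_lt ((n : ℝ) * L / η) (one_lt_two (α := ℝ))
  have hr : 0 < 2 ^ j * n * L := by positivity
  refine ⟨2 ^ j * n * L, hr, fun b hb x c hc τ => (key j b hb x c hc τ).trans ?_⟩
  rw [div_lt_iff₀ hη] at hj
  rw [div_le_div_iff₀ (by positivity) (by exact_mod_cast hr)]
  push_cast
  have e : (4 : ℝ) ^ j = 2 ^ j * 2 ^ j := by rw [← mul_pow]; norm_num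
  have hp : (0 : ℝ) < 2 ^ j := by positivity
  rw [e]
  nlinarith [mul_lt_mul_of_pos_left hj hp]

end Crest.Agent.R167
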