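import Crest.Agent.R167.Defs

/-!
# R167 / ReduceAux: resampling the direction of three components of a spin
-/

set_option autoImplicit false

namespace Crest.Agent.R167

open MeasureTheory Set

noncomputable section

/-- exchange the last two factors of a triple product -/
lemma red_reorder {α β γ : Type*} [MeasurableSpace α] [MeasurableSpace β] [MeasurableSpace γ]
    (μ : Measure α) (ν : Measure β) (κ : Measure γ) [SFinite μ] [SFinite ν] [SFinite κ] :
    MeasurePreserving (fun p : (α × β) × γ => ((p.1.1, p.2), p.1.2)) ((μ.prod ν).prod κ)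
      ((μ.prod κ).prod ν) := by
  have h1 := measurePreserving_prodAssoc μ ν κ
  have h2 : MeasurePreserving (Prod.map id Prod.swap) (μ.prod (ν.prod κ)) (μ.prod (κ.prod ν)) :=
    (MeasurePreserving.id μ).prod Measure.measurePreserving_swap
  have h3 := (measurePreserving_prodAssoc μ κ ν).symm
  exact (h3.comp (h2.comp h1))

section polar

variable {E : Type*} [NormedAddCommGroup E] [InnerProductSpace ℝ E] [FiniteDimensional ℝ E]
  [MeasurableSpace E] [BorelSpace E]

/-- polar coordinates -/
def redPolar (E : Type*) [NormedAddCommGroup E] [NormedSpace ℝ E]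
    (p : Metric.sphere (0 : E) 1 × Ioi (0 : ℝ)) : E := (p.2 : ℝ) • (p.1 : E)

omit [FiniteDimensional ℝ E] [MeasurableSpace E] [BorelSpace E] in
lemma redPolar_eq : redPolar E = Subtype.val ∘ (homeomorphUnitSphereProd E).symm := by
  funext p
  simp [redPolar]

omit [FiniteDimensional ℝ E] in
lemma measurableEmbedding_redPolar : MeasurableEmbedding (redPolar E) := by
  rw [redPolar_eq]
  exact (MeasurableEmbedding.subtype_coe (measurableSet_singleton _).compl).comp
    (Homeomorph.measurableEmbedding _)

lemma measurePreserving_redPolar [Nontrivial E] :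
    MeasurePreserving (redPolar E)
      ((volume : Measure E).toSphere.prod (Measure.volumeIoiPow (Module.finrank ℝ E - 1)))
      volume := by
  rw [redPolar_eq]
  have h1 := (Measure.measurePreserving_homeomorphUnitSphereProd (volume : Measure E)).symm
    (homeomorphUnitSphereProd E).toMeasurableEquiv
  have h2 : MeasurePreserving (Subtype.val : ({0}ᶜ : Set E) → E)
      ((volume : Measure E).comap Subtype.val) volume := by
    refine ⟨measurable_subtype_coe, ?_⟩
    rw [map_comap_subtype_coe (measurableSet_singleton _).compl, restrict_compl_singleton]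
  exact h2.comp h1

omit [FiniteDimensional ℝ E] [MeasurableSpace E] [BorelSpace E] in
lemma norm_redPolar (p : Metric.sphere (0 : E) 1 × Ioi (0 : ℝ)) : ‖redPolar E p‖ = p.2 := by
  have h : (0 : ℝ) < p.2 := p.2.2
  simp [redPolar, norm_smul, abs_of_pos h]

end polar

lemma red_toSphere_eq :
    (volume : Measure (En 3)).toSphere = (volume : Measure (En 3)).toSphere univ • lam := by
  have h : (volume : Measure (En 3)).toSphere Set.univ ≠ 0 := by
    rw [Measure.toSphere_apply_univ]
    exact mul_ne_zero (by simp) (Metric.measure_ball_pos _ _ one_pos).ne'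
  rw [lam, smul_smul, ENNReal.mul_inv_cancel h (measure_ne_top _ _), one_smul]

/-- resampling the direction in `ℝ³` -/
lemma measurePreserving_resample :
    MeasurePreserving (fun p : En 3 × Sph => ‖p.1‖ • (p.2 : En 3)) (volume.prod lam) volume := by
  set ρ := Measure.volumeIoiPow (Module.finrank ℝ (En 3) - 1)
  set σ := (volume : Measure (En 3)).toSphere with hσ
  have hP : MeasurePreserving (redPolar (En 3)) (σ.prod ρ) volume := measurePreserving_redPolar
  have h1 : MeasurePreserving (Prod.map (redPolar (En 3)) id) ((σ.prod ρ).prod lam)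
      (volume.prod lam) := hP.prod (MeasurePreserving.id lam)
  have h2 : MeasurePreserving (fun p : (Sph × Ioi (0 : ℝ)) × Sph => (p.2, p.1.2))
      ((lam.prod ρ).prod lam) (lam.prod ρ) :=
    Measure.measurePreserving_swap.comp
      ((measurePreserving_snd (μ := lam) (ν := ρ)).prod (MeasurePreserving.id lam))
  have h3 : MeasurePreserving (fun p : (Sph × Ioi (0 : ℝ)) × Sph => (p.2, p.1.2))
      ((σ.prod ρ).prod lam) (σ.prod ρ) := by
    have := h2.smul_measure (σ univ)
    rw [← Measure.prod_smul_left, ← Measure.prod_smul_left, ← red_toSphere_eq] at this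
    exact this
  have hm : Measurable (fun p : En 3 × Sph => ‖p.1‖ • (p.2 : En 3)) := by fun_prop
  refine ⟨hm, ?_⟩
  rw [← h1.map_eq, Measure.map_map hm h1.measurable]
  have : (fun p : En 3 × Sph => ‖p.1‖ • (p.2 : En 3)) ∘ Prod.map (redPolar (En 3)) id =
      redPolar (En 3) ∘ fun p : (Sph × Ioi (0 : ℝ)) × Sph => (p.2, p.1.2) := by
    funext p
    simp only [Function.comp, Prod.map, id, norm_redPolar]
    rfl
  rw [this]
  exact (hP.comp h3).map_eq

section mix

variable {E W : Type} [NormedAddCommGroup E] [InnerProductSpace ℝ E]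
  [NormedAddCommGroup W] [InnerProductSpace ℝ W] (φ : E ≃ₗᵢ[ℝ] WithLp 2 (En 3 × W))

/-- replace the direction of the first three components -/
def mixE (p : E × Sph) : E :=
  φ.symm (WithLp.toLp 2 (‖(φ p.1).fst‖ • (p.2 : En 3), (φ p.1).snd))

lemma mixE_fst (p : E × Sph) : (φ (mixE φ p)).fst = ‖(φ p.1).fst‖ • (p.2 : En 3) := by
  simp [mixE]

lemma mixE_snd (p : E × Sph) : (φ (mixE φ p)).snd = (φ p.1).snd := by
  simp [mixE]

lemma inner_mixE (p q : E × Sph) :
    inner ℝ (mixE φ p) (mixE φ q) =
      ‖(φ p.1).fst‖ * ‖(φ q.1).fst‖ * inner ℝ (p.2 : En 3) (q.2 : En 3) +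
        inner ℝ (φ p.1).snd (φ q.1).snd := by
  rw [← φ.inner_map_map, WithLp.prod_inner_apply]
  change inner ℝ (φ (mixE φ p)).fst (φ (mixE φ q)).fst +
    inner ℝ (φ (mixE φ p)).snd (φ (mixE φ q)).snd = _
  rw [mixE_fst, mixE_fst, mixE_snd, mixE_snd, real_inner_smul_left, real_inner_smul_right]
  ring

lemma norm_mixE (p : E × Sph) : ‖mixE φ p‖ = ‖p.1‖ := by
  have h1 : ‖mixE φ p‖ ^ 2 = ‖p.1‖ ^ 2 := by
    rw [← φ.norm_map (mixE φ p), ← φ.norm_map p.1, WithLp.prod_norm_sq_eq_of_L2,
      WithLp.prod_norm_sq_eq_of_L2, mixE_fst, mixE_snd, norm_smul]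
    simp
  exact (pow_left_inj₀ (norm_nonneg _) (norm_nonneg _) two_ne_zero).1 h1

lemma mixE_smul {r : ℝ} (hr : 0 ≤ r) (y : E) (v : Sph) :
    mixE φ (r • y, v) = r • mixE φ (y, v) := by
  unfold mixE
  rw [← map_smul φ.symm, map_smul φ]
  congr 1
  simp only [WithLp.smul_fst, WithLp.smul_snd, norm_smul, Real.norm_eq_abs, abs_of_nonneg hr,
    ← WithLp.toLp_smul, Prod.smul_mk, smul_smul]

lemma norm_fst_le (y : E) : ‖(φ y).fst‖ ≤ ‖y‖ := by
  rw [← φ.norm_map y]
  exact WithLp.norm_fst_le _ _

lemma continuous_mixE : Continuous (mixE φ) := by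
  unfold mixE
  fun_prop

/-- the same on the unit sphere -/
def mixS (p : Metric.sphere (0 : E) 1 × Sph) : Metric.sphere (0 : E) 1 :=
  ⟨mixE φ (p.1, p.2), by simp [norm_mixE]⟩

lemma continuous_mixS : Continuous (mixS φ) := by
  refine Continuous.subtype_mk ((continuous_mixE φ).comp ?_) _
  fun_prop

variable [FiniteDimensional ℝ E] [MeasurableSpace E] [BorelSpace E]
  [FiniteDimensional ℝ W] [MeasurableSpace W] [BorelSpace W]

lemma measurePreserving_mixE : MeasurePreserving (mixE φ) (volume.prod lam) volume := by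
  have h1 : MeasurePreserving (fun y : E => WithLp.ofLp (φ y)) volume
      ((volume : Measure (En 3)).prod (volume : Measure W)) :=
    (WithLp.volume_preserving_ofLp (En 3) W).comp φ.measurePreserving
  have h2 := h1.prod (MeasurePreserving.id lam)
  have h3 := red_reorder (volume : Measure (En 3)) (volume : Measure W) lam
  have h4 := measurePreserving_resample.prod (MeasurePreserving.id (volume : Measure W))
  have h5 : MeasurePreserving (fun z : En 3 × W => φ.symm (WithLp.toLp 2 z))
      ((volume : Measure (En 3)).prod (volume : Measure W)) volume :=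
    φ.symm.measurePreserving.comp (WithLp.volume_preserving_toLp (En 3) W)
  have h6 := h5.comp (h4.comp (h3.comp h2))
  refine ⟨(continuous_mixE φ).measurable, ?_⟩
  refine Eq.trans ?_ h6.map_eq
  congr 1

lemma measurePreserving_mixS [Nontrivial E] :
    MeasurePreserving (mixS φ) ((volume : Measure E).toSphere.prod lam)
      (volume : Measure E).toSphere := by
  set ρ := Measure.volumeIoiPow (Module.finrank ℝ E - 1) with hρ
  set σ := (volume : Measure E).toSphere with hσ
  have hP : MeasurePreserving (redPolar E) (σ.prod ρ) volume := measurePreserving_redPolar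
  have hm : Measurable (mixS φ) := (continuous_mixS φ).measurable
  refine ⟨hm, ?_⟩
  ext s hs
  rw [Measure.map_apply hm hs]
  set T : Set (Ioi (0 : ℝ)) := Iio ⟨1, mem_Ioi.2 one_pos⟩ with hT
  have hTm : MeasurableSet T := measurableSet_Iio
  have hT0 : ρ T ≠ 0 := by
    rw [hρ, hT, Measure.volumeIoiPow_apply_Iio]
    simp only [one_pow, ne_eq, ENNReal.ofReal_eq_zero, not_le]
    positivity
  have hT1 : ρ T ≠ ⊤ := by
    rw [hρ, hT, Measure.volumeIoiPow_apply_Iio]
    exact ENNReal.ofReal_ne_top
  have hA : MeasurableSet (redPolar E '' (s ×ˢ T)) :=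
    measurableEmbedding_redPolar.measurableSet_image.2 (hs.prod hTm)
  have hinj : Function.Injective (redPolar E) := measurableEmbedding_redPolar.injective
  have e1 : volume (redPolar E '' (s ×ˢ T)) = σ s * ρ T := by
    rw [← hP.measure_preimage hA.nullMeasurableSet, hinj.preimage_image, Measure.prod_prod]
  have h1 : MeasurePreserving (mixE φ ∘ Prod.map (redPolar E) id) ((σ.prod ρ).prod lam) volume :=
    (measurePreserving_mixE φ).comp (hP.prod (MeasurePreserving.id lam))
  have h2 := red_reorder σ ρ lam
  have e2 : volume (redPolar E '' (s ×ˢ T)) = (σ.prod lam) (mixS φ ⁻¹' s) * ρ T := by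
    rw [← h1.measure_preimage hA.nullMeasurableSet, ← Measure.prod_prod,
      ← h2.measure_preimage ((hm hs).prod hTm).nullMeasurableSet]
    congr 1
    ext p
    have : (mixE φ ∘ Prod.map (redPolar E) id) p = redPolar E (mixS φ (p.1.1, p.2), p.1.2) := by
      simp only [Function.comp, Prod.map, id, redPolar]
      exact mixE_smul φ (le_of_lt p.1.2.2) _ _
    rw [mem_preimage, this, hinj.mem_set_image]
    rfl
  exact (ENNReal.mul_left_inj hT0 hT1).1 (e2.symm.trans e1)

end mix

end

end Crest.Agent.R167
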