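import Crest.Agent.R167.Simon
import Crest.Agent.R167.ReduceAux

/-!
# R167 / Reduce: from `n = 3` to `n ≥ 3`

Write `n = 3 + k`.  `rad τ = ‖(τ₀, τ₁, τ₂)‖ ≤ 1`, `mix τ v = (rad τ · v, τ₃, …)`.
`measurePreserving_mix`: for Lebesgue measure on `En 3`, polar coordinates
(`Measure.measurePreserving_homeomorphUnitSphereProd`) give `∫⁻ φ(w) dw = ∫⁻∫⁻ φ(‖w‖ v) dlam(v) dw`;
Fubini on `En (3 + k) ≃ En 3 × En k` (`volume_measurePreserving_piCongrLeft`, `sumPiEquivProdPi`,
`PiLp.volume_preserving_toLp/ofLp`) gives that `(y, v) ↦ (‖y₀₁₂‖ v, y_rest)` preserves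
`volume ⊗ lam → volume` on `En (3 + k)`; this map preserves norms and commutes with positive
scalings, so `Measure.toSphere_apply'` transfers the statement to the sphere.
`reduce`: the components are exchangeable (`measurePreserving_sphMap` with a coordinate permutation
`LinearIsometryEquiv.piLpCongrLeft`, `measurePreserving_pi`), so `twoPoint = n ⟨σ_x⁰ σ_y⁰⟩`.  The map
`(τ, v) ↦ (x ↦ mix (τ x) (v x))` is measure preserving `referenceLaw ⊗ Lam → referenceLaw`
(`Measure.infinitePi_map_restrict`, `measurePreserving_arrowProdEquivProdArrow`, `measurePreserving_pi`);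
`interaction (mix τ v) = ρ(τ) + Ham E b_τ v` with `E` the edges inside `V`,
`b_τ e = b e · rad τ_{e.1} · rad τ_{hd e} ∈ [0, β]` on `E` and `0` off `E`.  Fubini:
`∫ σ⁰σ⁰ e^{…} = ∫ e^{ρ(τ)} rad·rad · corr · Z(τ) dτ ∈ [0, B ∫ e^{ρ(τ)} Z(τ) dτ]`.
-/

set_option autoImplicit false

namespace Crest.Agent.R167

open MeasureTheory Finset Matrix Crest.ProbabilityR.SpinModel

noncomputable section

section aux

variable {n : ℕ} {W : Type} [NormedAddCommGroup W] [InnerProductSpace ℝ W]
  (φ : En n ≃ₗᵢ[ℝ] WithLp 2 (En 3 × W)) (V : Finset (ℤ × ℤ))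

/-- resample the directions at all sites -/
def redMix (p : SpinConfig n V × Cfg) : SpinConfig n V := fun x => mixS φ (p.1 x, p.2 x)

/-- length of the three dimensional part of the spin -/
def redRad (τ : SpinConfig n V) (z : Site) : ℝ :=
  if h : z ∈ V then ‖(φ (τ ⟨z, h⟩ : En n)).fst‖ else 0

/-- the energy of the remaining components -/
def redRest (b : ℤ × ℤ → Fin 2 → ℝ) (τ : SpinConfig n V) : ℝ :=
  ∑ u : V, ∑ i : Fin 2,
    if h : (u : ℤ × ℤ) + latticeDir i ∈ V then
      b u i * inner ℝ (φ (τ u : En n)).snd (φ (τ ⟨(u : ℤ × ℤ) + latticeDir i, h⟩ : En n)).snd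
    else 0

/-- the conditional couplings -/
def redCpl (b : ℤ × ℤ → Fin 2 → ℝ) (τ : SpinConfig n V) (e : Edge) : ℝ :=
  b e.1 e.2 * redRad φ V τ e.1 * redRad φ V τ (hd e)

lemma redRad_nonneg (τ : SpinConfig n V) (z : Site) : 0 ≤ redRad φ V τ z := by
  unfold redRad
  split_ifs
  · exact norm_nonneg _
  · exact le_rfl

lemma redRad_le (τ : SpinConfig n V) (z : Site) : redRad φ V τ z ≤ 1 := by
  unfold redRad
  split_ifs with h
  · refine (norm_fst_le φ _).trans (le_of_eq ?_)
    simp
  · exact zero_le_one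

lemma redRad_coe (τ : SpinConfig n V) (u : V) : redRad φ V τ u = ‖(φ (τ u : En n)).fst‖ := by
  unfold redRad
  rw [dif_pos u.2]

lemma redCpl_cpl {β : ℝ} {b : ℤ × ℤ → Fin 2 → ℝ} (hb : ∀ u i, 0 ≤ b u i ∧ b u i ≤ β)
    (τ : SpinConfig n V) : Cpl β (redCpl φ V b τ) := by
  intro e
  have h1 := redRad_nonneg φ V τ e.1
  have h2 := redRad_nonneg φ V τ (hd e)
  have h3 := redRad_le φ V τ e.1
  have h4 := redRad_le φ V τ (hd e)
  have h5 := hb e.1 e.2
  refine ⟨mul_nonneg (mul_nonneg h5.1 h1) h2, ?_⟩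
  unfold redCpl
  calc b e.1 e.2 * redRad φ V τ e.1 * redRad φ V τ (hd e) ≤ b e.1 e.2 * 1 * 1 := by
        gcongr
        exact mul_nonneg h5.1 zero_le_one
        exact h5.1
    _ ≤ β := by simpa using h5.2

lemma red_pr_one (e : Edge) (v : Cfg) :
    pr 1 e v = inner ℝ (v e.1 : En 3) (v (hd e) : En 3) := by
  rw [pr, one_mulVec, PiLp.inner_apply]
  simp only [dotProduct, co, RCLike.inner_apply, conj_trivial, mul_comm]

lemma interaction_redMix (b : ℤ × ℤ → Fin 2 → ℝ) (τ : SpinConfig n V) (v : Cfg) :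
    interaction n V b (redMix φ V (τ, v)) =
      redRest φ V b τ + Ham (V ×ˢ univ) (redCpl φ V b τ) v := by
  have h1 : Ham (V ×ˢ univ) (redCpl φ V b τ) v =
      ∑ u : V, ∑ i : Fin 2, redCpl φ V b τ (u, i) * pr 1 (u, i) v := by
    unfold Ham J
    rw [sum_product, ← sum_coe_sort V]
    simp only [mul_one]
  rw [h1, interaction, redRest, ← sum_add_distrib]
  refine sum_congr rfl fun u _ => ?_
  rw [← sum_add_distrib]
  refine sum_congr rfl fun i _ => ?_
  split_ifs with h
  · have h2 := inner_mixE φ ((τ u : En n), v u)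
      ((τ ⟨(u : ℤ × ℤ) + latticeDir i, h⟩ : En n), v ((u : ℤ × ℤ) + latticeDir i))
    have h3 : redRad φ V τ (hd (u, i)) =
        ‖(φ (τ ⟨(u : ℤ × ℤ) + latticeDir i, h⟩ : En n)).fst‖ :=
      redRad_coe φ V τ ⟨(u : ℤ × ℤ) + latticeDir i, h⟩
    have h4 : inner ℝ (redMix φ V (τ, v) u : En n)
        (redMix φ V (τ, v) ⟨(u : ℤ × ℤ) + latticeDir i, h⟩ : En n) = _ := h2
    rw [h4, red_pr_one, redCpl, h3, redRad_coe]
    simp only [hd]
    ring
  · have h3 : redRad φ V τ (hd (u, i)) = 0 := dif_neg h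
    rw [redCpl, h3]
    simp

lemma redMix_fst (τ : SpinConfig n V) (v : Cfg) (x : V) :
    (φ (redMix φ V (τ, v) x : En n)).fst 0 = redRad φ V τ x * spin x 0 v := by
  have h := mixE_fst φ ((τ x : En n), v x)
  have h2 : (φ (redMix φ V (τ, v) x : En n)).fst = _ := h
  rw [h2, redRad_coe]
  simp [spin, co]

lemma red_continuous_interaction (b : ℤ × ℤ → Fin 2 → ℝ) : Continuous (interaction n V b) := by
  unfold interaction
  refine continuous_finsetSum _ fun u _ => continuous_finsetSum _ fun i _ => ?_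
  split_ifs with h
  · fun_prop
  · exact continuous_const

instance red_isFiniteMeasure : IsFiniteMeasure (referenceLaw n V) := by
  unfold referenceLaw
  infer_instance

lemma red_integrable {F : SpinConfig n V → ℝ} (hF : Continuous F) :
    Integrable F (referenceLaw n V) :=
  hF.integrable_of_hasCompactSupport (HasCompactSupport.of_compactSpace F)

variable [FiniteDimensional ℝ W] [MeasurableSpace W] [BorelSpace W]

lemma measurePreserving_redMix [Nontrivial (En n)] :
    MeasurePreserving (redMix φ V) ((referenceLaw n V).prod Lam) (referenceLaw n V) := by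
  have h1 : MeasurePreserving (V.restrict : Cfg → (V → Sph)) Lam (Measure.pi fun _ : V => lam) :=
    ⟨V.measurable_restrict, Measure.infinitePi_map_restrict (fun _ : Site => lam)⟩
  have h2 := (MeasurePreserving.id (referenceLaw n V)).prod h1
  have h3 := (measurePreserving_arrowProdEquivProdArrow (Metric.sphere (0 : En n) 1) Sph V
    (fun _ => (volume : Measure (En n)).toSphere) (fun _ => lam)).symm
  have h4 := measurePreserving_pi
    (fun _ : V => ((volume : Measure (En n)).toSphere).prod lam)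
    (fun _ : V => (volume : Measure (En n)).toSphere) (f := fun _ => mixS φ)
    (fun _ => measurePreserving_mixS φ)
  exact h4.comp (h3.comp h2)

lemma red_integral [Nontrivial (En n)] {F : SpinConfig n V → ℝ} (hF : Continuous F) :
    Integrable (fun τ => ∫ v, F (redMix φ V (τ, v)) ∂Lam) (referenceLaw n V) ∧
      ∫ σ, F σ ∂referenceLaw n V =
        ∫ τ, ∫ v, F (redMix φ V (τ, v)) ∂Lam ∂referenceLaw n V := by
  have hM := measurePreserving_redMix φ V
  have h1 : Integrable (fun p => F (redMix φ V p)) ((referenceLaw n V).prod Lam) :=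
    hM.integrable_comp_of_integrable (red_integrable V hF)
  refine ⟨h1.integral_prod_left, ?_⟩
  rw [← integral_prod _ h1]
  conv_lhs => rw [← hM.map_eq]
  exact integral_map hM.measurable.aemeasurable hF.aestronglyMeasurable

lemma red_component [Nontrivial (En n)] {β : ℝ} (B : Site → Site → ℝ)
    (h : ∀ (E : Finset Edge) (b : Edge → ℝ), Cpl β b → ∀ x z : Site,
      0 ≤ corr E b (fun σ => spin x 0 σ * spin z 0 σ) ∧
      corr E b (fun σ => spin x 0 σ * spin z 0 σ) ≤ B x z)
    (b : ℤ × ℤ → Fin 2 → ℝ) (hb : ∀ u i, 0 ≤ b u i ∧ b u i ≤ β) (x y : V) :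
    0 ≤ ∫ σ, (φ (σ x : En n)).fst 0 * (φ (σ y : En n)).fst 0 * Real.exp (interaction n V b σ)
        ∂referenceLaw n V ∧
      ∫ σ, (φ (σ x : En n)).fst 0 * (φ (σ y : En n)).fst 0 * Real.exp (interaction n V b σ)
        ∂referenceLaw n V ≤ B x y * partitionFn n V b := by
  have hc := red_continuous_interaction (n := n) V b
  have hF : Continuous fun σ : SpinConfig n V =>
      (φ (σ x : En n)).fst 0 * (φ (σ y : En n)).fst 0 * Real.exp (interaction n V b σ) := by
    fun_prop
  have hG : Continuous fun σ : SpinConfig n V => Real.exp (interaction n V b σ) := by fun_prop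
  obtain ⟨iF, eF⟩ := red_integral φ V hF
  obtain ⟨iG, eG⟩ := red_integral φ V hG
  have key : ∀ τ : SpinConfig n V,
      0 ≤ ∫ v, (φ (redMix φ V (τ, v) x : En n)).fst 0 * (φ (redMix φ V (τ, v) y : En n)).fst 0 *
          Real.exp (interaction n V b (redMix φ V (τ, v))) ∂Lam ∧
        ∫ v, (φ (redMix φ V (τ, v) x : En n)).fst 0 * (φ (redMix φ V (τ, v) y : En n)).fst 0 *
          Real.exp (interaction n V b (redMix φ V (τ, v))) ∂Lam ≤
        B x y * ∫ v, Real.exp (interaction n V b (redMix φ V (τ, v))) ∂Lam := by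
    intro τ
    obtain ⟨h0, h1⟩ := h (V ×ˢ univ) _ (redCpl_cpl φ V hb τ) x y
    have hB : 0 ≤ B x y := h0.trans h1
    have hZ : 0 < ∫ v, Real.exp (Ham (V ×ˢ univ) (redCpl φ V b τ) v) ∂Lam :=
      integral_exp_pos (integrable_cont (Real.continuous_exp.comp continuous_Ham) Lam)
    unfold corr at h0 h1
    rw [le_div_iff₀ hZ, zero_mul] at h0
    rw [div_le_iff₀ hZ] at h1
    have e1 : ∫ v, (φ (redMix φ V (τ, v) x : En n)).fst 0 *
          (φ (redMix φ V (τ, v) y : En n)).fst 0 *
          Real.exp (interaction n V b (redMix φ V (τ, v))) ∂Lam =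
        (redRad φ V τ x * redRad φ V τ y) * (Real.exp (redRest φ V b τ) *
          ∫ v, spin x 0 v * spin y 0 v *
            Real.exp (Ham (V ×ˢ univ) (redCpl φ V b τ) v) ∂Lam) := by
      rw [← integral_const_mul, ← integral_const_mul]
      refine integral_congr_ae (Filter.Eventually.of_forall fun v => ?_)
      simp only [redMix_fst, interaction_redMix, Real.exp_add]
      ring
    have e2 : ∫ v, Real.exp (interaction n V b (redMix φ V (τ, v))) ∂Lam =
        Real.exp (redRest φ V b τ) *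
          ∫ v, Real.exp (Ham (V ×ˢ univ) (redCpl φ V b τ) v) ∂Lam := by
      rw [← integral_const_mul]
      simp only [interaction_redMix, Real.exp_add]
    have r1 := redRad_nonneg φ V τ x
    have r2 := redRad_nonneg φ V τ y
    have r3 : redRad φ V τ x * redRad φ V τ y ≤ 1 :=
      mul_le_one₀ (redRad_le φ V τ x) r2 (redRad_le φ V τ y)
    have r4 := (Real.exp_pos (redRest φ V b τ)).le
    rw [e1, e2]
    refine ⟨mul_nonneg (mul_nonneg r1 r2) (mul_nonneg r4 h0), ?_⟩
    refine (mul_le_of_le_one_left (mul_nonneg r4 h0) r3).trans ?_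
    rw [mul_left_comm]
    exact mul_le_mul_of_nonneg_left h1 r4
  rw [partitionFn, eF, eG, ← integral_const_mul]
  exact ⟨integral_nonneg fun τ => (key τ).1,
    integral_mono iF (iG.const_mul _) fun τ => (key τ).2⟩

end aux

/-- split off three components, the component `c` being the first -/
def redSplit (k : ℕ) (c : Fin (3 + k)) : En (3 + k) ≃ₗᵢ[ℝ] WithLp 2 (En 3 × En k) :=
  (LinearIsometryEquiv.piLpCongrLeft 2 ℝ ℝ
    ((Equiv.swap c (finSumFinEquiv (Sum.inl 0))).trans finSumFinEquiv.symm)).trans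
    (PiLp.sumPiLpEquivProdLpPiLp 2 fun _ : Fin 3 ⊕ Fin k => ℝ)

lemma redSplit_fst (k : ℕ) (c : Fin (3 + k)) (y : En (3 + k)) : (redSplit k c y).fst 0 = y c := by
  have : (redSplit k c y).fst 0 =
      y (((Equiv.swap c (finSumFinEquiv (Sum.inl 0))).trans finSumFinEquiv.symm).symm
        (Sum.inl 0)) := rfl
  rw [this]
  simp

end

theorem reduce {n : ℕ} (hn : 3 ≤ n) {β : ℝ} (B : Site → Site → ℝ)
    (h : ∀ (E : Finset Edge) (b : Edge → ℝ), Cpl β b → ∀ x z : Site,
      0 ≤ corr E b (fun σ => spin x 0 σ * spin z 0 σ) ∧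
      corr E b (fun σ => spin x 0 σ * spin z 0 σ) ≤ B x z)
    (V : Finset (ℤ × ℤ)) (b : ℤ × ℤ → Fin 2 → ℝ) (hb : ∀ u i, 0 ≤ b u i ∧ b u i ≤ β) (x y : V) :
    0 ≤ twoPoint n V b x y ∧ twoPoint n V b x y ≤ n * B x y := by
  obtain ⟨k, rfl⟩ := Nat.exists_eq_add_of_le hn
  have : Nonempty (Fin (3 + k)) := ⟨⟨0, by omega⟩⟩
  have : Nontrivial (En (3 + k)) := inferInstance
  have hc := red_continuous_interaction (n := 3 + k) V b
  have h1 := fun c : Fin (3 + k) => red_component (redSplit k c) V B h b hb x y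
  simp only [redSplit_fst] at h1
  have e : ∫ σ, inner ℝ (σ x : En (3 + k)) (σ y) * Real.exp (interaction (3 + k) V b σ)
        ∂referenceLaw (3 + k) V =
      ∑ c : Fin (3 + k), ∫ σ, (σ x : En (3 + k)) c * (σ y : En (3 + k)) c *
        Real.exp (interaction (3 + k) V b σ) ∂referenceLaw (3 + k) V := by
    rw [← integral_finsetSum _ fun c _ => red_integrable V (by fun_prop)]
    refine integral_congr_ae (Filter.Eventually.of_forall fun σ => ?_)
    simp only [PiLp.inner_apply, RCLike.inner_apply, conj_trivial, ← sum_mul]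
    simp only [mul_comm]
  have : NeZero (referenceLaw (3 + k) V) := by
    constructor
    rw [← Measure.measure_univ_ne_zero, referenceLaw, Measure.pi_univ]
    exact prod_ne_zero_iff.2 fun _ _ =>
      Measure.measure_univ_ne_zero.2 (Measure.toSphere_ne_zero _)
  have hZ : 0 < partitionFn (3 + k) V b :=
    integral_exp_pos (red_integrable V (by fun_prop))
  rw [twoPoint, e]
  refine ⟨div_nonneg (sum_nonneg fun c _ => (h1 c).1) hZ.le, ?_⟩
  rw [div_le_iff₀ hZ]
  refine (sum_le_sum fun c _ => (h1 c).2).trans (le_of_eq ?_)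
  simp only [sum_const, card_univ, Fintype.card_fin, nsmul_eq_mul]
  ring

end Crest.Agent.R167
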