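import Crest.Agent.R167.Strip
import Crest.Agent.R167.Reduce

set_option autoImplicit false

namespace Crest.Agent.R167

open Crest.ProbabilityR.SpinModel

theorem main (n : ℕ) (hn : 3 ≤ n) (β : ℝ) (hβ : 0 < β) :
    ∃ A m : ℝ, 0 < m ∧
      ∀ (V : Finset (ℤ × ℤ)) (b : ℤ × ℤ → Fin 2 → ℝ),
        (∀ u i, 0 ≤ b u i ∧ b u i ≤ β) →
        ∀ x y : V,
          0 ≤ twoPoint n V b x y ∧
          twoPoint n V b x y ≤
            A * Real.exp (-m * Real.sqrt ((((x : ℤ × ℤ).1 - (y : ℤ × ℤ).1 : ℤ) : ℝ) ^ 2 +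
              (((x : ℤ × ℤ).2 - (y : ℤ × ℤ).2 : ℤ) : ℝ) ^ 2)) := by
  obtain ⟨L, hL, hS⟩ := exists_stiff hβ (show (0 : ℝ) < 1 / 500 by norm_num)
  obtain ⟨A, m, hm, h⟩ := core_of_mag hβ (fun η hη => mag_small hL hS hη)
  refine ⟨n * A, m, hm, fun V b hb x y => ?_⟩
  have := reduce hn _ h V b hb x y
  rwa [mul_assoc]

end Crest.Agent.R167
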