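import Crest.Agent.R167.Basic

/-!
# R167 / Rot: rotations, flows, derivatives along flows

Recipes.  Matrix identities: `ext i j; fin_cases k <;> fin_cases i <;> fin_cases j <;>
simp [Rot, T, Matrix.mul_apply, Fin.sum_univ_three, Real.sin_add, Real.cos_add] <;> ring`.
`HasL.at`: `F (flow (t + s) σ) = F (flow s (flow t σ))`, `HasDerivAt.comp_add_const`-type shift.
`HasL.P`: `P I F (flow t σ) = P I (F ∘ flow t) σ` (`P_flow`), then
`hasDerivAt_integral_of_dominated_loc_of_deriv_le` with the constant bound `exists_bound`.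
`HasL.P_eq_zero`: `t ↦ P I F (flow t σ)` is constant because `flow t σ = σ` off `I` (`indep_P_self`,
`Indep.eq`); uniqueness of the derivative.
`second_diff`: `g t = F (flow t σ) + F (flow (-t) σ) - 2 F σ + c t²` has `g 0 = 0`, `g' 0 = 0`, `g'' ≥ 0`,
and is even (`monotone_of_deriv_nonneg` twice).
-/

set_option autoImplicit false

namespace Crest.Agent.R167

open MeasureTheory Finset Matrix

lemma T_transpose (k : Fin 3) : (T k)ᵀ = -T k := by
  ext i j
  fin_cases k <;> fin_cases i <;> fin_cases j <;> simp [T]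
lemma T_comm (k : Fin 3) : T (k + 1) * T (k + 2) - T (k + 2) * T (k + 1) = T k := by
  ext i j
  fin_cases k <;> fin_cases i <;> fin_cases j <;> simp [T]
lemma T_one_zero : T 1 * T 0 - T 0 * T 1 = -T 2 := by
  ext i j
  fin_cases i <;> fin_cases j <;> simp [T]
lemma T_two_zero : T 2 * T 0 - T 0 * T 2 = T 1 := by
  ext i j
  fin_cases i <;> fin_cases j <;> simp [T]
lemma Rot_zero (k : Fin 3) : Rot k 0 = 1 := by simp [Rot]
lemma Rot_add (k : Fin 3) (s t : ℝ) : Rot k (s + t) = Rot k s * Rot k t := by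
  ext i j
  fin_cases k <;> fin_cases i <;> fin_cases j <;>
    simp [Rot, T, Matrix.mul_apply, Fin.sum_univ_three, Real.sin_add, Real.cos_add] <;> ring
lemma Rot_transpose (k : Fin 3) (t : ℝ) : (Rot k t)ᵀ = Rot k (-t) := by
  ext i j
  fin_cases k <;> fin_cases i <;> fin_cases j <;>
    simp [Rot, T]
lemma Rot_conj_one (k : Fin 3) (t : ℝ) :
    (Rot k t)ᵀ * T (k + 1) * Rot k t = Real.cos t • T (k + 1) - Real.sin t • T (k + 2) := by
  ext i j
  fin_cases k <;> fin_cases i <;> fin_cases j <;>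
    simp [Rot, T, Matrix.mul_apply, Fin.sum_univ_three]
lemma Rot_conj_two (k : Fin 3) (t : ℝ) :
    (Rot k t)ᵀ * T (k + 2) * Rot k t = Real.cos t • T (k + 2) + Real.sin t • T (k + 1) := by
  ext i j
  fin_cases k <;> fin_cases i <;> fin_cases j <;>
    simp [Rot, T, Matrix.mul_apply, Fin.sum_univ_three]

lemma rot_abs_dot_le (v : Sph) (y : Fin 3 → ℝ) {c : ℝ} (hc : 0 ≤ c) (h : y ⬝ᵥ y ≤ c ^ 2) :
    |co v ⬝ᵥ y| ≤ c := by
  have h1 := co_dot v
  have h2 := Finset.sum_mul_sq_le_sq_mul_sq Finset.univ (co v) y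
  simp only [dotProduct, ← sq] at h h1 ⊢
  rw [h1, one_mul] at h2
  exact abs_le_of_sq_le_sq' (h2.trans h) hc |> abs_le.2

lemma rot_T_contr (k : Fin 3) (y : Fin 3 → ℝ) : (T k *ᵥ y) ⬝ᵥ (T k *ᵥ y) ≤ y ⬝ᵥ y := by
  fin_cases k <;> simp [T, dotProduct, Matrix.mulVec, Fin.sum_univ_three] <;>
    nlinarith [mul_self_nonneg (y 0), mul_self_nonneg (y 1), mul_self_nonneg (y 2)]

lemma rot_orth_dot (A : Mat) (hA : Aᵀ * A = 1) (y : Fin 3 → ℝ) :
    (A *ᵥ y) ⬝ᵥ (A *ᵥ y) = y ⬝ᵥ y := by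
  rw [dotProduct_mulVec, vecMul_mulVec, hA, vecMul_one]

/-- `|v · T_k w| ≤ 1` -/
lemma abs_dot_T (k : Fin 3) (v w : Sph) : |co v ⬝ᵥ T k *ᵥ co w| ≤ 1 :=
  rot_abs_dot_le v _ zero_le_one (by rw [one_pow, ← co_dot w]; exact rot_T_contr k _)
lemma abs_dot_TT (k l : Fin 3) (v w : Sph) :
    |co v ⬝ᵥ ((1 / 2 : ℝ) • (T k * T l + T l * T k)) *ᵥ co w| ≤ 1 := by
  have h : ∀ k l : Fin 3, |co v ⬝ᵥ (T k * T l) *ᵥ co w| ≤ 1 := fun k l =>
    rot_abs_dot_le v _ zero_le_one (by
      rw [one_pow, ← co_dot w, ← mulVec_mulVec]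
      exact (rot_T_contr k _).trans (rot_T_contr l _))
  rw [smul_mulVec, add_mulVec, dotProduct_smul, dotProduct_add, smul_eq_mul]
  have h1 := abs_le.1 (h k l)
  have h2 := abs_le.1 (h l k)
  rw [abs_le]; constructor <;> linarith
lemma abs_co_le (v : Sph) (c : Fin 3) : |co v c| ≤ 1 := by
  have h := co_dot v
  have h2 : co v c ^ 2 ≤ 1 ^ 2 := by
    rw [one_pow, ← h]
    simp only [dotProduct, ← sq]
    exact Finset.single_le_sum (f := fun i => co v i ^ 2) (fun _ _ => sq_nonneg _) (mem_univ c)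
  exact abs_le.2 (abs_le_of_sq_le_sq' h2 zero_le_one)
/-- `|v · R T_l (R_k(t) - 1) w| ≤ |t|` for orthogonal `R`: `‖(R_k(t) - 1) w‖² ≤ 2 - 2 cos t ≤ t²` -/
lemma abs_dot_Rot_sub (A : Mat) (hA : Aᵀ * A = 1) (l k : Fin 3) (t : ℝ) (v w : Sph) :
    |co v ⬝ᵥ (Aᵀ * T l * A * (Rot k t - 1)) *ᵥ co w| ≤ |t| := by
  refine rot_abs_dot_le v _ (abs_nonneg t) ?_
  have hA' : (Aᵀ)ᵀ * Aᵀ = 1 := by rw [transpose_transpose]; exact mul_eq_one_comm.1 hA
  rw [← mulVec_mulVec, ← mulVec_mulVec, ← mulVec_mulVec, rot_orth_dot _ hA']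
  refine (rot_T_contr l _).trans ?_
  rw [rot_orth_dot _ hA, sq_abs]
  have h1 := co_dot w
  have h2 := Real.sin_sq_add_cos_sq t
  have h3 := Real.one_sub_sq_div_two_le_cos (x := t)
  have h4 := Real.cos_le_one t
  have h5 : ((Rot k t - 1) *ᵥ co w) ⬝ᵥ ((Rot k t - 1) *ᵥ co w) =
      (2 - 2 * Real.cos t) * ((T k *ᵥ co w) ⬝ᵥ (T k *ᵥ co w)) := by
    fin_cases k <;>
      simp [Rot, T, dotProduct, Matrix.mulVec, Fin.sum_univ_three] <;>
      first
        | linear_combination (co w 1 ^ 2 + co w 2 ^ 2) * h2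
        | linear_combination (co w 0 ^ 2 + co w 2 ^ 2) * h2
        | linear_combination (co w 0 ^ 2 + co w 1 ^ 2) * h2
  have h6 := rot_T_contr k (co w)
  rw [h1] at h6
  rw [h5]
  nlinarith

variable {k : Fin 3} {f : Site → ℝ} {F F' G G' : Cfg → ℝ} {I : Finset Site}

lemma co_flow (t : ℝ) (σ : Cfg) (x : Site) :
    co (flow k f t σ x) = Rot k (t * f x) *ᵥ co (σ x) := rfl
lemma flow_zero (σ : Cfg) : flow k f 0 σ = σ := by
  funext x
  apply co_injective
  rw [co_flow, zero_mul, Rot_zero, one_mulVec]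
lemma flow_add (s t : ℝ) (σ : Cfg) : flow k f (s + t) σ = flow k f s (flow k f t σ) := by
  funext x
  apply co_injective
  rw [co_flow, co_flow, co_flow, add_mul, Rot_add, mulVec_mulVec]
lemma flow_apply_of_eq_zero {x : Site} (h : f x = 0) (t : ℝ) (σ : Cfg) :
    flow k f t σ x = σ x := by
  apply co_injective
  rw [co_flow, h, mul_zero, Rot_zero, one_mulVec]
lemma continuous_flow (k : Fin 3) (f : Site → ℝ) (t : ℝ) : Continuous (flow k f t) :=
  continuous_pi fun x => (continuous_matS _ _).comp (continuous_apply x)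
lemma P_flow (hF : Continuous F) (t : ℝ) (σ : Cfg) :
    P I (fun ω => F (flow k f t ω)) σ = P I F (flow k f t σ) :=
  P_site (fun x => matS (Rot k (t * f x)) (Rot_orth k _)) (fun _ => measurePreserving_matS _ _) hF σ
lemma P_flow_supp (hF : Continuous F) (hf : Supp I f) (t : ℝ) (σ : Cfg) :
    P I (fun ω => F (flow k f t ω)) σ = P I F σ := by
  rw [P_flow hF]
  exact indep_P_self.eq fun x hx => flow_apply_of_eq_zero (hf x hx) t σ
lemma Indep.flow (h : Indep I F) (t : ℝ) : Indep I (fun σ => F (flow k f t σ)) :=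
  indep_of_eq fun σ σ' hσ => h.eq fun x hx => by
    simp only [R167.flow, hσ x hx]

lemma HasL.at (h : HasL k f F F') (σ : Cfg) (t : ℝ) :
    HasDerivAt (fun s => F (flow k f s σ)) (F' (flow k f t σ)) t := by
  have h1 := h.2.2 (flow k f t σ)
  have h2 : HasDerivAt (fun s => F (flow k f s (flow k f t σ))) (F' (flow k f t σ)) (t - t) := by
    rwa [sub_self]
  have h3 := h2.comp_sub_const t t
  simpa only [← flow_add, sub_add_cancel] using h3
lemma HasL.congr (h : HasL k f F F') (h₁ : ∀ σ, G σ = F σ) (h₂ : ∀ σ, G' σ = F' σ) :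
    HasL k f G G' := by
  rw [funext h₁, funext h₂]; exact h
lemma hasL_const (c : ℝ) : HasL k f (fun _ => c) (fun _ => 0) :=
  ⟨continuous_const, continuous_const, fun _ => hasDerivAt_const _ _⟩
lemma HasL.add (h : HasL k f F F') (h' : HasL k f G G') :
    HasL k f (fun σ => F σ + G σ) (fun σ => F' σ + G' σ) :=
  ⟨h.1.add h'.1, h.2.1.add h'.2.1, fun σ => (h.2.2 σ).add (h'.2.2 σ)⟩
lemma HasL.sub (h : HasL k f F F') (h' : HasL k f G G') :
    HasL k f (fun σ => F σ - G σ) (fun σ => F' σ - G' σ) :=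
  ⟨h.1.sub h'.1, h.2.1.sub h'.2.1, fun σ => (h.2.2 σ).sub (h'.2.2 σ)⟩
lemma HasL.mul (h : HasL k f F F') (h' : HasL k f G G') :
    HasL k f (fun σ => F σ * G σ) (fun σ => F' σ * G σ + F σ * G' σ) :=
  ⟨h.1.mul h'.1, (h.2.1.mul h'.1).add (h.1.mul h'.2.1), fun σ => by
    simpa only [flow_zero] using (h.2.2 σ).fun_mul (h'.2.2 σ)⟩
lemma HasL.const_mul (h : HasL k f F F') (c : ℝ) :
    HasL k f (fun σ => c * F σ) (fun σ => c * F' σ) :=
  ⟨continuous_const.mul h.1, continuous_const.mul h.2.1, fun σ => (h.2.2 σ).const_mul c⟩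
lemma hasL_sum {κ : Type*} (s : Finset κ) (Fs Fs' : κ → Cfg → ℝ)
    (h : ∀ i ∈ s, HasL k f (Fs i) (Fs' i)) :
    HasL k f (fun σ => ∑ i ∈ s, Fs i σ) (fun σ => ∑ i ∈ s, Fs' i σ) :=
  ⟨continuous_finsetSum s fun i hi => (h i hi).1, continuous_finsetSum s fun i hi => (h i hi).2.1,
    fun σ => HasDerivAt.fun_sum fun i hi => (h i hi).2.2 σ⟩
lemma HasL.comp (h : HasL k f F F') {φ φ' : ℝ → ℝ} (hφ : ∀ x, HasDerivAt φ (φ' x) x)
    (hφ' : Continuous φ') : HasL k f (fun σ => φ (F σ)) (fun σ => φ' (F σ) * F' σ) :=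
  ⟨(continuous_iff_continuousAt.2 fun x => (hφ x).continuousAt).comp h.1,
    (hφ'.comp h.1).mul h.2.1, fun σ => by
      exact ((hφ _).comp 0 (h.2.2 σ)).congr_deriv (by rw [flow_zero])⟩
lemma HasL.div (h : HasL k f F F') (h' : HasL k f G G') (hG : ∀ σ, G σ ≠ 0) :
    HasL k f (fun σ => F σ / G σ) (fun σ => (F' σ * G σ - F σ * G' σ) / G σ ^ 2) :=
  ⟨h.1.div h'.1 hG, ((h.2.1.mul h'.1).sub (h.1.mul h'.2.1)).div (h'.1.pow 2)
    fun σ => pow_ne_zero 2 (hG σ), fun σ => by
      simpa only [flow_zero] using (h.2.2 σ).fun_div (h'.2.2 σ) (hG _)⟩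
lemma HasL.log (h : HasL k f F F') (hF : ∀ σ, F σ ≠ 0) :
    HasL k f (fun σ => Real.log (F σ)) (fun σ => F' σ / F σ) :=
  ⟨h.1.log hF, h.2.1.div h.1 hF, fun σ => by
    simpa only [flow_zero] using (h.2.2 σ).log (hF _)⟩
theorem HasL.P (h : HasL k f F F') : HasL k f (P I F) (P I F') := by
  refine ⟨continuous_P h.1, continuous_P h.2.1, fun σ => ?_⟩
  obtain ⟨C, hC⟩ := exists_bound h.2.1
  have h1 := hasDerivAt_integral_of_dominated_loc_of_deriv_le (μ := Lam)
    (F := fun t ω => F (flow k f t (I.piecewise ω σ)))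
    (F' := fun t ω => F' (flow k f t (I.piecewise ω σ))) (x₀ := (0 : ℝ)) (s := Set.univ)
    (bound := fun _ => C) Filter.univ_mem
    (Filter.Eventually.of_forall fun t =>
      (basic_int (h.1.comp (continuous_flow k f t)) I σ).aestronglyMeasurable)
    (basic_int (h.1.comp (continuous_flow k f 0)) I σ)
    (basic_int (h.2.1.comp (continuous_flow k f 0)) I σ).aestronglyMeasurable
    (Filter.Eventually.of_forall fun ω t _ => hC _) (integrable_const C)
    (Filter.Eventually.of_forall fun ω t _ => h.at _ t)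
  have h2 := h1.2
  simp only [flow_zero] at h2
  have h3 : (fun t => R167.P I F (flow k f t σ)) =
      fun t => ∫ ω, F (flow k f t (I.piecewise ω σ)) ∂Lam := by
    funext t; rw [← P_flow h.1]; rfl
  rw [h3]; exact h2
theorem HasL.P_eq_zero (h : HasL k f F F') (hf : Supp I f) (σ : Cfg) :
    Crest.Agent.R167.P I F' σ = 0 := by
  have h1 := (h.P (I := I)).2.2 σ
  have h2 : (fun t => R167.P I F (flow k f t σ)) = fun _ => R167.P I F σ := by
    funext t
    exact indep_P_self.eq fun x hx => flow_apply_of_eq_zero (hf x hx) t σ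
  rw [h2] at h1
  exact h1.unique (hasDerivAt_const _ _)
theorem second_diff {F'' : Cfg → ℝ} (h : HasL k f F F') (h' : HasL k f F' F'') {c : ℝ}
    (hc : ∀ σ, -c ≤ F'' σ) (s : ℝ) (σ : Cfg) :
    2 * F σ - c * s ^ 2 ≤ F (flow k f s σ) + F (flow k f (-s) σ) := by
  -- first derivative
  have d1 : ∀ t, HasDerivAt (fun t => F (flow k f t σ) + F (flow k f (-t) σ) + c * t ^ 2)
      (F' (flow k f t σ) - F' (flow k f (-t) σ) + 2 * c * t) t := by
    intro t
    have a := ((h.at σ t).fun_add ((h.at σ (-t)).comp t (hasDerivAt_neg t))).fun_add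
      ((hasDerivAt_pow 2 t).const_mul c)
    exact a.congr_deriv (by simp; ring)
  have d2 : ∀ t, HasDerivAt (fun t => F' (flow k f t σ) - F' (flow k f (-t) σ) + 2 * c * t)
      (F'' (flow k f t σ) + F'' (flow k f (-t) σ) + 2 * c) t := by
    intro t
    have a := ((h'.at σ t).fun_sub ((h'.at σ (-t)).comp t (hasDerivAt_neg t))).fun_add
      ((hasDerivAt_id t).const_mul (2 * c))
    exact a.congr_deriv (by simp)
  have m2 : Monotone fun t => F' (flow k f t σ) - F' (flow k f (-t) σ) + 2 * c * t :=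
    monotone_of_deriv_nonneg (fun t => (d2 t).differentiableAt) fun t => by
      rw [(d2 t).deriv]; linarith [hc (flow k f t σ), hc (flow k f (-t) σ)]
  have m1 : MonotoneOn (fun t => F (flow k f t σ) + F (flow k f (-t) σ) + c * t ^ 2)
      (Set.Ici 0) :=
    monotoneOn_of_deriv_nonneg (convex_Ici 0)
      (fun t _ => (d1 t).continuousAt.continuousWithinAt)
      (fun t _ => (d1 t).differentiableAt.differentiableWithinAt) fun t ht => by
        rw [(d1 t).deriv]
        have := m2 (le_of_lt (by simpa using ht) : (0 : ℝ) ≤ t)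
        simpa using this
  rcases le_total 0 s with hs | hs
  · have := m1 (Set.mem_Ici.2 le_rfl) (Set.mem_Ici.2 hs) hs
    simp only [neg_zero, flow_zero] at this
    nlinarith
  · have hs' : 0 ≤ -s := by linarith
    have := m1 (Set.mem_Ici.2 le_rfl) (Set.mem_Ici.2 hs') hs'
    simp only [neg_zero, flow_zero, neg_neg] at this
    nlinarith

lemma continuous_spin (x : Site) (c : Fin 3) : Continuous (spin x c) :=
  (continuous_apply c).comp (continuous_co.comp (continuous_apply x))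
lemma continuous_pr (A : Mat) (e : Edge) : Continuous (pr A e) := by
  have h1 : Continuous fun σ : Cfg => co (σ e.1) := continuous_co.comp (continuous_apply _)
  have h2 : Continuous fun σ : Cfg => co (σ (hd e)) := continuous_co.comp (continuous_apply _)
  exact h1.dotProduct (continuous_const.matrix_mulVec h2)

lemma rot_hasDerivAt (k : Fin 3) (a : ℝ) (y : Fin 3 → ℝ) (c : Fin 3) :
    HasDerivAt (fun t => (Rot k (t * a) *ᵥ y) c) (a * (T k *ᵥ y) c) 0 := by
  have e : (fun t => (Rot k (t * a) *ᵥ y) c) = fun t => y c + Real.sin (t * a) * (T k *ᵥ y) c +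
      (1 - Real.cos (t * a)) * ((T k * T k) *ᵥ y) c := by
    funext t
    simp [Rot, add_mulVec, smul_mulVec]
  rw [e]
  have h0 : HasDerivAt (fun t : ℝ => t * a) a 0 := by simpa using (hasDerivAt_id (0 : ℝ)).mul_const a
  have h1 := ((hasDerivAt_const (0 : ℝ) (y c)).fun_add (h0.sin.mul_const ((T k *ᵥ y) c))).fun_add
    ((h0.cos.const_sub 1).mul_const (((T k * T k) *ᵥ y) c))
  exact h1.congr_deriv (by simp)

lemma hasL_spin (x : Site) (c : Fin 3) :
    HasL k f (spin x c) (fun σ => f x * (T k *ᵥ co (σ x)) c) := by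
  have h1 : Continuous fun σ : Cfg => co (σ x) := continuous_co.comp (continuous_apply _)
  exact ⟨continuous_spin x c,
    continuous_const.mul ((continuous_apply c).comp (continuous_const.matrix_mulVec h1)),
    fun σ => rot_hasDerivAt k (f x) (co (σ x)) c⟩
lemma hasL_pr (A : Mat) (e : Edge) :
    HasL k f (pr A e) (fun σ => grad f e * pr ((1 / 2 : ℝ) • (A * T k + T k * A)) e σ +
      mid f e * pr (A * T k - T k * A) e σ) := by
  have h1 := hasL_sum (k := k) (f := f) univ _ _ fun (i : Fin 3) _ =>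
    (hasL_spin (k := k) (f := f) e.1 i).mul (hasL_sum univ _ _ fun (j : Fin 3) _ =>
      (hasL_spin (k := k) (f := f) (hd e) j).const_mul (A i j))
  refine h1.congr (fun σ => rfl) fun σ => ?_
  have h2 : ∀ (B : Mat) (x y : Fin 3 → ℝ), (T k *ᵥ x) ⬝ᵥ B *ᵥ y = -(x ⬝ᵥ (T k * B) *ᵥ y) := by
    intro B x y
    rw [← mulVec_mulVec, dotProduct_mulVec x, ← mulVec_transpose, T_transpose, neg_mulVec,
      neg_dotProduct, neg_neg]
  have h3 : ∑ i, ((f e.1 * (T k *ᵥ co (σ e.1)) i) * ∑ j, A i j * spin (hd e) j σ +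
      spin e.1 i σ * ∑ j, A i j * (f (hd e) * (T k *ᵥ co (σ (hd e))) j)) =
      f e.1 * ((T k *ᵥ co (σ e.1)) ⬝ᵥ A *ᵥ co (σ (hd e))) +
        f (hd e) * (co (σ e.1) ⬝ᵥ A *ᵥ T k *ᵥ co (σ (hd e))) := by
    simp only [dotProduct, spin, Fin.sum_univ_three, Matrix.mulVec]
    ring
  rw [h3, h2, mulVec_mulVec]
  simp only [pr, grad, mid, smul_mulVec, add_mulVec, sub_mulVec, dotProduct_smul, dotProduct_add,
    dotProduct_sub, smul_eq_mul]
  ring
lemma pr_flow (A : Mat) (e : Edge) (t : ℝ) (σ : Cfg) :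
    pr A e (flow k f t σ) = pr ((Rot k (t * f e.1))ᵀ * A * Rot k (t * f (hd e))) e σ := by
  simp only [pr, co_flow]
  rw [← mulVec_mulVec, ← mulVec_mulVec, dotProduct_mulVec (co (σ e.1)), vecMul_transpose]
/-- the half turn about the axis `0` reverses the components `1, 2` -/
lemma spin_flow_pi {x : Site} (hx : f x = 1) {c : Fin 3} (hc : c ≠ 0) (σ : Cfg) :
    spin x c (flow 0 f Real.pi σ) = -spin x c σ ∧
      spin x c (flow 0 f (-Real.pi) σ) = -spin x c σ := by
  simp only [spin, co_flow, hx, mul_one]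
  fin_cases c
  · exact absurd rfl hc
  all_goals
    constructor <;>
      simp [Rot, T, Matrix.mulVec, dotProduct, Fin.sum_univ_three]

end Crest.Agent.R167
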