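import Crest.Agent.R167.Mag
import Crest.Agent.R167.Ginibre

/-!
# R167 / Simon: the Aizenman–Simon inequality and exponential decay for `n = 3`

`corr E b F` is the free Gibbs average.  For any finite `I` containing the endpoints of `E` and the
sites on which `F` depends, `corr E b F = gE I (Ham E b) F τ` (`gE_eq_div`).

`corr_le_of_mag`: let `b' = b` on `E`, `0` off `E` (still `Cpl β`), `U = box x r`, `I ⊇ U.I` large.
`Ham E b = Ham (E ∪ U.E) b'`, and `Ham E b - Ham U.E b' = Ham ((E ∪ U.E) \ U.E) b'` is independent of `U.I`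
(`indep_J`, `not_mem_rect_I`); `z ∉ U.I`; by `gE_dlr`, `gE_mul_left`:
`corr (spin x c * spin z c) = gE I (spin z c * U.av b' (spin x c))`, at most `m` in absolute value.

`simon`: let `f = 1` on `A = {u : |u.1 - x.1| ≤ r, |u.2 - x.2| ≤ r}`, `0` off `A` (take `I ⊇ A`).  `gE_ibp` for
`F = spin x 1 * spin z 0` along the axis `2` (`(T 2 v)₁ = v₀`, `v · T 2 w = v₁ w₀ - v₀ w₁`) and for
`F = spin x 2 * spin z 0` along the axis `1` (`(T 1 v)₂ = -v₀`, `v · T 1 w = v₀ w₂ - v₂ w₀`), `f z = 0`.
Only edges with exactly one end `δ` in `A` contribute; with `δ'` the other end one gets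
`2 G(x, z) = ∑ b_e (⟨(x₁δ₁ + x₂δ₂) δ'₀ z₀⟩ - ⟨(x₁δ'₁ + x₂δ'₂) δ₀ z₀⟩)`.  Drop the second term (`griffiths`),
bound the first by `ginibre` and `corr_le_of_mag` (`δ` is on the boundary of `A`, so outside
`(box x r).I`): `≤ 2 m G(δ', z) ≤ 2 m g`.  There are at most `4 (2r + 1) ≤ 12 r` such edges.

`core_of_mag`: `m = η / r` with `η = 1/(24 β)`; by induction on `j`, `G(x, z) ≤ 2^{-j}` whenever
`j (r + 1) ≤ max |x.1 - z.1| |x.2 - z.2|`; the Euclidean distance is at most twice the maximum;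
`A = 2`, `m = log 2 / (2 (r + 1))`.
-/

set_option autoImplicit false

namespace Crest.Agent.R167

open MeasureTheory Finset Matrix

/-- free Gibbs average -/
noncomputable def corr (E : Finset Edge) (b : Edge → ℝ) (F : Cfg → ℝ) : ℝ :=
  (∫ σ, F σ * Real.exp (Ham E b σ) ∂Lam) / ∫ σ, Real.exp (Ham E b σ) ∂Lam

variable {β m : ℝ} {r : ℕ} {b : Edge → ℝ}

section aux

variable {E : Finset Edge} {F G : Cfg → ℝ}

lemma simon_Z_pos (E : Finset Edge) (b : Edge → ℝ) : 0 < ∫ σ, Real.exp (Ham E b σ) ∂Lam :=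
  integral_exp_pos (integrable_cont (Real.continuous_exp.comp continuous_Ham) Lam)

lemma simon_int (hF : Continuous F) :
    Integrable (fun σ => F σ * Real.exp (Ham E b σ)) Lam :=
  integrable_cont (hF.mul (Real.continuous_exp.comp continuous_Ham)) Lam

lemma simon_corr_add (hF : Continuous F) (hG : Continuous G) :
    corr E b (fun σ => F σ + G σ) = corr E b F + corr E b G := by
  unfold corr
  rw [← add_div, ← integral_add (simon_int hF) (simon_int hG)]
  simp only [add_mul]

lemma simon_corr_sub (hF : Continuous F) (hG : Continuous G) :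
    corr E b (fun σ => F σ - G σ) = corr E b F - corr E b G := by
  unfold corr
  rw [← sub_div, ← integral_sub (simon_int hF) (simon_int hG)]
  simp only [sub_mul]

lemma simon_corr_const_mul (c : ℝ) : corr E b (fun σ => c * F σ) = c * corr E b F := by
  unfold corr
  rw [← mul_div_assoc, ← integral_const_mul]
  simp only [mul_assoc]

lemma simon_corr_sum {κ : Type*} (s : Finset κ) (Fs : κ → Cfg → ℝ)
    (h : ∀ i ∈ s, Continuous (Fs i)) :
    corr E b (fun σ => ∑ i ∈ s, Fs i σ) = ∑ i ∈ s, corr E b (Fs i) := by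
  unfold corr
  rw [← sum_div, ← integral_finsetSum s (fun i hi => simon_int (h i hi))]
  simp only [sum_mul]

lemma simon_corr_le (hF : Continuous F) {c : ℝ} (h : ∀ σ, F σ ≤ c) : corr E b F ≤ c := by
  unfold corr
  rw [div_le_iff₀ (simon_Z_pos E b), ← integral_const_mul]
  exact integral_mono (simon_int hF) (simon_int continuous_const)
    (fun σ => mul_le_mul_of_nonneg_right (h σ) (Real.exp_pos _).le)

lemma simon_corr_eq_gE {I : Finset Site} (hE : ∀ e ∈ E, e.1 ∈ I ∧ hd e ∈ I)
    (hF : ∀ σ σ' : Cfg, (∀ x ∈ I, σ x = σ' x) → F σ = F σ') (τ : Cfg) :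
    corr E b F = gE I (Ham E b) F τ := by
  rw [gE_eq_div _ hF, corr]
  intro σ σ' h
  unfold Ham J pr
  refine sum_congr rfl fun e he => ?_
  rw [h _ (hE e he).1, h _ (hE e he).2]

lemma simon_exists_I (E : Finset Edge) (S : Finset Site) :
    ∃ I : Finset Site, S ⊆ I ∧ ∀ e ∈ E, e.1 ∈ I ∧ hd e ∈ I := by
  refine ⟨S ∪ (E.image Prod.fst ∪ E.image hd), subset_union_left, fun e he => ⟨?_, ?_⟩⟩
  · exact mem_union_right _ (mem_union_left _ (mem_image_of_mem _ he))
  · exact mem_union_right _ (mem_union_right _ (mem_image_of_mem _ he))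

lemma simon_two_nonneg (hb : ∀ e, 0 ≤ b e) (x z : Site) (c d : Fin 3) :
    0 ≤ corr E b (fun σ => spin x c σ * spin z d σ) := by
  have := griffiths E hb [(x, c), (z, d)]
  simp only [List.map_cons, List.map_nil, List.prod_cons, List.prod_nil, mul_one] at this
  exact div_nonneg this (simon_Z_pos E b).le

lemma simon_four_nonneg (hb : ∀ e, 0 ≤ b e) (x y z w : Site) (c d c' d' : Fin 3) :
    0 ≤ corr E b (fun σ => spin x c σ * spin y d σ * (spin z c' σ * spin w d' σ)) := by
  have := griffiths E hb [(x, c), (y, d), (z, c'), (w, d')]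
  simp only [List.map_cons, List.map_nil, List.prod_cons, List.prod_nil, mul_one] at this
  refine div_nonneg ?_ (simon_Z_pos E b).le
  simpa only [mul_assoc] using this

lemma simon_abs_spin (x : Site) (c : Fin 3) (σ : Cfg) : |spin x c σ| ≤ 1 := abs_co_le _ _

/-- a fixed configuration -/
noncomputable def simonCfg : Cfg := fun _ => ⟨EuclideanSpace.single 0 1, by simp⟩

lemma simon_mag_nonneg (h : Mag β r m) (hb : Cpl β b) : 0 ≤ m :=
  (abs_nonneg _).trans (h b hb 0 1 (by decide) simonCfg)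

end aux

theorem corr_le_of_mag (h : Mag β r m) (hb : Cpl β b) (E : Finset Edge) {x z : Site} {c : Fin 3}
    (hc : c ≠ 0) (hz : (r : ℤ) ≤ |x.1 - z.1| ∨ (r : ℤ) ≤ |x.2 - z.2|) :
    corr E b (fun σ => spin x c σ * spin z c σ) ≤ m := by
  classical
  set b' : Edge → ℝ := fun e => if e ∈ E then b e else 0 with hb'
  have hβ : 0 ≤ β := (hb (0, 0)).1.trans (hb (0, 0)).2
  have hb'c : Cpl β b' := by
    intro e
    simp only [hb']
    split_ifs
    · exact hb e
    · exact ⟨le_rfl, hβ⟩
  obtain ⟨I, hSI, hI⟩ := simon_exists_I E ((box x r).I ∪ {x, z})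
  have hxI : x ∈ I := hSI (by simp)
  have hzI : z ∈ I := hSI (by simp)
  have hUI : (box x r).I ⊆ I := subset_union_left.trans hSI
  have hzU : z ∉ (box x r).I := by
    rw [box, mem_rect_I]
    simp only [Nat.cast_mul, Nat.cast_ofNat]
    rintro ⟨⟨h1, h2⟩, h3, h4⟩
    rcases hz with hz | hz <;> rw [le_abs] at hz <;> omega
  have hdiff : ∀ σ, Ham E b σ - Ham (box x r).E b' σ = Ham (E \ (box x r).E) b σ := by
    intro σ
    unfold Ham J
    have h1 : ∑ e ∈ (box x r).E, b' e * 1 * pr 1 e σ =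
        ∑ e ∈ E ∩ (box x r).E, b e * 1 * pr 1 e σ := by
      rw [inter_comm, ← filter_mem_eq_inter, sum_filter]
      refine sum_congr rfl fun e _ => ?_
      simp only [hb']
      split_ifs <;> simp
    rw [h1, sub_eq_iff_eq_add, add_comm, sum_inter_add_sum_sdiff]
  have hind : Indep (box x r).I (fun σ => Ham E b σ - Ham (box x r).E b' σ) := by
    simp only [hdiff]
    exact indep_J fun e he => not_mem_rect_I (mem_sdiff.1 he).2
  have hzi : Indep (box x r).I (spin z c) :=
    indep_of_eq fun σ σ' hσ => by unfold spin; rw [hσ z hzU]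
  have hcont : Continuous (fun σ => spin z c σ * spin x c σ) :=
    (continuous_spin z c).mul (continuous_spin x c)
  have e1 : corr E b (fun σ => spin x c σ * spin z c σ) =
      gE I (Ham E b) (fun σ => spin z c σ * spin x c σ) simonCfg := by
    rw [← simon_corr_eq_gE hI]
    · simp only [mul_comm]
    · intro σ σ' hσ
      unfold spin
      rw [hσ x hxI, hσ z hzI]
  rw [e1, ← gE_dlr continuous_Ham continuous_Ham hcont hUI hind]
  rw [← gE_const (I := I) (continuous_Ham (E := E) (b := b)) m simonCfg]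
  refine gE_mono continuous_Ham (continuous_gE continuous_Ham hcont) continuous_const
    (fun σ => ?_) _
  rw [gE_mul_left hzi]
  have h1 := h b' hb'c x c hc σ
  have h2 := simon_abs_spin z c σ
  refine (le_abs_self _).trans ?_
  rw [abs_mul]
  calc |spin z c σ| * |gE (box x r).I (Ham (box x r).E b') (spin x c) σ|
      ≤ 1 * m := mul_le_mul h2 h1 (abs_nonneg _) zero_le_one
    _ = m := one_mul m

section simon

variable {E : Finset Edge}

/-- the four-point function that occurs in the Ward identity -/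
noncomputable def simonW (E : Finset Edge) (b : Edge → ℝ) (x z δ δ' : Site) : ℝ :=
  corr E b (fun σ => (spin x 1 σ * spin δ 1 σ + spin x 2 σ * spin δ 2 σ) *
    (spin δ' 0 σ * spin z 0 σ))

lemma simon_cont2 (x y : Site) (c d : Fin 3) :
    Continuous (fun σ => spin x c σ * spin y d σ) :=
  (continuous_spin _ _).mul (continuous_spin _ _)

lemma simon_cont4 (x y z w : Site) (c d c' d' : Fin 3) :
    Continuous (fun σ => spin x c σ * spin y d σ * (spin z c' σ * spin w d' σ)) :=
  ((continuous_spin _ _).mul (continuous_spin _ _)).mul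
    ((continuous_spin _ _).mul (continuous_spin _ _))

lemma simonW_eq (x z δ δ' : Site) : simonW E b x z δ δ' =
    corr E b (fun σ => spin x 1 σ * spin δ 1 σ * (spin δ' 0 σ * spin z 0 σ)) +
      corr E b (fun σ => spin x 2 σ * spin δ 2 σ * (spin δ' 0 σ * spin z 0 σ)) := by
  rw [← simon_corr_add (simon_cont4 ..) (simon_cont4 ..), simonW]
  simp only [add_mul]

lemma simonW_nonneg (hb : ∀ e, 0 ≤ b e) (x z δ δ' : Site) : 0 ≤ simonW E b x z δ δ' := by
  rw [simonW_eq]
  exact add_nonneg (simon_four_nonneg hb ..) (simon_four_nonneg hb ..)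

lemma simonW_le (h : Mag β r m) (hb : Cpl β b) {x z δ δ' : Site}
    (hδ : (r : ℤ) ≤ |x.1 - δ.1| ∨ (r : ℤ) ≤ |x.2 - δ.2|) {g : ℝ}
    (hg : corr E b (fun σ => spin δ' 0 σ * spin z 0 σ) ≤ g) :
    simonW E b x z δ δ' ≤ 2 * m * g := by
  have hb0 : ∀ e, 0 ≤ b e := fun e => (hb e).1
  have hZ := simon_Z_pos E b
  have h1 : simonW E b x z δ δ' ≤
      corr E b (fun σ => spin x 1 σ * spin δ 1 σ + spin x 2 σ * spin δ 2 σ) *
        corr E b (fun σ => spin δ' 0 σ * spin z 0 σ) := by
    unfold simonW corr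
    rw [div_mul_div_comm, div_le_div_iff₀ hZ (mul_pos hZ hZ), ← mul_assoc]
    exact mul_le_mul_of_nonneg_right (ginibre E hb0 x δ δ' z) hZ.le
  have h2 : corr E b (fun σ => spin x 1 σ * spin δ 1 σ + spin x 2 σ * spin δ 2 σ) ≤ 2 * m := by
    rw [simon_corr_add (simon_cont2 ..) (simon_cont2 ..)]
    have a1 := corr_le_of_mag h hb E (c := 1) (by decide) hδ
    have a2 := corr_le_of_mag h hb E (c := 2) (by decide) hδ
    linarith
  have hm := simon_mag_nonneg h hb
  exact h1.trans (mul_le_mul h2 hg (simon_two_nonneg hb0 ..) (by positivity))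

/-- the Ward identity -/
lemma simon_ward {f : Site → ℝ} {S : Finset Site} (hf : Supp S f) {x z : Site} (hx : f x = 1)
    (hz : f z = 0) :
    2 * corr E b (fun σ => spin x 0 σ * spin z 0 σ) =
      ∑ e ∈ E, b e * grad f e * (simonW E b x z (hd e) e.1 - simonW E b x z e.1 (hd e)) := by
  obtain ⟨I, hSI, hI⟩ := simon_exists_I E (S ∪ {x, z})
  have hxI : x ∈ I := hSI (by simp)
  have hzI : z ∈ I := hSI (by simp)
  have hfI : Supp I f := fun u hu => hf u fun hu' => hu (hSI (mem_union_left _ hu'))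
  have key : ∀ (k c : Fin 3) (s : ℝ), (∀ v : Fin 3 → ℝ, (T k *ᵥ v) c = s * v 0) →
      (∀ v w : Fin 3 → ℝ, v ⬝ᵥ T k *ᵥ w = s * (v c * w 0 - v 0 * w c)) → s ≠ 0 →
      corr E b (fun σ => spin x 0 σ * spin z 0 σ) = ∑ e ∈ E, b e * grad f e *
        (corr E b (fun σ => spin x c σ * spin (hd e) c σ * (spin e.1 0 σ * spin z 0 σ)) -
          corr E b (fun σ => spin x c σ * spin e.1 c σ * (spin (hd e) 0 σ * spin z 0 σ))) := by
    intro k c s h1 h2 hs
    have hL : HasL k f (fun σ => spin x c σ * spin z 0 σ)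
        (fun σ => s * (spin x 0 σ * spin z 0 σ)) := by
      refine ((hasL_spin (k := k) (f := f) x c).mul (hasL_spin z 0)).congr (fun _ => rfl)
        (fun σ => ?_)
      rw [hx, hz, h1]
      simp only [spin]
      ring
    have hibp := gE_ibp (I := I) hL (hasL_Ham (E := E) (b := b)) hfI simonCfg
    rw [← simon_corr_eq_gE hI, ← simon_corr_eq_gE hI, simon_corr_const_mul] at hibp
    · have e2 : (fun σ => spin x c σ * spin z 0 σ * J E b (T k) (grad f) σ) =
          fun σ => ∑ e ∈ E, (-s * (b e * grad f e)) *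
            (spin x c σ * spin (hd e) c σ * (spin e.1 0 σ * spin z 0 σ) -
              spin x c σ * spin e.1 c σ * (spin (hd e) 0 σ * spin z 0 σ)) := by
        funext σ
        unfold J pr
        rw [mul_sum]
        refine sum_congr rfl fun e _ => ?_
        rw [h2]
        simp only [spin]
        ring
      rw [e2, simon_corr_sum _ (fun e σ => (-s * (b e * grad f e)) *
            (spin x c σ * spin (hd e) c σ * (spin e.1 0 σ * spin z 0 σ) -
              spin x c σ * spin e.1 c σ * (spin (hd e) 0 σ * spin z 0 σ)))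
        (fun e _ => continuous_const.mul ((simon_cont4 ..).sub (simon_cont4 ..)))] at hibp
      simp only [simon_corr_const_mul, simon_corr_sub (simon_cont4 ..) (simon_cont4 ..)] at hibp
      apply mul_left_cancel₀ hs
      rw [mul_sum, ← sub_eq_zero, ← hibp, sub_eq_add_neg, ← sum_neg_distrib]
      congr 1
      refine sum_congr rfl fun e _ => ?_
      ring
    · intro σ σ' hσ
      unfold spin J pr
      rw [hσ x hxI, hσ z hzI]
      congr 1
      refine sum_congr rfl fun e he => ?_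
      rw [hσ _ (hI e he).1, hσ _ (hI e he).2]
    · intro σ σ' hσ
      unfold spin
      rw [hσ x hxI, hσ z hzI]
  have k1 := key 2 1 1 (fun v => by simp [T, Matrix.mulVec, dotProduct, Fin.sum_univ_three])
    (fun v w => by simp [T, Matrix.mulVec, dotProduct, Fin.sum_univ_three]; ring) one_ne_zero
  have k2 := key 1 2 (-1) (fun v => by simp [T, Matrix.mulVec, dotProduct, Fin.sum_univ_three])
    (fun v w => by simp [T, Matrix.mulVec, dotProduct, Fin.sum_univ_three]; ring) (by norm_num)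
  rw [two_mul]
  nth_rewrite 1 [k1]
  rw [k2, ← sum_add_distrib]
  refine sum_congr rfl fun e _ => ?_
  rw [simonW_eq, simonW_eq]
  ring

/-- the edges that cross the boundary of the closed box -/
noncomputable def simonB (x : Site) (r : ℕ) : Finset Edge :=
  (({x.1 + r, x.1 - r - 1} : Finset ℤ) ×ˢ Icc (x.2 - r) (x.2 + r)) ×ˢ ({0} : Finset (Fin 2)) ∪
    (Icc (x.1 - r) (x.1 + r) ×ˢ ({x.2 + r, x.2 - r - 1} : Finset ℤ)) ×ˢ ({1} : Finset (Fin 2))

lemma simonB_card (x : Site) (hr : 1 ≤ r) : (simonB x r).card ≤ 12 * r := by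
  unfold simonB
  refine (card_union_le _ _).trans ?_
  simp only [card_product, card_singleton, mul_one, Int.card_Icc]
  have h1 : ({x.1 + r, x.1 - r - 1} : Finset ℤ).card ≤ 2 := card_le_two
  have h2 : ({x.2 + r, x.2 - r - 1} : Finset ℤ).card ≤ 2 := card_le_two
  have h3 : (x.2 + r + 1 - (x.2 - r)).toNat = 2 * r + 1 := by omega
  have h4 : (x.1 + r + 1 - (x.1 - r)).toNat = 2 * r + 1 := by omega
  rw [h3, h4]
  nlinarith

end simon

theorem simon (h : Mag β r m) (hr : 1 ≤ r) (hb : Cpl β b) (E : Finset Edge) {x z : Site}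
    (hz : (r : ℤ) < |x.1 - z.1| ∨ (r : ℤ) < |x.2 - z.2|) {g : ℝ} (hg0 : 0 ≤ g)
    (hg : ∀ y : Site, |y.1 - x.1| ≤ r + 1 → |y.2 - x.2| ≤ r + 1 →
      corr E b (fun σ => spin y 0 σ * spin z 0 σ) ≤ g) :
    corr E b (fun σ => spin x 0 σ * spin z 0 σ) ≤ 12 * β * r * m * g := by
  classical
  set S : Finset Site := Icc (x.1 - r) (x.1 + r) ×ˢ Icc (x.2 - r) (x.2 + r) with hS
  have hmem : ∀ u : Site, u ∈ S ↔
      (x.1 - r ≤ u.1 ∧ u.1 ≤ x.1 + r) ∧ (x.2 - r ≤ u.2 ∧ u.2 ≤ x.2 + r) := by
    intro u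
    simp only [hS, mem_product, mem_Icc]
  set f : Site → ℝ := fun u => if u ∈ S then 1 else 0 with hf
  have hfS : Supp S f := fun u hu => by simp only [hf, if_neg hu]
  have hx : f x = 1 := by
    have : x ∈ S := by rw [hmem]; omega
    simp only [hf, if_pos this]
  have hz0 : f z = 0 := by
    refine hfS z ?_
    rw [hmem]
    rcases hz with hz | hz <;> rw [lt_abs] at hz <;> omega
  have hb0 : ∀ e, 0 ≤ b e := fun e => (hb e).1
  have hβ : 0 ≤ β := (hb (0, 0)).1.trans (hb (0, 0)).2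
  have hm := simon_mag_nonneg h hb
  have hc0 : 0 ≤ β * (2 * m * g) := by positivity
  have hterm : ∀ e : Edge,
      b e * grad f e * (simonW E b x z (hd e) e.1 - simonW E b x z e.1 (hd e)) ≤
        if e ∈ simonB x r then β * (2 * m * g) else 0 := by
    rintro ⟨u, d⟩
    have hd' : (d = 0 ∧ hd (u, d) = (u.1 + 1, u.2)) ∨ (d = 1 ∧ hd (u, d) = (u.1, u.2 + 1)) := by
      fin_cases d
      · exact Or.inl ⟨rfl, hd_zero u⟩
      · exact Or.inr ⟨rfl, hd_one u⟩
    have hB : ∀ e : Edge, e ∈ simonB x r ↔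
        ((e.1.1 = x.1 + r ∨ e.1.1 = x.1 - r - 1) ∧ (x.2 - r ≤ e.1.2 ∧ e.1.2 ≤ x.2 + r)) ∧ e.2 = 0 ∨
        ((x.1 - r ≤ e.1.1 ∧ e.1.1 ≤ x.1 + r) ∧ (e.1.2 = x.2 + r ∨ e.1.2 = x.2 - r - 1)) ∧
          e.2 = 1 := by
      intro e
      simp only [simonB, mem_union, mem_product, mem_insert, mem_singleton, mem_Icc]
    have hW1 := simonW_nonneg (E := E) hb0 x z (hd (u, d)) u
    have hW2 := simonW_nonneg (E := E) hb0 x z u (hd (u, d))
    by_cases h1 : u ∈ S <;> by_cases h2 : hd (u, d) ∈ S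
    · have : grad f (u, d) = 0 := by simp only [grad, hf, if_pos h1, if_pos h2, sub_self]
      rw [this]
      split_ifs <;> simp [hc0]
    · have hgr : grad f (u, d) = -1 := by
        simp only [grad, hf, if_pos h1, if_neg h2, zero_sub]
      rw [hmem] at h1 h2
      have hmB : (u, d) ∈ simonB x r := by
        rw [hB]
        rcases hd' with ⟨h3, h4⟩ | ⟨h3, h4⟩ <;> rw [h4] at h2 <;> simp only [h3] at h2 ⊢
        · left; refine ⟨?_, trivial⟩; omega
        · right; refine ⟨?_, trivial⟩; omega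
      have hW : simonW E b x z u (hd (u, d)) ≤ 2 * m * g := by
        refine simonW_le h hb ?_ (hg _ ?_ ?_)
        · simp only [le_abs]
          rcases hd' with ⟨h3, h4⟩ | ⟨h3, h4⟩ <;> rw [h4] at h2 <;> simp only at h2 <;> omega
        · rw [abs_le]
          rcases hd' with ⟨h3, h4⟩ | ⟨h3, h4⟩ <;> rw [h4] <;> simp only <;> omega
        · rw [abs_le]
          rcases hd' with ⟨h3, h4⟩ | ⟨h3, h4⟩ <;> rw [h4] <;> simp only <;> omega
      rw [if_pos hmB, hgr]
      have := hb (u, d)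
      calc b (u, d) * -1 * (simonW E b x z (hd (u, d)) u - simonW E b x z u (hd (u, d)))
          = b (u, d) * (simonW E b x z u (hd (u, d)) - simonW E b x z (hd (u, d)) u) := by ring
        _ ≤ b (u, d) * (2 * m * g) := mul_le_mul_of_nonneg_left (by linarith) this.1
        _ ≤ β * (2 * m * g) := mul_le_mul_of_nonneg_right this.2 (by positivity)
    · have hgr : grad f (u, d) = 1 := by
        simp only [grad, hf, if_neg h1, if_pos h2, sub_zero]
      rw [hmem] at h1 h2
      have hmB : (u, d) ∈ simonB x r := by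
        rw [hB]
        rcases hd' with ⟨h3, h4⟩ | ⟨h3, h4⟩ <;> rw [h4] at h2 <;> simp only [h3] at h2 ⊢
        · left; refine ⟨?_, trivial⟩; omega
        · right; refine ⟨?_, trivial⟩; omega
      have hW : simonW E b x z (hd (u, d)) u ≤ 2 * m * g := by
        refine simonW_le h hb ?_ (hg _ ?_ ?_)
        · simp only [le_abs]
          rcases hd' with ⟨h3, h4⟩ | ⟨h3, h4⟩ <;> rw [h4] at h2 ⊢ <;> simp only at h2 ⊢ <;> omega
        · rw [abs_le]
          rcases hd' with ⟨h3, h4⟩ | ⟨h3, h4⟩ <;> rw [h4] at h2 <;> simp only at h2 <;> omega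
        · rw [abs_le]
          rcases hd' with ⟨h3, h4⟩ | ⟨h3, h4⟩ <;> rw [h4] at h2 <;> simp only at h2 <;> omega
      rw [if_pos hmB, hgr]
      have := hb (u, d)
      calc b (u, d) * 1 * (simonW E b x z (hd (u, d)) u - simonW E b x z u (hd (u, d)))
          = b (u, d) * (simonW E b x z (hd (u, d)) u - simonW E b x z u (hd (u, d))) := by ring
        _ ≤ b (u, d) * (2 * m * g) := mul_le_mul_of_nonneg_left (by linarith) this.1
        _ ≤ β * (2 * m * g) := mul_le_mul_of_nonneg_right this.2 (by positivity)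
    · have : grad f (u, d) = 0 := by simp only [grad, hf, if_neg h1, if_neg h2, sub_self]
      rw [this]
      split_ifs <;> simp [hc0]
  have hward := simon_ward (E := E) (b := b) hfS hx hz0
  have hsum : ∑ e ∈ E, (if e ∈ simonB x r then β * (2 * m * g) else 0) ≤
      12 * r * (β * (2 * m * g)) := by
    rw [← sum_filter, sum_const, nsmul_eq_mul]
    refine mul_le_mul_of_nonneg_right ?_ hc0
    have : (E.filter (· ∈ simonB x r)).card ≤ 12 * r :=
      (card_le_card fun e he => (mem_filter.1 he).2).trans (simonB_card x hr)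
    exact_mod_cast this
  have := (sum_le_sum fun e _ => hterm e).trans hsum
  rw [← hward] at this
  linarith

theorem core_of_mag (hβ : 0 < β) (h : ∀ η : ℝ, 0 < η → ∃ r : ℕ, 1 ≤ r ∧ Mag β r (η / r)) :
    ∃ A m : ℝ, 0 < m ∧ ∀ (E : Finset Edge) (b : Edge → ℝ), Cpl β b → ∀ x z : Site,
      0 ≤ corr E b (fun σ => spin x 0 σ * spin z 0 σ) ∧
      corr E b (fun σ => spin x 0 σ * spin z 0 σ) ≤
        A * Real.exp (-m * Real.sqrt (((x.1 - z.1 : ℤ) : ℝ) ^ 2 + ((x.2 - z.2 : ℤ) : ℝ) ^ 2)) := by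
  obtain ⟨r, hr, hM⟩ := h (1 / (24 * β)) (by positivity)
  have hr0 : (0 : ℝ) < r := by exact_mod_cast hr
  have hl : 0 < Real.log 2 := Real.log_pos one_lt_two
  refine ⟨2, Real.log 2 / (2 * (r + 1)), by positivity, fun E b hb x z =>
    ⟨simon_two_nonneg (fun e => (hb e).1) .., ?_⟩⟩
  have ind : ∀ j : ℕ, ∀ y : Site, ((j : ℤ) * (r + 1) ≤ |y.1 - z.1| ∨ (j : ℤ) * (r + 1) ≤ |y.2 - z.2|) →
      corr E b (fun σ => spin y 0 σ * spin z 0 σ) ≤ (1 / 2) ^ j := by
    intro j
    induction j with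
    | zero =>
      intro y _
      refine simon_corr_le (simon_cont2 ..) fun σ => ?_
      refine (le_abs_self _).trans ?_
      rw [abs_mul, pow_zero]
      exact mul_le_one₀ (simon_abs_spin ..) (abs_nonneg _) (simon_abs_spin ..)
    | succ j ih =>
      intro y hy
      have hj : (0 : ℤ) ≤ (j : ℤ) * (r + 1) := by positivity
      have hy' : (j : ℤ) * (r + 1) + (r + 1) ≤ |y.1 - z.1| ∨
          (j : ℤ) * (r + 1) + (r + 1) ≤ |y.2 - z.2| := by
        have : ((j + 1 : ℕ) : ℤ) * (r + 1) = (j : ℤ) * (r + 1) + (r + 1) := by push_cast; ring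
        rwa [this] at hy
      have := simon hM hr hb E (x := y) (z := z) (by omega) (g := (1 / 2) ^ j) (by positivity)
        (fun u h1 h2 => ih u (by
          rw [abs_le] at h1 h2
          simp only [le_abs] at hy' ⊢
          omega))
      refine this.trans (le_of_eq ?_)
      field_simp
      ring
  set D : ℕ := max (x.1 - z.1).natAbs (x.2 - z.2).natAbs with hD
  set j : ℕ := D / (r + 1) with hj
  have h1 : j * (r + 1) ≤ D := Nat.div_mul_le_self _ _
  have h2 : D < (j + 1) * (r + 1) := by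
    rw [mul_comm]; exact Nat.lt_mul_div_succ D (Nat.succ_pos r)
  have h3 := ind j x (by
    have : ((j * (r + 1) : ℕ) : ℤ) = (j : ℤ) * (r + 1) := by push_cast; ring
    rw [← this, ← Int.natCast_natAbs, ← Int.natCast_natAbs]
    omega)
  refine h3.trans ?_
  have h4 : Real.sqrt (((x.1 - z.1 : ℤ) : ℝ) ^ 2 + ((x.2 - z.2 : ℤ) : ℝ) ^ 2) ≤ 2 * D := by
    have a1 : |((x.1 - z.1 : ℤ) : ℝ)| ≤ D := by
      rw [← Int.cast_abs, ← Int.natCast_natAbs, Int.cast_natCast]
      exact_mod_cast le_max_left _ _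
    have a2 : |((x.2 - z.2 : ℤ) : ℝ)| ≤ D := by
      rw [← Int.cast_abs, ← Int.natCast_natAbs, Int.cast_natCast]
      exact_mod_cast le_max_right _ _
    have b1 := sq_le_sq' (abs_le.1 a1).1 (abs_le.1 a1).2
    have b2 := sq_le_sq' (abs_le.1 a2).1 (abs_le.1 a2).2
    rw [Real.sqrt_le_left (by positivity)]
    nlinarith [sq_nonneg (D : ℝ)]
  have h5 : (D : ℝ) ≤ (j + 1) * (r + 1) := by exact_mod_cast h2.le
  have h6 : ((1 : ℝ) / 2) ^ j = 2 * Real.exp (-(Real.log 2 * (j + 1))) := by
    rw [Real.exp_neg, Real.exp_mul, Real.exp_log two_pos]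
    have : (2 : ℝ) ^ ((j : ℝ) + 1) = 2 ^ (j + 1) := by
      rw [← Real.rpow_natCast]; push_cast; rfl
    rw [this, pow_succ, one_div, inv_pow]
    field_simp
  rw [h6]
  refine mul_le_mul_of_nonneg_left (Real.exp_le_exp.2 ?_) zero_le_two
  rw [neg_mul, neg_le_neg_iff]
  calc Real.log 2 / (2 * (r + 1)) * Real.sqrt (((x.1 - z.1 : ℤ) : ℝ) ^ 2 + ((x.2 - z.2 : ℤ) : ℝ) ^ 2)
      ≤ Real.log 2 / (2 * (r + 1)) * (2 * ((j + 1) * (r + 1))) :=
        mul_le_mul_of_nonneg_left (h4.trans (by linarith)) (by positivity)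
    _ = Real.log 2 * (j + 1) := by field_simp

end Crest.Agent.R167
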