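import Crest.Agent.R167.Tile

/-!
# R167 / Stiff: rectangles, symmetries of the stiffness, subadditivity, transfer between axes

Recipes.  `rect_tiling`: `sum`: `Finset.sum_sigma'`/`sum_biUnion`, or first the one-dimensional
identity `∑_{x ∈ Ico a (a + p w)} φ x = ∑_{i < p} ∑_{x ∈ Ico (a + i w) (a + i w + w)} φ x` (induction on
`p`, `Finset.sum_Ico_consecutive`-type for `ℤ`: `Ico_union_Ico_eq_Ico`), then `sum_product`, `sum_comm`.
`Stiff.all`: translation and the swap of coordinates by `Blk.M_reindex`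
(`ê (u, d) = (u + a, d)`, resp. `(u.swap, swap d)`), the axis by `Blk.M_flow` with `θ = 1`, `t = π/2`
(`Rot_conj_one/two`, `M_mat_comb` with `p = 0`, `q = ±1`).
`Stiff.off`: `M_flow` about the axis `2` with `t = ±π/4` gives `M (T) (T) ≤ ν L²` for
`T = (T 1 ± T 0)/√2` (`Rot_conj_two` with `k = 2`); expand with `M_mat_comb`.
`transfer`: for `k = 0` rotate about the axis `2`, for `k = 2` about the axis `0`, by `±π/2`:
`Φ = ∑ Nk (U i) k ≥ 0` satisfies `Φ ∘ flow (±π/2) = ∑ Nk (U i) 1` (`M_flow`); `gE_cs` with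
`F = F₁ = F₂ = Φ`, `c = β C` (`hasL_Ham`, `hasL_J_grad`); `π²/8 ≤ 2`.  For `k = 1` use `1 ≤ exp`.
-/

set_option autoImplicit false

namespace Crest.Agent.R167

open MeasureTheory Finset Matrix

lemma mem_rect_I {a x : Site} {w h : ℕ} : x ∈ (rect a w h).I ↔
    (a.1 < x.1 ∧ x.1 < a.1 + w) ∧ (a.2 < x.2 ∧ x.2 < a.2 + h) := by
  simp [rect]
lemma mem_rect_E {a : Site} {e : Edge} {w h : ℕ} : e ∈ (rect a w h).E ↔
    (a.1 ≤ e.1.1 ∧ e.1.1 < a.1 + w) ∧ (a.2 ≤ e.1.2 ∧ e.1.2 < a.2 + h) := by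
  simp [rect]
lemma hd_zero (u : Site) : hd (u, 0) = (u.1 + 1, u.2) := by
  ext <;> simp [hd, Crest.ProbabilityR.SpinModel.latticeDir]
lemma hd_one (u : Site) : hd (u, 1) = (u.1, u.2 + 1) := by
  ext <;> simp [hd, Crest.ProbabilityR.SpinModel.latticeDir]
/-- an edge that touches the interior of a rectangle belongs to it -/
lemma not_mem_rect_I {a : Site} {e : Edge} {w h : ℕ} (he : e ∉ (rect a w h).E) :
    e.1 ∉ (rect a w h).I ∧ hd e ∉ (rect a w h).I := by
  obtain ⟨u, d⟩ := e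
  rw [mem_rect_E] at he
  rw [mem_rect_I, mem_rect_I]
  fin_cases d
  · simp only [Fin.zero_eta, hd_zero] at he ⊢
    omega
  · simp only [Fin.mk_one, hd_one] at he ⊢
    omega
lemma sum_rect (a : Site) (w h : ℕ) (φ : Edge → ℝ) : ∑ e ∈ (rect a w h).E, φ e =
    ∑ x ∈ Ico a.1 (a.1 + w), ∑ y ∈ Ico a.2 (a.2 + h), (φ ((x, y), 0) + φ ((x, y), 1)) := by
  simp only [rect]
  rw [sum_product, sum_product]
  simp only [Fin.sum_univ_two]
lemma nrm_rect_ed (a : Site) (w h : ℕ) (d : Fin 2) : nrm (rect a w h).E (ed d) = w * h := by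
  rw [nrm, sum_rect]
  fin_cases d <;> simp [ed]
lemma nrm_rect_le (a : Site) (w h : ℕ) {α : Edge → ℝ} {c : ℝ}
    (hα : ∀ e ∈ (rect a w h).E, |α e| ≤ c) : nrm (rect a w h).E α ≤ 2 * w * h * c ^ 2 := by
  have h1 : nrm (rect a w h).E α ≤ ∑ _e ∈ (rect a w h).E, c ^ 2 := by
    refine sum_le_sum fun e he => ?_
    rw [← sq_abs]
    exact pow_le_pow_left₀ (abs_nonneg _) (hα e he) 2
  refine h1.trans (le_of_eq ?_)
  rw [sum_rect]
  simp
  ring

lemma stiff_sum_Ico (a : ℤ) (w p : ℕ) (φ : ℤ → ℝ) :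
    ∑ x ∈ Ico a (a + ((p * w : ℕ) : ℤ)), φ x =
      ∑ i ∈ range p, ∑ x ∈ Ico (a + i * w) (a + i * w + w), φ x := by
  induction p with
  | zero => simp
  | succ p ih =>
    have h1 : a ≤ a + (p : ℤ) * w := by
      have : (0 : ℤ) ≤ (p : ℤ) * w := by positivity
      omega
    have h2 : a + (p : ℤ) * w ≤ a + (p : ℤ) * w + w := by omega
    have e1 : a + (((p + 1) * w : ℕ) : ℤ) = a + (p : ℤ) * w + w := by push_cast; ring
    have e2 : a + ((p * w : ℕ) : ℤ) = a + (p : ℤ) * w := by push_cast; ring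
    rw [sum_range_succ, ← ih, e1, e2, ← Ico_union_Ico_eq_Ico h1 h2,
      sum_union (Ico_disjoint_Ico_consecutive _ _ _)]

lemma stiff_le_of_lt {i p w : ℕ} (h : i < p) : (i : ℤ) * w + w ≤ (p : ℤ) * w := by
  have h1 : (i : ℤ) + 1 ≤ p := by exact_mod_cast h
  have h2 : (0 : ℤ) ≤ w := by positivity
  nlinarith

theorem rect_tiling (a : Site) (w h p q : ℕ) :
    Tiling (rect a (p * w) (q * h)) (range p ×ˢ range q)
      (fun ij : ℕ × ℕ => rect (a.1 + ij.1 * w, a.2 + ij.2 * h) w h) := by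
  refine ⟨?_, ?_, ?_⟩
  · rintro ⟨i, j⟩ hij x hx
    rw [mem_product, mem_range, mem_range] at hij
    rw [mem_rect_I] at hx ⊢
    have h1 := stiff_le_of_lt (w := w) hij.1
    have h2 := stiff_le_of_lt (w := h) hij.2
    have h3 : (0 : ℤ) ≤ (i : ℤ) * w := by positivity
    have h4 : (0 : ℤ) ≤ (j : ℤ) * h := by positivity
    push_cast
    simp only at hx h1 h2
    omega
  · intro φ
    rw [sum_rect, stiff_sum_Ico, sum_product]
    refine sum_congr rfl fun i _ => ?_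
    simp only [sum_rect, stiff_sum_Ico]
    rw [sum_comm]
  · rintro ⟨i, j⟩ _ ⟨i', j'⟩ _ hne e he
    apply not_mem_rect_I
    intro he'
    rw [mem_rect_E] at he he'
    simp only at he he'
    apply hne
    have hi : i = i' := by
      rcases lt_trichotomy i i' with hlt | heq | hlt
      · have := stiff_le_of_lt (w := w) hlt
        omega
      · exact heq
      · have := stiff_le_of_lt (w := w) hlt
        omega
    have hj : j = j' := by
      rcases lt_trichotomy j j' with hlt | heq | hlt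
      · have := stiff_le_of_lt (w := h) hlt
        omega
      · exact heq
      · have := stiff_le_of_lt (w := h) hlt
        omega
    rw [hi, hj]

theorem M_rect_translate (a : Site) (w h : ℕ) (b : Edge → ℝ) (A B : Mat) (d : Fin 2) (σ : Cfg) :
    (rect a w h).M b A B (ed d) (ed d) σ =
      (rect 0 w h).M (fun e => b (e.1 + a, e.2)) A B (ed d) (ed d) (fun x => σ (x + a)) := by
  let e : Site ≃ Site := Equiv.addRight a
  let ê : Edge ≃ Edge := Equiv.prodCongr e (Equiv.refl _)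
  have key := Blk.M_reindex (U := rect 0 w h) (b := b) (A := A) (B := B) (α := ed d) (α' := ed d)
    e ê (fun _ => rfl) (fun ε => by
      simp only [hd, ê, e, Equiv.prodCongr_apply, Prod.map_fst, Prod.map_snd, Equiv.coe_addRight,
        Equiv.refl_apply]
      abel) σ
  have hU : (⟨(rect 0 w h).I.map e.toEmbedding, (rect 0 w h).E.map ê.toEmbedding⟩ : Blk) =
      rect a w h := by
    have h1 : (rect 0 w h).I.map e.toEmbedding = (rect a w h).I := by
      ext x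
      rw [mem_map_equiv, mem_rect_I, mem_rect_I]
      simp only [e, Equiv.addRight_symm, Equiv.coe_addRight, Prod.fst_add, Prod.snd_add,
        Prod.fst_neg, Prod.snd_neg, Prod.fst_zero, Prod.snd_zero]
      omega
    have h2 : (rect 0 w h).E.map ê.toEmbedding = (rect a w h).E := by
      ext x
      rw [mem_map_equiv, mem_rect_E, mem_rect_E]
      simp only [ê, e, Equiv.prodCongr_symm, Equiv.prodCongr_apply, Prod.map_fst,
        Equiv.addRight_symm, Equiv.coe_addRight, Prod.fst_add, Prod.snd_add,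
        Prod.fst_neg, Prod.snd_neg, Prod.fst_zero, Prod.snd_zero]
      omega
    rw [h1, h2]
  rw [hU] at key
  exact key

lemma stiff_M_swap (L : ℕ) (b : Edge → ℝ) (A B : Mat) (σ : Cfg) :
    (rect 0 L L).M b A B (ed 1) (ed 1) σ =
      (rect 0 L L).M (fun e => b (e.1.swap, Equiv.swap 0 1 e.2)) A B (ed 0) (ed 0)
        (fun x => σ x.swap) := by
  let e : Site ≃ Site := Equiv.prodComm _ _
  let ê : Edge ≃ Edge := Equiv.prodCongr e (Equiv.swap 0 1)
  have key := Blk.M_reindex (U := rect 0 L L) (b := b) (A := A) (B := B) (α := ed 1) (α' := ed 1)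
    e ê (fun _ => rfl) (fun ε => by
      obtain ⟨u, d⟩ := ε
      fin_cases d
      · simp [ê, e, hd_zero, hd_one]
      · simp [ê, e, hd_zero, hd_one]) σ
  have hU : (⟨(rect 0 L L).I.map e.toEmbedding, (rect 0 L L).E.map ê.toEmbedding⟩ : Blk) =
      rect 0 L L := by
    have h1 : (rect 0 L L).I.map e.toEmbedding = (rect 0 L L).I := by
      ext x
      rw [mem_map_equiv, mem_rect_I, mem_rect_I]
      simp only [e, Equiv.prodComm_symm, Equiv.prodComm_apply, Prod.fst_swap, Prod.snd_swap,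
        Prod.fst_zero, Prod.snd_zero]
      omega
    have h2 : (rect 0 L L).E.map ê.toEmbedding = (rect 0 L L).E := by
      ext x
      rw [mem_map_equiv, mem_rect_E, mem_rect_E]
      simp only [ê, e, Equiv.prodCongr_symm, Equiv.prodCongr_apply, Prod.map_fst,
        Equiv.prodComm_symm, Equiv.prodComm_apply, Prod.fst_swap, Prod.snd_swap,
        Prod.fst_zero, Prod.snd_zero]
      omega
    rw [h1, h2]
  have he : ed 1 ∘ ê = ed 0 := by
    funext ε
    obtain ⟨u, d⟩ := ε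
    fin_cases d <;> simp [ê, ed]
  rw [hU, he] at key
  exact key

lemma stiff_M_smul (U : Blk) (b : Edge → ℝ) (A : Mat) (α : Edge → ℝ) (q : ℝ) (σ : Cfg) :
    U.M b (q • A) (q • A) α α σ = q ^ 2 * U.M b A A α α σ := by
  have := Blk.M_mat_comb (U := U) (b := b) (A := A) (B := A) (α := α) 0 q σ
  simpa using this

lemma stiff_conj_two (t : ℝ) :
    (Rot 2 t)ᵀ * T 1 * Rot 2 t = Real.cos t • T 1 + Real.sin t • T 0 := Rot_conj_two 2 t
lemma stiff_conj_two' (t : ℝ) :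
    (Rot 2 t)ᵀ * T 0 * Rot 2 t = Real.cos t • T 0 - Real.sin t • T 1 := Rot_conj_one 2 t
lemma stiff_conj_zero (t : ℝ) :
    (Rot 0 t)ᵀ * T 1 * Rot 0 t = Real.cos t • T 1 - Real.sin t • T 2 := Rot_conj_one 0 t
lemma stiff_conj_zero' (t : ℝ) :
    (Rot 0 t)ᵀ * T 2 * Rot 0 t = Real.cos t • T 2 + Real.sin t • T 1 := Rot_conj_two 0 t

variable {β ν : ℝ} {L : ℕ} {b : Edge → ℝ}

lemma Stiff.mono {ν' : ℝ} (h : Stiff β L ν) (hν : ν ≤ ν') : Stiff β L ν' := fun b hb σ =>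
  (h b hb σ).trans (mul_le_mul_of_nonneg_right hν (sq_nonneg _))
theorem stiff_one (β : ℝ) : Stiff β 1 β := by
  intro b hb σ
  have := Blk.M_le (U := rect 0 1 1) (k := 1) (α := ed 0) hb σ
  rw [nrm_rect_ed] at this
  simpa using this

lemma stiff_all_one (h : Stiff β L ν) (hb : Cpl β b) (a : Site) (d : Fin 2) (σ : Cfg) :
    (rect a L L).M b (T 1) (T 1) (ed d) (ed d) σ ≤ ν * (L : ℝ) ^ 2 := by
  rw [M_rect_translate]
  fin_cases d
  · exact h _ (fun e => hb _) _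
  · simp only [Fin.mk_one]
    rw [stiff_M_swap]
    exact h _ (fun e => hb _) _

theorem Stiff.all (h : Stiff β L ν) (hb : Cpl β b) (a : Site) (k : Fin 3) (d : Fin 2) (σ : Cfg) :
    (rect a L L).M b (T k) (T k) (ed d) (ed d) σ ≤ ν * (L : ℝ) ^ 2 := by
  fin_cases k
  · have h1 := stiff_all_one h hb a d (flow 2 (fun _ => 1) (Real.pi / 2) σ)
    rw [Blk.M_flow (fun _ _ => ⟨rfl, rfl⟩), stiff_conj_two] at h1
    simpa using h1
  · exact stiff_all_one h hb a d σ
  · have h1 := stiff_all_one h hb a d (flow 0 (fun _ => 1) (-(Real.pi / 2)) σ)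
    rw [Blk.M_flow (fun _ _ => ⟨rfl, rfl⟩), stiff_conj_zero] at h1
    simpa using h1
theorem Stiff.Nk_nonneg (h : Stiff β L ν) (hb : Cpl β b) (a : Site) (k : Fin 3) (σ : Cfg) :
    0 ≤ Nk ν L (rect a L L) b k σ := sub_nonneg.2 (h.all hb a k 0 σ)
theorem Stiff.off (h : Stiff β L ν) (hb : Cpl β b) (a : Site) (σ : Cfg) :
    |(rect a L L).M b (T 1) (T 0) (ed 0) (ed 0) σ| ≤
      (Nk ν L (rect a L L) b 0 σ + Nk ν L (rect a L L) b 1 σ) / 2 := by
  have h1 := stiff_all_one h hb a 0 (flow 2 (fun _ => 1) (Real.pi / 4) σ)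
  have h2 := stiff_all_one h hb a 0 (flow 2 (fun _ => 1) (-(Real.pi / 4)) σ)
  rw [Blk.M_flow (fun _ _ => ⟨rfl, rfl⟩), stiff_conj_two, Blk.M_mat_comb] at h1 h2
  rw [Real.cos_neg, Real.sin_neg] at h2
  rw [Real.cos_pi_div_four, Real.sin_pi_div_four] at h1 h2
  have hs : (√2 / 2 : ℝ) ^ 2 = 1 / 2 := by
    rw [div_pow, Real.sq_sqrt (by norm_num)]; norm_num
  have hs1 : 2 * (√2 / 2 : ℝ) * (√2 / 2) = 1 := by nlinarith
  have hs2 : 2 * (√2 / 2 : ℝ) * -(√2 / 2) = -1 := by nlinarith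
  rw [neg_sq] at h2
  rw [hs, hs1] at h1
  rw [hs, hs2] at h2
  unfold Nk
  rw [abs_le]
  constructor <;> linarith
lemma continuous_Nk (ν : ℝ) (L : ℕ) (U : Blk) (b : Edge → ℝ) (k : Fin 3) :
    Continuous (Nk ν L U b k) := continuous_const.sub Blk.continuous_M

/-- from strips to squares: tile the `K₁K₂L` square by `K₂ × K₁` strips (`Tiling.M_eq`,
`M_rect_translate`) -/
theorem stiff_of_strip {K₁ K₂ : ℕ} (h : ∀ b, Cpl β b → ∀ τ,
    (rect 0 (K₁ * L) (K₂ * L)).M b (T 1) (T 1) (ed 0) (ed 0) τ ≤ ν * (K₁ * K₂ * (L : ℝ) ^ 2)) :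
    Stiff β (K₁ * K₂ * L) ν := by
  intro b hb σ
  have hT := rect_tiling 0 (K₁ * L) (K₂ * L) K₂ K₁
  have e1 : K₂ * (K₁ * L) = K₁ * K₂ * L := by ring
  have e2 : K₁ * (K₂ * L) = K₁ * K₂ * L := by ring
  rw [e1, e2] at hT
  rw [hT.M_eq]
  refine (sub_le_self _ (gE_nonneg (fun _ => sq_nonneg _) _)).trans ?_
  refine (sum_le_sum (g := fun _ => ν * (K₁ * K₂ * (L : ℝ) ^ 2)) fun ij _ => ?_).trans
    (le_of_eq ?_)
  · refine (gE_mono continuous_Ham Blk.continuous_M continuous_const (fun τ => ?_) σ).trans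
      (le_of_eq (gE_const continuous_Ham _ σ))
    rw [M_rect_translate]
    exact h _ (fun e => hb _) _
  · simp
    ring

lemma stiff_transfer_aux {κ : Type} (h : Stiff β L ν) (hb : Cpl β b) (R : Blk) (s : Finset κ)
    (a : κ → Site) {θ : Site → ℝ} (hθ : Supp R.I θ) {C : ℝ}
    (hC : nrm R.E (grad θ) ≤ C) (k l : Fin 3)
    (hp : ∀ i ∈ s, ∀ σ, Nk ν L (rect (a i) L L) b k (flow l θ (Real.pi / 2) σ) =
      Nk ν L (rect (a i) L L) b 1 σ)
    (hm : ∀ i ∈ s, ∀ σ, Nk ν L (rect (a i) L L) b k (flow l θ (-(Real.pi / 2)) σ) =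
      Nk ν L (rect (a i) L L) b 1 σ) (τ : Cfg) :
    ∑ i ∈ s, R.av b (Nk ν L (rect (a i) L L) b k) τ ≤
      Real.exp (2 * β * C) * ∑ i ∈ s, R.av b (Nk ν L (rect (a i) L L) b 1) τ := by
  have hβ : 0 ≤ β := (hb (0, 0)).1.trans (hb (0, 0)).2
  have hC0 : 0 ≤ C := (nrm_nonneg _ _).trans hC
  obtain ⟨Φ'', hΦ'', hlow⟩ := hasL_J_grad (E := R.E) (k := l) (f := θ) hb
  have hlow' : ∀ σ, -(β * C) ≤ Φ'' σ := fun σ =>
    (neg_le_neg (mul_le_mul_of_nonneg_left hC hβ)).trans (hlow σ)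
  set F : Cfg → ℝ := fun σ => ∑ i ∈ s, Nk ν L (rect (a i) L L) b k σ with hF
  set G : Cfg → ℝ := fun σ => ∑ i ∈ s, Nk ν L (rect (a i) L L) b 1 σ with hG
  have cF : Continuous F := continuous_finsetSum _ fun i _ => continuous_Nk _ _ _ _ _
  have pF : ∀ σ, 0 ≤ F σ := fun σ => sum_nonneg fun i _ => h.Nk_nonneg hb _ _ _
  have pG : ∀ σ, 0 ≤ G σ := fun σ => sum_nonneg fun i _ => h.Nk_nonneg hb _ _ _
  have key := gE_cs hasL_Ham hΦ'' hlow' hθ cF cF cF pF pF (fun σ => le_of_eq (sq _))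
    (Real.pi / 2) τ
  have e1 : (fun σ => F (flow l θ (Real.pi / 2) σ)) = G :=
    funext fun σ => sum_congr rfl fun i hi => hp i hi σ
  have e2 : (fun σ => F (flow l θ (-(Real.pi / 2)) σ)) = G :=
    funext fun σ => sum_congr rfl fun i hi => hm i hi σ
  rw [e1, e2] at key
  have s1 : ∑ i ∈ s, R.av b (Nk ν L (rect (a i) L L) b k) τ = gE R.I (Ham R.E b) F τ :=
    (gE_sum continuous_Ham s _ (fun i _ => continuous_Nk _ _ _ _ _) τ).symm
  have s2 : ∑ i ∈ s, R.av b (Nk ν L (rect (a i) L L) b 1) τ = gE R.I (Ham R.E b) G τ :=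
    (gE_sum continuous_Ham s _ (fun i _ => continuous_Nk _ _ _ _ _) τ).symm
  rw [s1, s2]
  have g0 : 0 ≤ gE R.I (Ham R.E b) G τ := gE_nonneg pG τ
  refine (pow_le_pow_iff_left₀ (gE_nonneg pF τ) (mul_nonneg (Real.exp_pos _).le g0)
    two_ne_zero).1 ?_
  refine key.trans ?_
  rw [mul_pow, ← sq, ← Real.exp_nat_mul]
  refine mul_le_mul_of_nonneg_right (Real.exp_le_exp.2 ?_) (sq_nonneg _)
  have hpi : (Real.pi / 2) ^ 2 ≤ 4 := by nlinarith [Real.pi_le_four, Real.pi_pos]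
  have := mul_le_mul_of_nonneg_left hpi (mul_nonneg hβ hC0)
  push_cast
  linarith

theorem transfer {κ : Type} (h : Stiff β L ν) (hb : Cpl β b) (R : Blk) (s : Finset κ)
    (a : κ → Site) {θ : Site → ℝ} (hθ : Supp R.I θ)
    (h1 : ∀ i ∈ s, ∀ e ∈ (rect (a i) L L).E, θ e.1 = 1 ∧ θ (hd e) = 1) {C : ℝ}
    (hC : nrm R.E (grad θ) ≤ C) (k : Fin 3) (τ : Cfg) :
    ∑ i ∈ s, R.av b (Nk ν L (rect (a i) L L) b k) τ ≤
      Real.exp (2 * β * C) * ∑ i ∈ s, R.av b (Nk ν L (rect (a i) L L) b 1) τ := by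
  fin_cases k
  · refine stiff_transfer_aux h hb R s a hθ hC 0 2 (fun i hi σ => ?_) (fun i hi σ => ?_) τ
    · unfold Nk
      rw [Blk.M_flow (h1 i hi), stiff_conj_two', Real.cos_pi_div_two, zero_smul, zero_sub,
        ← neg_smul, stiff_M_smul]
      simp
    · unfold Nk
      rw [Blk.M_flow (h1 i hi), stiff_conj_two', Real.cos_neg, Real.cos_pi_div_two, zero_smul,
        zero_sub, ← neg_smul, stiff_M_smul]
      simp
  · have hβ : 0 ≤ β := (hb (0, 0)).1.trans (hb (0, 0)).2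
    have hC0 : 0 ≤ C := (nrm_nonneg _ _).trans hC
    refine le_mul_of_one_le_left (sum_nonneg fun i _ =>
      gE_nonneg (fun σ => h.Nk_nonneg hb _ _ _) τ) (Real.one_le_exp (by positivity))
  · refine stiff_transfer_aux h hb R s a hθ hC 2 0 (fun i hi σ => ?_) (fun i hi σ => ?_) τ
    · unfold Nk
      rw [Blk.M_flow (h1 i hi), stiff_conj_zero', Real.cos_pi_div_two, zero_smul, zero_add,
        stiff_M_smul]
      simp
    · unfold Nk
      rw [Blk.M_flow (h1 i hi), stiff_conj_zero', Real.cos_neg, Real.cos_pi_div_two, zero_smul,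
        zero_add, stiff_M_smul]
      simp

end Crest.Agent.R167
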