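import Crest.Agent.R167.StripB

/-!
# R167 / Strip: the stiffness decreases by a definite amount from one scale to the next
-/

set_option autoImplicit false

namespace Crest.Agent.R167

open Finset

section main

variable {β ν : ℝ} {L K₁ K₂ h : ℕ} {b : Edge → ℝ} {τ : Cfg}

/-- the two integrations by parts -/
lemma strip_ibp (t : TF L K₁ K₂ h) {D δ : ℝ} (hD : 0 < D) (hδ : 0 < δ) (c : ℝ)
    {X Y M₁ M₂ M₃ S₂ S₃ : Cfg → ℝ}
    (hX : X = fun σ => SS (sS K₁ K₂) (sU L) b (T 1) (ed 0) σ - c)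
    (hY : Y = SS (sS K₁ K₂) (sU L) b (T 2) (grad t.ψ))
    (hM₁ : M₁ = MM (sS K₁ K₂) (sU L) b (T 1) (T 0) (ed 0) (grad t.χ))
    (hM₂ : M₂ = MM (sS K₁ K₂) (sU L) b (T 2) (T 0) (grad t.ψ) (grad t.χ))
    (hM₃ : M₃ = MM (sS K₁ K₂) (sU L) b (T 2) (T 2) (grad t.ψ) (grad t.ψ))
    (hS₂ : S₂ = SS (sS K₁ K₂) (sU L) b (T 1) (fun e => grad t.ψ e * mid t.χ e))
    (hS₃ : S₃ = SS (sS K₁ K₂) (sU L) b (T 2) (fun e => ed 0 e * mid t.χ e - grad t.ψ e)) :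
    (sR L K₁ K₂).av b (fun σ => tr' D (Y σ) * M₃ σ) τ =
      (sR L K₁ K₂).av b (fun σ => tr D (Y σ) * ((1 - tr' δ (X σ)) * Y σ)) τ -
      (sR L K₁ K₂).av b (fun σ => (tr' D (Y σ) * tr δ (X σ)) * M₂ σ) τ +
      (sR L K₁ K₂).av b (fun σ => (tr' D (Y σ) * tr δ (X σ)) * S₂ σ) τ +
      (sR L K₁ K₂).av b (fun σ => (tr D (Y σ) * tr δ (X σ)) *
        J (sR L K₁ K₂).E b (T 0) (grad t.χ) σ) τ -
      (sR L K₁ K₂).av b (fun σ => (tr D (Y σ) * tr' δ (X σ)) * M₁ σ) τ -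
      (sR L K₁ K₂).av b (fun σ => (tr D (Y σ) * tr' δ (X σ)) * S₃ σ) τ := by
  have hT := tiling_zero L K₁ K₂
  have cX : Continuous X := by rw [hX]; fun_prop
  have cY : Continuous Y := by rw [hY]; fun_prop
  have cM₁ : Continuous M₁ := by rw [hM₁]; fun_prop
  have cM₂ : Continuous M₂ := by rw [hM₂]; fun_prop
  have cM₃ : Continuous M₃ := by rw [hM₃]; fun_prop
  have cS₂ : Continuous S₂ := by rw [hS₂]; fun_prop
  have cS₃ : Continuous S₃ := by rw [hS₃]; fun_prop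
  have LY2 : HasL 2 t.ψ Y (fun σ => -M₃ σ) := by
    rw [hY, hM₃]
    refine (hasL_SS _ _ b 2 t.ψ (T 2) (grad t.ψ)).congr (fun _ => rfl) fun σ => ?_
    rw [sub_self, SS_mat_zero, add_zero]
  have LY0 : HasL 0 t.χ Y (fun σ => -M₂ σ + S₂ σ) := by
    rw [hY, hM₂, hS₂]
    refine (hasL_SS _ _ b 0 t.χ (T 2) (grad t.ψ)).congr (fun _ => rfl) fun σ => ?_
    rw [T_two_zero]
  have LX0 : HasL 0 t.χ X (fun σ => -M₁ σ - Y σ - S₃ σ) := by
    rw [hX, hY, hM₁, hS₃]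
    refine ((hasL_SS _ _ b 0 t.χ (T 1) (ed 0)).sub (hasL_const c)).congr (fun _ => rfl) fun σ => ?_
    rw [T_one_zero, SS_mat_neg, SS_sub]
    ring
  have i2 := gE_ibp (LY2.comp (hasDerivAt_tr hD) (continuous_tr' D))
    (hasL_Ham (E := (sR L K₁ K₂).E) (b := b)) t.sψ τ
  have i2' : (sR L K₁ K₂).av b (fun σ => tr D (Y σ) * Y σ) τ =
      (sR L K₁ K₂).av b (fun σ => tr D (Y σ) * J (sR L K₁ K₂).E b (T 2) (grad t.ψ) σ) τ := by
    have := hT.av_mul_S (b := b) (A := T 2) (α := grad t.ψ) (G := fun σ => tr D (Y σ))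
      (by fun_prop) (fun i hi => by rw [hY]; exact (hT.indep_SS _ _ hi).comp (tr D)) τ
    rw [← this, hY]
    rfl
  have i1 := gE_ibp ((LY0.comp (hasDerivAt_tr hD) (continuous_tr' D)).mul
    (LX0.comp (hasDerivAt_tr hδ) (continuous_tr' δ)))
    (hasL_Ham (E := (sR L K₁ K₂).E) (b := b)) t.sχ τ
  change (sR L K₁ K₂).av b _ τ + (sR L K₁ K₂).av b _ τ = 0 at i1 i2
  have e2 : (sR L K₁ K₂).av b (fun σ => tr' D (Y σ) * -M₃ σ) τ =
      -(sR L K₁ K₂).av b (fun σ => tr' D (Y σ) * M₃ σ) τ := by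
    rw [← neg_one_mul, ← av_const_mul]
    congr 1; funext σ; ring
  have e1 : (sR L K₁ K₂).av b (fun σ => tr' D (Y σ) * (-M₂ σ + S₂ σ) * tr δ (X σ) +
      tr D (Y σ) * (tr' δ (X σ) * (-M₁ σ - Y σ - S₃ σ))) τ =
      (sR L K₁ K₂).av b (fun σ => tr D (Y σ) * ((1 - tr' δ (X σ)) * Y σ)) τ -
      (sR L K₁ K₂).av b (fun σ => (tr' D (Y σ) * tr δ (X σ)) * M₂ σ) τ +
      (sR L K₁ K₂).av b (fun σ => (tr' D (Y σ) * tr δ (X σ)) * S₂ σ) τ -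
      (sR L K₁ K₂).av b (fun σ => (tr D (Y σ) * tr' δ (X σ)) * M₁ σ) τ -
      (sR L K₁ K₂).av b (fun σ => (tr D (Y σ) * tr' δ (X σ)) * S₃ σ) τ -
      (sR L K₁ K₂).av b (fun σ => tr D (Y σ) * Y σ) τ := by
    rw [← av_sub (by fun_prop) (by fun_prop), ← av_add (by fun_prop) (by fun_prop),
      ← av_sub (by fun_prop) (by fun_prop), ← av_sub (by fun_prop) (by fun_prop),
      ← av_sub (by fun_prop) (by fun_prop)]
    congr 1; funext σ; ring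
  rw [e2] at i2
  rw [e1] at i1
  linarith

lemma strip_ineq (t : TF L K₁ K₂ h) (hS : Stiff β L ν) (hb : Cpl β b) (hβ : 0 < β) (hν : 0 ≤ ν)
    (hL : 1 ≤ L) (hK₁ : 1 ≤ K₁) (hK₂ : 1 ≤ K₂) {ε s δ₀ ρ ρ' : ℝ} (hε : 0 < ε) (hs : 0 < s)
    (hδ₀ : 0 < δ₀) (hρ : 0 < ρ) (hρ' : 0 < ρ') (hρK : 1 ≤ ρ ^ 2 * K₁)
    (hρK' : 1 ≤ ρ' ^ 2 * (K₁ * K₂))
    (hM : (ν - ε) * (K₁ * K₂ * (L : ℝ) ^ 2) ≤
      (sR L K₁ K₂).M b (T 1) (T 1) (ed 0) (ed 0) τ) :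
    ν / 40 ≤ s * (2 * β + 8 * √β * β) + ρ * (16 * β) +
      ((1 + 1 / s) * 104 * β * K₁ ^ 2 + 400 * √β * β * (K₁ * K₂) / s) / (h : ℝ) ^ 2 +
      ρ' * (64 * √β * Cb β * K₁ ^ 3 * (K₂ / h)) +
      δ₀ * ((K₁ * K₂) * (52 * β + 12 * Cb β)) +
      ε * (Real.exp (2 * β * (2 * K₁ * K₂)) * (1 + s + 8 * √β * (K₁ * K₂)) +
        2 * √β / (δ₀ ^ 2 * s) + 2 * √β * s) := by
  have hT := tiling_zero L K₁ K₂
  have hL' : (1 : ℝ) ≤ L := by exact_mod_cast hL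
  have hK₁' : (1 : ℝ) ≤ K₁ := by exact_mod_cast hK₁
  have hK₂' : (1 : ℝ) ≤ K₂ := by exact_mod_cast hK₂
  have hN : (1 : ℝ) ≤ K₁ * K₂ := one_le_mul_of_one_le_of_one_le hK₁' hK₂'
  have hCb : 0 ≤ Cb β := by unfold Cb; positivity
  obtain ⟨a, ha, ha2⟩ : ∃ a : ℝ, 0 < a ∧ a ^ 2 = K₁ * K₂ * (L : ℝ) ^ 2 :=
    ⟨√(K₁ * K₂ * (L : ℝ) ^ 2), Real.sqrt_pos.2 (by positivity), Real.sq_sqrt (by positivity)⟩
  set B := √β with hBdef
  have hB : 0 < B := Real.sqrt_pos.2 hβ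
  have hB2 : B ^ 2 = β := Real.sq_sqrt hβ.le
  set κ := Real.exp (2 * β * (2 * K₁ * K₂)) with hκ
  have hκ0 : 0 < κ := Real.exp_pos _
  set X : Cfg → ℝ := fun σ => SS (sS K₁ K₂) (sU L) b (T 1) (ed 0) σ -
    (sR L K₁ K₂).S b (T 1) (ed 0) τ with hX
  set Y := SS (sS K₁ K₂) (sU L) b (T 2) (grad t.ψ) with hY
  have cX : Continuous X := by rw [hX]; fun_prop
  have cY : Continuous Y := by rw [hY]; fun_prop
  have iX : ∀ i ∈ sS K₁ K₂, Indep (sU L i).I X := fun i hi =>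
    (hT.indep_SS _ _ hi).comp (fun x => x - (sR L K₁ K₂).S b (T 1) (ed 0) τ)
  have iY : ∀ i ∈ sS K₁ K₂, Indep (sU L i).I Y := fun i hi => hT.indep_SS _ _ hi
  -- near equality in the law of total variance
  have hN0 : ∀ (ij : ℕ × ℕ) (k : Fin 3), 0 ≤ (sR L K₁ K₂).av b (Nk ν L (sU L ij) b k) τ :=
    fun ij k => av_nonneg fun σ => hS.Nk_nonneg hb _ k σ
  have hX0 : 0 ≤ (sR L K₁ K₂).av b (fun σ => X σ ^ 2) τ := av_nonneg fun σ => sq_nonneg _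
  have htot : ∑ ij ∈ sS K₁ K₂, (sR L K₁ K₂).av b (Nk ν L (sU L ij) b 1) τ +
      (sR L K₁ K₂).av b (fun σ => X σ ^ 2) τ ≤ ε * a ^ 2 := by
    have h1 := hT.M_eq (b := b) (A := T 1) (α := ed 0) τ
    have h2 : ∀ ij ∈ sS K₁ K₂, (sR L K₁ K₂).av b (Nk ν L (sU L ij) b 1) τ = ν * (L : ℝ) ^ 2 -
        (sR L K₁ K₂).av b ((sU L ij).M b (T 1) (T 1) (ed 0) (ed 0)) τ := by
      intro ij _
      rw [← av_const (R := sR L K₁ K₂) (b := b) (τ := τ) (ν * (L : ℝ) ^ 2),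
        ← av_sub (by fun_prop) (by fun_prop)]
      rfl
    rw [sum_congr rfl h2, sum_sub_distrib, sum_const, card_product, card_range, card_range,
      nsmul_eq_mul, ha2]
    push_cast
    change (sR L K₁ K₂).M b (T 1) (T 1) (ed 0) (ed 0) τ = _ -
      (sR L K₁ K₂).av b (fun σ => X σ ^ 2) τ at h1
    linarith
  have hN1 : ∑ ij ∈ sS K₁ K₂, (sR L K₁ K₂).av b (Nk ν L (sU L ij) b 1) τ ≤ ε * a ^ 2 := by
    linarith
  have hX2 : (sR L K₁ K₂).av b (fun σ => X σ ^ 2) τ ≤ ε * a ^ 2 := by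
    linarith [sum_nonneg (s := sS K₁ K₂) fun ij _ => hN0 ij 1]
  have hNk : ∀ k, ∑ ij ∈ t.int, (sR L K₁ K₂).av b (Nk ν L (sU L ij) b k) τ ≤ κ * (ε * a ^ 2) := by
    intro k
    refine (transfer hS hb (sR L K₁ K₂) t.int (cor L) t.sΘ t.Θ1 t.nΘ k τ).trans ?_
    refine mul_le_mul_of_nonneg_left (le_trans ?_ hN1) hκ0.le
    exact sum_le_sum_of_subset_of_nonneg t.int_sub fun ij _ _ => hN0 ij 1
  have hY2 : (sR L K₁ K₂).av b (fun σ => Y σ ^ 2) τ ≤ 2 * β * a ^ 2 := by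
    refine (hT.av_sumS_sq (k := 2) hb t.sψ τ).trans ?_
    have := mul_le_mul_of_nonneg_left t.nψ hβ.le
    rw [ha2]; linarith
  -- the truncation levels
  have hD : 0 < 2 * B * a := by positivity
  have hδ : 0 < δ₀ * a := by positivity
  have hW2 : 1 / 2 ≤ (sR L K₁ K₂).av b (fun σ => tr' (2 * B * a) (Y σ)) τ := by
    have h1 : (sR L K₁ K₂).av b (fun σ => 1 - 1 / (2 * B * a) ^ 2 * Y σ ^ 2) τ ≤
        (sR L K₁ K₂).av b (fun σ => tr' (2 * B * a) (Y σ)) τ := by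
      refine av_mono (by fun_prop) (by fun_prop) fun σ => ?_
      have := one_sub_tr'_le (2 * B * a) (Y σ)
      rw [div_pow] at this
      have h2 : Y σ ^ 2 / (2 * B * a) ^ 2 = 1 / (2 * B * a) ^ 2 * Y σ ^ 2 := by ring
      linarith
    rw [av_sub (by fun_prop) (by fun_prop), av_const, av_const_mul] at h1
    have h3 := mul_le_mul_of_nonneg_left hY2 (show 0 ≤ 1 / (2 * B * a) ^ 2 by positivity)
    have h4 : 1 / (2 * B * a) ^ 2 * (2 * β * a ^ 2) = 1 / 2 := by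
      rw [← hB2]; field_simp
    linarith
  have low := lower_MM t hS hb hν (W := fun σ => tr' (2 * B * a) (Y σ)) (by fun_prop)
    (fun σ => tr'_nonneg _ _) (fun σ => tr'_le_one _ _) hW2 (hNk 2) hs
  have ibp := strip_ibp (b := b) (τ := τ) t hD hδ _ hX hY rfl rfl rfl rfl rfl
  have bφη : ∀ σ, |tr (2 * B * a) (Y σ) * tr (δ₀ * a) (X σ)| ≤
      2 * (2 * B * a) * (2 * (δ₀ * a)) := fun σ => by
    rw [abs_mul]
    exact mul_le_mul (abs_tr_le hD _) (abs_tr_le hδ _) (abs_nonneg _) (by positivity)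
  have bφ'η : ∀ σ, |tr' (2 * B * a) (Y σ) * tr (δ₀ * a) (X σ)| ≤ 2 * (δ₀ * a) := fun σ => by
    rw [abs_mul]
    exact (mul_le_of_le_one_left (abs_nonneg _) (abs_tr'_le _ _)).trans (abs_tr_le hδ _)
  have bφη' : ∀ σ, |tr (2 * B * a) (Y σ) * tr' (δ₀ * a) (X σ)| ≤ 2 * (2 * B * a) := fun σ => by
    rw [abs_mul]
    exact (mul_le_of_le_one_right (abs_nonneg _) (abs_tr'_le _ _)).trans (abs_tr_le hD _)
  -- the six terms
  have t1 : (sR L K₁ K₂).av b (fun σ => tr (2 * B * a) (Y σ) *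
      ((1 - tr' (δ₀ * a) (X σ)) * Y σ)) τ ≤
      a ^ 2 * (s * (4 * B * β) + ε * (2 * B / (δ₀ ^ 2 * s))) := by
    have h1 : (sR L K₁ K₂).av b (fun σ => |(1 - tr' (δ₀ * a) (X σ)) * Y σ|) τ ≤
        (sR L K₁ K₂).av b (fun σ => s / (2 * a) * Y σ ^ 2 +
          1 / (2 * s * δ₀ ^ 2 * a) * X σ ^ 2) τ := by
      refine av_mono (by fun_prop) (by fun_prop) fun σ => ?_
      have h2 := one_sub_tr'_sq_le (δ₀ * a) (X σ)
      have h3 : 1 / (2 * s * δ₀ ^ 2 * a) * X σ ^ 2 = a / (2 * s) * (X σ / (δ₀ * a)) ^ 2 := by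
        field_simp
      rw [h3, abs_mul, ← sq_abs (Y σ)]
      rw [← sq_abs (1 - tr' (δ₀ * a) (X σ))] at h2
      have h4 := mul_le_mul_of_nonneg_left h2 (show 0 ≤ a / (2 * s) by positivity)
      generalize |1 - tr' (δ₀ * a) (X σ)| = x at *
      generalize |Y σ| = y at *
      have h5 : s / (2 * a) * y ^ 2 + a / (2 * s) * x ^ 2 - x * y =
          (s * y - a * x) ^ 2 / (2 * a * s) := by field_simp; ring
      have h6 : 0 ≤ (s * y - a * x) ^ 2 / (2 * a * s) := by positivity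
      linarith
    rw [av_add (by fun_prop) (by fun_prop), av_const_mul, av_const_mul] at h1
    have h7 := mul_le_mul_of_nonneg_left hY2 (show 0 ≤ s / (2 * a) by positivity)
    have h8 := mul_le_mul_of_nonneg_left hX2 (show 0 ≤ 1 / (2 * s * δ₀ ^ 2 * a) by positivity)
    refine (le_abs_self _).trans ((abs_av_mul_le (by fun_prop) (by fun_prop)
      (fun σ => abs_tr_le hD (Y σ))).trans ?_)
    refine (mul_le_mul_of_nonneg_left (h1.trans (add_le_add h7 h8)) (by positivity)).trans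
      (le_of_eq ?_)
    field_simp
    ring
  have t2 : |(sR L K₁ K₂).av b (fun σ => (tr' (2 * B * a) (Y σ) * tr (δ₀ * a) (X σ)) *
      MM (sS K₁ K₂) (sU L) b (T 2) (T 0) (grad t.ψ) (grad t.χ) σ) τ| ≤
      a ^ 2 * (δ₀ * ((K₁ * K₂) * (14 * β))) := by
    refine (abs_av_mul_le (by fun_prop) (by fun_prop) bφ'η).trans ?_
    have h1 := hT.av_abs_MM (τ := τ) hb 2 0 t.sψ t.sχ (show 0 < 1 / a by positivity)
    have h2 : 1 / a * (β * nrm (sR L K₁ K₂).E (grad t.ψ)) ≤ 1 / a * (β * (2 * a ^ 2)) := by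
      rw [ha2]
      exact mul_le_mul_of_nonneg_left (mul_le_mul_of_nonneg_left t.nψ hβ.le) (by positivity)
    have h3 : β * nrm (sR L K₁ K₂).E (grad t.χ) / (1 / a) ≤ β * (5 * K₁ * K₂) / (1 / a) :=
      div_le_div_of_nonneg_right (mul_le_mul_of_nonneg_left t.nχ hβ.le) (by positivity)
    have h4 : 1 / a * (β * (2 * a ^ 2)) + β * (5 * K₁ * K₂) / (1 / a) ≤
        a * β * (7 * (K₁ * K₂)) := by
      have : 1 / a * (β * (2 * a ^ 2)) + β * (5 * K₁ * K₂) / (1 / a) =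
          a * β * (2 + 5 * (K₁ * K₂)) := by field_simp
      rw [this]
      exact mul_le_mul_of_nonneg_left (by linarith) (by positivity)
    refine (mul_le_mul_of_nonneg_left (h1.trans ((add_le_add h2 h3).trans h4))
      (by positivity)).trans (le_of_eq (by ring))
  have t3 : |(sR L K₁ K₂).av b (fun σ => (tr' (2 * B * a) (Y σ) * tr (δ₀ * a) (X σ)) *
      SS (sS K₁ K₂) (sU L) b (T 1) (fun e => grad t.ψ e * mid t.χ e) σ) τ| ≤
      a ^ 2 * (δ₀ * ((K₁ * K₂) * (14 * β + 12 * Cb β))) := by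
    refine (hT.abs_av_SS (by fun_prop) (fun i hi => (iY i hi).comp₂ (iX i hi)
      (fun y x => tr' (2 * B * a) y * tr (δ₀ * a) x)) bφ'η _ _).trans ?_
    refine (mul_le_mul_of_nonneg_left (av_abs_J_mid t hb hN ha ha2) (by positivity)).trans
      (le_of_eq (by ring))
  have t4 : |(sR L K₁ K₂).av b (fun σ => (tr (2 * B * a) (Y σ) * tr (δ₀ * a) (X σ)) *
      J (sR L K₁ K₂).E b (T 0) (grad t.χ) σ) τ| ≤ a ^ 2 * (δ₀ * ((K₁ * K₂) * (24 * β))) := by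
    refine (abs_av_mul_le (by fun_prop) (by fun_prop) bφη).trans ?_
    have h1 := Blk.av_abs_J (U := sR L K₁ K₂) (k := 0) hb t.sχ (W := 3 * (K₁ * K₂))
      (by positivity) (t.nχ.trans (by nlinarith)) τ
    refine (mul_le_mul_of_nonneg_left h1 (by positivity)).trans (le_of_eq ?_)
    rw [← hBdef, ← hB2]; ring
  have haL : a ≤ K₁ * K₂ * L := by
    refine abs_le_of_sq_le_sq' ?_ (by positivity) |>.2
    rw [ha2, mul_pow]
    exact mul_le_mul_of_nonneg_right (by nlinarith) (by positivity)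
  have t5 : |(sR L K₁ K₂).av b (fun σ => (tr (2 * B * a) (Y σ) * tr' (δ₀ * a) (X σ)) *
      MM (sS K₁ K₂) (sU L) b (T 1) (T 0) (ed 0) (grad t.χ) σ) τ| ≤
      a ^ 2 * (ε * (κ * (8 * B * (K₁ * K₂))) + s * (4 * B * β) + ε * (2 * B * s) +
        400 * B * β * (K₁ * K₂) / s / (h : ℝ) ^ 2) := by
    refine (abs_av_mul_le (by fun_prop) (by fun_prop) bφη').trans ?_
    have h1 := av_abs_M1 t hS hb hν (hNk 0) (hNk 1) hN1 (show 0 < s / a by positivity)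
    have h2 : 2 / (L : ℝ) * (κ * (ε * a ^ 2)) ≤ 2 * κ * ε * a * (K₁ * K₂) := by
      have h3 : a / L ≤ K₁ * K₂ := by rwa [div_le_iff₀ (by positivity)]
      calc _ = 2 * κ * ε * a * (a / L) := by ring
        _ ≤ _ := mul_le_mul_of_nonneg_left h3 (by positivity)
    rw [← ha2] at h1
    refine (mul_le_mul_of_nonneg_left (h1.trans (add_le_add_left (add_le_add_left h2 _) _))
      (by positivity)).trans (le_of_eq ?_)
    field_simp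
    ring
  have hLa : (L : ℝ) ≤ ρ' * a := by
    refine abs_le_of_sq_le_sq' ?_ (by positivity) |>.2
    rw [mul_pow, ha2, ← mul_assoc]
    exact le_mul_of_one_le_left (by positivity) hρK'
  have t6 : |(sR L K₁ K₂).av b (fun σ => (tr (2 * B * a) (Y σ) * tr' (δ₀ * a) (X σ)) *
      SS (sS K₁ K₂) (sU L) b (T 2) (fun e => ed 0 e * mid t.χ e - grad t.ψ e) σ) τ| ≤
      a ^ 2 * (ρ * (16 * β) + ρ' * (64 * B * Cb β * K₁ ^ 3 * (K₂ / h))) := by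
    refine (hT.abs_av_SS (by fun_prop) (fun i hi => (iY i hi).comp₂ (iX i hi)
      (fun y x => tr (2 * B * a) y * tr' (δ₀ * a) x)) bφη' _ _).trans ?_
    have h1 := av_abs_J_rest (τ := τ) t hb (W := 4 * ρ * a) (by positivity) (by
      rw [mul_pow, ha2]
      have := mul_le_mul_of_nonneg_right hρK (show 0 ≤ 16 * (K₂ * (L : ℝ) ^ 2) by positivity)
      linarith)
    have h2 : K₂ * (Cb β * (2 * (K₁ : ℝ) ^ 2 * L) * (8 * K₁ / (h : ℝ))) ≤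
        K₂ * (Cb β * (2 * (K₁ : ℝ) ^ 2 * (ρ' * a)) * (8 * K₁ / (h : ℝ))) := by gcongr
    refine (mul_le_mul_of_nonneg_left (h1.trans (add_le_add_right h2 _)) (by positivity)).trans
      (le_of_eq ?_)
    rw [← hBdef, ← hB2]; ring
  have e1 : (K₂ : ℝ) * (2 * β * (52 * (K₁ : ℝ) ^ 3 * (L : ℝ) ^ 2 / (h : ℝ) ^ 2)) =
      a ^ 2 * (104 * β * K₁ ^ 2 / (h : ℝ) ^ 2) := by rw [ha2]; ring
  rw [e1, ← ha2] at low
  refine le_of_mul_le_mul_left ?_ (show 0 < a ^ 2 by positivity)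
  have u2 := (abs_le.1 t2).1
  have u3 := (abs_le.1 t3).2
  have u4 := (abs_le.1 t4).2
  have u5 := (abs_le.1 t5).1
  have u6 := (abs_le.1 t6).1
  have fin := low.trans (ibp.le.trans (sub_le_sub (sub_le_sub (add_le_add (add_le_add
    (sub_le_sub t1 u2) u3) u4) u5) u6))
  rw [← sub_nonneg] at fin ⊢
  refine fin.trans (le_of_eq ?_)
  ring

end main

theorem strip {β ν₀ : ℝ} (hβ : 0 < β) (hν₀ : 0 < ν₀) : ∃ (K₁ K₂ : ℕ) (c : ℝ), 1 ≤ K₁ ∧ 1 ≤ K₂ ∧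
    0 < c ∧ ∀ (L : ℕ) (ν : ℝ), 1 ≤ L → ν₀ ≤ ν → Stiff β L ν → ∀ b, Cpl β b → ∀ τ,
      (rect 0 (K₁ * L) (K₂ * L)).M b (T 1) (T 1) (ed 0) (ed 0) τ ≤
        (ν - c) * (K₁ * K₂ * (L : ℝ) ^ 2) := by
  have hg : 0 < ν₀ / 400 := by positivity
  have hCb : 0 ≤ Cb β := by unfold Cb; positivity
  obtain ⟨s, hs, hs'⟩ := exists_small (c := 2 * β + 8 * √β * β) (by positivity) hg
  obtain ⟨ρ, hρ, hρ1⟩ := exists_small (c := 16 * β) (by positivity) hg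
  obtain ⟨m₀, hm₀⟩ := exists_nat_ge (1 / ρ ^ 2)
  obtain ⟨K₁, m, hK₁, hm, hm'⟩ : ∃ K₁ m : ℕ, K₁ = 2 * m + 3 ∧ 1 ≤ m ∧ m₀ ≤ K₁ :=
    ⟨_, m₀ + 1, rfl, by omega, by omega⟩
  have hρK : 1 ≤ ρ ^ 2 * K₁ := by
    have : (m₀ : ℝ) ≤ K₁ := by exact_mod_cast hm'
    rw [div_le_iff₀ (by positivity)] at hm₀
    nlinarith [sq_nonneg ρ]
  obtain ⟨ρ', hρ', hρ'1⟩ := exists_small (c := 64 * √β * Cb β * K₁ ^ 3 * 7) (by positivity) hg
  obtain ⟨h₁, hh₁⟩ := exists_nat_ge (1 / ρ' ^ 2)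
  obtain ⟨h₂, hh₂⟩ := exists_nat_ge
    (((1 + 1 / s) * 104 * β * K₁ ^ 2 + 400 * √β * β * (K₁ * 7) / s) / (ν₀ / 400))
  obtain ⟨h, K₂, hK₂, hh, hh₁', hh₂'⟩ : ∃ h K₂ : ℕ, K₂ = 3 * h + 4 ∧ K₁ ≤ h ∧ h₁ ≤ h ∧ h₂ ≤ h :=
    ⟨K₁ + h₁ + h₂, _, rfl, by omega, by omega, by omega⟩
  have hK₁1 : (1 : ℝ) ≤ K₁ := by exact_mod_cast (by omega : 1 ≤ K₁)
  have hh1 : (1 : ℝ) ≤ h := by exact_mod_cast (by omega : 1 ≤ h)
  have hK₂h : (K₂ : ℝ) ≤ 7 * h := by exact_mod_cast (by omega : K₂ ≤ 7 * h)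
  have hK₂h' : (h : ℝ) ≤ K₂ := by exact_mod_cast (by omega : h ≤ K₂)
  have hρK' : 1 ≤ ρ' ^ 2 * (K₁ * K₂) := by
    have h1 : (h₁ : ℝ) ≤ h := by exact_mod_cast hh₁'
    have h2 : (h₁ : ℝ) ≤ K₁ * K₂ := by nlinarith
    rw [div_le_iff₀ (by positivity)] at hh₁
    nlinarith [sq_nonneg ρ']
  obtain ⟨δ₀, hδ₀, hδ₀'⟩ := exists_small (c := (K₁ * K₂) * (52 * β + 12 * Cb β))
    (by positivity) hg
  obtain ⟨ε, hε, hε'⟩ := exists_small (c := Real.exp (2 * β * (2 * K₁ * K₂)) *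
    (1 + s + 8 * √β * (K₁ * K₂)) + 2 * √β / (δ₀ ^ 2 * s) + 2 * √β * s) (by positivity) hg
  refine ⟨K₁, K₂, ε, by omega, by omega, hε, fun L ν hL hν hS b hb τ => ?_⟩
  by_contra hlt
  obtain ⟨t⟩ := exists_TF hL hm (hK₁ ▸ hh)
  rw [← hK₁, ← hK₂] at t
  have key := strip_ineq (τ := τ) t hS hb hβ (hν₀.le.trans hν) hL (by omega) (by omega) hε hs hδ₀
    hρ hρ' hρK hρK' (not_le.1 hlt).le
  have h3 : ρ' * (64 * √β * Cb β * K₁ ^ 3 * (K₂ / h)) ≤ ρ' * (64 * √β * Cb β * K₁ ^ 3 * 7) := by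
    have : (K₂ : ℝ) / h ≤ 7 := by rwa [div_le_iff₀ (by positivity)]
    gcongr
  have h4 : ((1 + 1 / s) * 104 * β * K₁ ^ 2 + 400 * √β * β * (K₁ * K₂) / s) / (h : ℝ) ^ 2 ≤
      ν₀ / 400 := by
    have h5 : (h₂ : ℝ) ≤ h := by exact_mod_cast hh₂'
    have h6 := hh₂.trans h5
    rw [div_le_iff₀ hg] at h6
    rw [div_le_iff₀ (by positivity)]
    have h7 : (1 + 1 / s) * 104 * β * K₁ ^ 2 ≤ ((1 + 1 / s) * 104 * β * K₁ ^ 2) * h :=
      le_mul_of_one_le_right (by positivity) hh1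
    have h8 : 400 * √β * β * (K₁ * K₂) / s ≤ 400 * √β * β * (K₁ * (7 * h)) / s := by gcongr
    have h9 := mul_le_mul_of_nonneg_right h6 (show (0 : ℝ) ≤ h by positivity)
    have h10 : 400 * √β * β * (K₁ * (7 * h)) / s = 400 * √β * β * (K₁ * 7) / s * h := by ring
    nlinarith
  linarith

theorem exists_stiff {β ν₀ : ℝ} (hβ : 0 < β) (hν₀ : 0 < ν₀) : ∃ L : ℕ, 1 ≤ L ∧ Stiff β L ν₀ := by
  obtain ⟨K₁, K₂, c, h1, h2, hc, h⟩ := strip hβ hν₀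
  have key : ∀ n : ℕ, ∃ L : ℕ, 1 ≤ L ∧ (Stiff β L ν₀ ∨ Stiff β L (β - n * c)) := by
    intro n
    induction n with
    | zero => exact ⟨1, le_rfl, Or.inr (by simpa using stiff_one β)⟩
    | succ n ih =>
      obtain ⟨L, hL, hS | hS⟩ := ih
      · exact ⟨L, hL, Or.inl hS⟩
      · rcases le_total ν₀ (β - n * c) with h3 | h3
        · refine ⟨K₁ * K₂ * L, Nat.mul_pos (Nat.mul_pos h1 h2) hL, Or.inr ?_⟩
          have := stiff_of_strip (h L _ hL h3 hS)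
          convert this using 1
          push_cast
          ring
        · exact ⟨L, hL, Or.inl (hS.mono h3)⟩
  obtain ⟨n, hn⟩ := exists_nat_ge (β / c)
  obtain ⟨L, hL, hS | hS⟩ := key n
  · exact ⟨L, hL, hS⟩
  · refine ⟨L, hL, hS.mono ?_⟩
    rw [div_le_iff₀ hc] at hn
    linarith

end Crest.Agent.R167
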