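import Crest.Agent.R167.Test

/-!
# R167 / StripA: generic lemmas for the strip estimate
-/

set_option autoImplicit false

namespace Crest.Agent.R167

open Finset

attribute [fun_prop] continuous_J Blk.continuous_S Blk.continuous_M Blk.continuous_PP continuous_Nk

section av

variable {R : Blk} {b : Edge → ℝ} {F G : Cfg → ℝ} {τ : Cfg}

lemma av_add (hF : Continuous F) (hG : Continuous G) :
    R.av b (fun σ => F σ + G σ) τ = R.av b F τ + R.av b G τ := gE_add continuous_Ham hF hG τ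
lemma av_sub (hF : Continuous F) (hG : Continuous G) :
    R.av b (fun σ => F σ - G σ) τ = R.av b F τ - R.av b G τ := gE_sub continuous_Ham hF hG τ
lemma av_const_mul (c : ℝ) : R.av b (fun σ => c * F σ) τ = c * R.av b F τ := gE_const_mul c τ
lemma av_const (c : ℝ) : R.av b (fun _ => c) τ = c := gE_const continuous_Ham c τ
lemma av_sum {κ : Type*} (s : Finset κ) (Fs : κ → Cfg → ℝ) (h : ∀ i ∈ s, Continuous (Fs i)) :
    R.av b (fun σ => ∑ i ∈ s, Fs i σ) τ = ∑ i ∈ s, R.av b (Fs i) τ :=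
  gE_sum continuous_Ham s Fs h τ
lemma av_mono (hF : Continuous F) (hG : Continuous G) (h : ∀ σ, F σ ≤ G σ) :
    R.av b F τ ≤ R.av b G τ := gE_mono continuous_Ham hF hG h τ
lemma av_nonneg (h : ∀ σ, 0 ≤ F σ) : 0 ≤ R.av b F τ := gE_nonneg h τ
lemma abs_av_le (hF : Continuous F) (hG : Continuous G) (h : ∀ σ, |F σ| ≤ G σ) :
    |R.av b F τ| ≤ R.av b G τ := abs_gE_le continuous_Ham hF hG h τ
lemma abs_av_mul_le (hF : Continuous F) (hG : Continuous G) {c : ℝ} (h : ∀ σ, |G σ| ≤ c) :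
    |R.av b (fun σ => G σ * F σ) τ| ≤ c * R.av b (fun σ => |F σ|) τ := by
  rw [← av_const_mul]
  refine abs_av_le (by fun_prop) (by fun_prop) fun σ => ?_
  rw [abs_mul]
  exact mul_le_mul_of_nonneg_right (h σ) (abs_nonneg _)

end av

/-! ### the truncation -/

noncomputable def tr (c x : ℝ) : ℝ := c * Real.arctan (x / c)
noncomputable def tr' (c x : ℝ) : ℝ := 1 / (1 + (x / c) ^ 2)

lemma hasDerivAt_tr {c : ℝ} (hc : 0 < c) (x : ℝ) : HasDerivAt (tr c) (tr' c x) x := by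
  have h1 : HasDerivAt (fun x => x / c) (1 / c) x := (hasDerivAt_id x).div_const c
  have h2 := ((Real.hasDerivAt_arctan (x / c)).comp x h1).const_mul c
  have h3 : tr' c x = c * (1 / (1 + (x / c) ^ 2) * (1 / c)) := by
    unfold tr'
    field_simp
  rw [h3]
  exact h2

@[fun_prop] lemma continuous_tr (c : ℝ) : Continuous (tr c) := by
  unfold tr
  exact continuous_const.mul (Real.continuous_arctan.comp (continuous_id.div_const c))

@[fun_prop] lemma continuous_tr' (c : ℝ) : Continuous (tr' c) := by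
  unfold tr'
  refine continuous_const.div (by fun_prop) fun x => ?_
  positivity

lemma abs_tr_le {c : ℝ} (hc : 0 < c) (x : ℝ) : |tr c x| ≤ 2 * c := by
  unfold tr
  rw [abs_mul, abs_of_pos hc, mul_comm]
  refine mul_le_mul_of_nonneg_right (abs_le.2 ⟨?_, ?_⟩) hc.le
  · linarith [Real.neg_pi_div_two_lt_arctan (x / c), Real.pi_le_four]
  · linarith [Real.arctan_lt_pi_div_two (x / c), Real.pi_le_four]

lemma tr'_nonneg (c x : ℝ) : 0 ≤ tr' c x := by unfold tr'; positivity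

lemma tr'_le_one (c x : ℝ) : tr' c x ≤ 1 := by
  unfold tr'
  rw [div_le_one (by positivity)]
  nlinarith [sq_nonneg (x / c)]

lemma abs_tr'_le (c x : ℝ) : |tr' c x| ≤ 1 := by
  rw [abs_of_nonneg (tr'_nonneg c x)]; exact tr'_le_one c x

lemma one_sub_tr'_le (c x : ℝ) : 1 - tr' c x ≤ (x / c) ^ 2 := by
  unfold tr'
  have h : 0 ≤ (x / c) ^ 2 := sq_nonneg _
  generalize (x / c) ^ 2 = y at h
  rw [sub_le_iff_le_add, ← sub_le_iff_le_add', le_div_iff₀ (by positivity)]
  nlinarith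

lemma one_sub_tr'_sq_le (c x : ℝ) : (1 - tr' c x) ^ 2 ≤ (x / c) ^ 2 := by
  have h1 := one_sub_tr'_le c x
  have h2 := tr'_nonneg c x
  have h3 := tr'_le_one c x
  nlinarith

/-! ### sums over a tiling -/

section tiling

variable {κ : Type} (s : Finset κ) (U : κ → Blk) (b : Edge → ℝ)

/-- coarse current -/
noncomputable def SS (A : Mat) (α : Edge → ℝ) (σ : Cfg) : ℝ := ∑ i ∈ s, (U i).S b A α σ

/-- coarse Hessian -/
noncomputable def MM (A B : Mat) (α α' : Edge → ℝ) (σ : Cfg) : ℝ :=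
  ∑ i ∈ s, (U i).M b A B α α' σ

@[fun_prop] lemma continuous_SS (A : Mat) (α : Edge → ℝ) : Continuous (SS s U b A α) := by
  unfold SS; fun_prop

@[fun_prop] lemma continuous_MM (A B : Mat) (α α' : Edge → ℝ) :
    Continuous (MM s U b A B α α') := by
  unfold MM; fun_prop

lemma hasL_SS (k : Fin 3) (f : Site → ℝ) (A : Mat) (α : Edge → ℝ) :
    HasL k f (SS s U b A α) (fun σ => -MM s U b A (T k) α (grad f) σ +
      SS s U b (A * T k - T k * A) (fun e => α e * mid f e) σ) := by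
  refine (hasL_sum s _ _ (fun i _ => hasL_S (U := U i) (b := b) (A := A) (α := α))).congr
    (fun σ => rfl) (fun σ => ?_)
  simp only [MM, SS, sum_add_distrib, sum_neg_distrib]

lemma SS_mat_neg (A : Mat) (α : Edge → ℝ) (σ : Cfg) : SS s U b (-A) α σ = -SS s U b A α σ := by
  simp only [SS, Blk.S_mat_neg, sum_neg_distrib]

lemma SS_mat_zero (α : Edge → ℝ) (σ : Cfg) : SS s U b 0 α σ = 0 := by
  simp only [SS, Blk.S_mat_zero, sum_const_zero]

lemma SS_sub (A : Mat) (α α' : Edge → ℝ) (σ : Cfg) :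
    SS s U b A (fun e => α e - α' e) σ = SS s U b A α σ - SS s U b A α' σ := by
  simp only [SS, Blk.S_sub, sum_sub_distrib]

variable {s U b} {R : Blk} {β : ℝ} {τ : Cfg}

lemma Tiling.indep_SS (hT : Tiling R s U) (A : Mat) (α : Edge → ℝ) {i : κ} (hi : i ∈ s) :
    Indep (U i).I (SS s U b A α) := hT.indep_sumS hi

lemma Tiling.abs_av_SS (hT : Tiling R s U) {G : Cfg → ℝ} (hG : Continuous G)
    (hi : ∀ i ∈ s, Indep (U i).I G) {c : ℝ} (h : ∀ σ, |G σ| ≤ c) (A : Mat) (α : Edge → ℝ) :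
    |R.av b (fun σ => G σ * SS s U b A α σ) τ| ≤ c * R.av b (fun σ => |J R.E b A α σ|) τ := by
  have := hT.av_mul_S (b := b) (A := A) (α := α) hG hi τ
  unfold SS
  rw [this]
  exact abs_av_mul_le continuous_J hG h

lemma Tiling.av_abs_MM (hT : Tiling R s U) (hb : Cpl β b) (k l : Fin 3) {f f' : Site → ℝ}
    (hf : Supp R.I f) (hf' : Supp R.I f') {t : ℝ} (ht : 0 < t) :
    R.av b (fun σ => |MM s U b (T k) (T l) (grad f) (grad f') σ|) τ ≤
      t * (β * nrm R.E (grad f)) + β * nrm R.E (grad f') / t := by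
  have h1 := hT.sum_PP (k := k) hb hf τ
  have h2 := hT.sum_PP (k := l) hb hf' τ
  have h3 : R.av b (fun σ => |MM s U b (T k) (T l) (grad f) (grad f') σ|) τ ≤
      R.av b (fun σ => t / 2 * ∑ i ∈ s, (U i).PP β b k (grad f) σ +
        1 / (2 * t) * ∑ i ∈ s, (U i).PP β b l (grad f') σ) τ := by
    refine av_mono (by fun_prop) (by fun_prop) fun σ => ?_
    refine (abs_sum_le_sum_abs _ _).trans ?_
    rw [mul_sum, mul_sum, ← sum_add_distrib]
    refine sum_le_sum fun i _ => (Blk.abs_M_le hb ht σ).trans (le_of_eq ?_)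
    field_simp
  rw [av_add (by fun_prop) (by fun_prop), av_const_mul, av_const_mul,
    av_sum _ _ (fun _ _ => by fun_prop), av_sum _ _ (fun _ _ => by fun_prop)] at h3
  refine h3.trans ?_
  have h4 := mul_le_mul_of_nonneg_left h1 (show 0 ≤ t / 2 by positivity)
  have h5 := mul_le_mul_of_nonneg_left h2 (show 0 ≤ 1 / (2 * t) by positivity)
  refine (add_le_add h4 h5).trans (le_of_eq ?_)
  field_simp

lemma Cpl.nonneg (hb : Cpl β b) : 0 ≤ β := (hb ((0, 0), 0)).1.trans (hb ((0, 0), 0)).2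

/-- test functions chosen row by row -/
lemma Tiling.sum_PP_row {K₁ K₂ : ℕ} {U : ℕ × ℕ → Blk} (hT : Tiling R (range K₁ ×ˢ range K₂) U)
    (hb : Cpl β b) (k : Fin 3) {r : ℕ → Site → ℝ} (hr : ∀ j, Supp R.I (r j)) {n : ℝ}
    (hn : ∀ j, nrm R.E (grad (r j)) ≤ n) :
    ∑ ij ∈ range K₁ ×ˢ range K₂, R.av b ((U ij).PP β b k (grad (r ij.2))) τ ≤
      K₂ * (2 * β * n) := by
  have hβ := hb.nonneg
  calc _ ≤ ∑ ij ∈ range K₁ ×ˢ range K₂, ∑ j ∈ range K₂,
          R.av b ((U ij).PP β b k (grad (r j))) τ := by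
        refine sum_le_sum fun ij hij => ?_
        exact single_le_sum (f := fun j => R.av b ((U ij).PP β b k (grad (r j))) τ)
          (fun j _ => av_nonneg fun σ => Blk.PP_nonneg hβ σ) (mem_product.1 hij).2
    _ = ∑ j ∈ range K₂, ∑ ij ∈ range K₁ ×ˢ range K₂,
          R.av b ((U ij).PP β b k (grad (r j))) τ := sum_comm
    _ ≤ ∑ _j ∈ range K₂, 2 * β * n := sum_le_sum fun j _ =>
        (hT.sum_PP hb (hr j) τ).trans (mul_le_mul_of_nonneg_left (hn j) (by positivity))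
    _ = _ := by simp

end tiling

lemma PP_ed_le {β ν : ℝ} {b : Edge → ℝ} (hb : Cpl β b) (hν : 0 ≤ ν) (a : Site) (L : ℕ) (k : Fin 3)
    (σ : Cfg) : (rect a L L).PP β b k (ed 0) σ ≤
      2 * β * (L : ℝ) ^ 2 + Nk ν L (rect a L L) b k σ := by
  have h := Blk.PP_le (U := rect a L L) (k := k) (α := ed 0) hb σ
  rw [nrm_rect_ed] at h
  unfold Nk
  have : 0 ≤ ν * (L : ℝ) ^ 2 := by positivity
  nlinarith

lemma exists_small {c g : ℝ} (hc : 0 ≤ c) (hg : 0 < g) : ∃ x : ℝ, 0 < x ∧ x * c ≤ g := by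
  refine ⟨g / (c + 1), by positivity, ?_⟩
  rw [div_mul_eq_mul_div, div_le_iff₀ (by positivity)]
  nlinarith

end Crest.Agent.R167
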