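import Crest.Agent.R167.StripA

/-!
# R167 / StripB: the estimates that use the test functions
-/

set_option autoImplicit false

namespace Crest.Agent.R167

open Finset

/-- the strip -/
noncomputable abbrev sR (L K₁ K₂ : ℕ) : Blk := rect 0 (K₁ * L) (K₂ * L)
abbrev sS (K₁ K₂ : ℕ) : Finset (ℕ × ℕ) := range K₁ ×ˢ range K₂
noncomputable abbrev sU (L : ℕ) (ij : ℕ × ℕ) : Blk := rect (cor L ij) L L

variable {β ν : ℝ} {L K₁ K₂ h : ℕ} {b : Edge → ℝ} {τ : Cfg}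

lemma card_int_le (t : TF L K₁ K₂ h) : (t.int.card : ℝ) ≤ K₁ * K₂ := by
  have := card_le_card t.int_sub
  rw [card_product, card_range, card_range] at this
  exact_mod_cast this

/-- lower bound for the Hessian in the direction `T 2 ⊗ ∇ψ` -/
lemma lower_MM (t : TF L K₁ K₂ h) (hS : Stiff β L ν) (hb : Cpl β b) (hν : 0 ≤ ν) {W : Cfg → ℝ}
    (hW : Continuous W) (h0 : ∀ σ, 0 ≤ W σ) (h1 : ∀ σ, W σ ≤ 1)
    (hW2 : 1 / 2 ≤ (sR L K₁ K₂).av b W τ) {e : ℝ}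
    (he : ∑ ij ∈ t.int, (sR L K₁ K₂).av b (Nk ν L (sU L ij) b 2) τ ≤ e) {s : ℝ} (hs : 0 < s) :
    ν * (K₁ * K₂ * (L : ℝ) ^ 2) / 40 - e - s * (2 * β * (K₁ * K₂ * (L : ℝ) ^ 2) + e) -
        (1 + 1 / s) * (K₂ * (2 * β * (52 * (K₁ : ℝ) ^ 3 * (L : ℝ) ^ 2 / (h : ℝ) ^ 2))) ≤
      (sR L K₁ K₂).av b (fun σ => W σ *
        MM (sS K₁ K₂) (sU L) b (T 2) (T 2) (grad t.ψ) (grad t.ψ) σ) τ := by
  have hβ := hb.nonneg
  have hT := tiling_zero L K₁ K₂
  let Err : Cfg → ℝ := fun σ =>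
    ∑ ij ∈ t.int, (Nk ν L (sU L ij) b 2 σ + s * (sU L ij).PP β b 2 (ed 0) σ) +
      (1 + 1 / s) * ∑ ij ∈ sS K₁ K₂, (sU L ij).PP β b 2 (grad (t.r' ij.2)) σ
  have hErr0 : ∀ σ, 0 ≤ Err σ := fun σ => add_nonneg
    (sum_nonneg fun ij _ => add_nonneg (hS.Nk_nonneg hb _ 2 σ)
      (mul_nonneg hs.le (Blk.PP_nonneg hβ σ)))
    (mul_nonneg (by positivity) (sum_nonneg fun ij _ => Blk.PP_nonneg hβ σ))
  have hpt : ∀ σ, ν * (L : ℝ) ^ 2 * ∑ ij ∈ sS K₁ K₂, t.q ij ^ 2 - Err σ ≤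
      MM (sS K₁ K₂) (sU L) b (T 2) (T 2) (grad t.ψ) (grad t.ψ) σ := by
    intro σ
    have e1 : ∑ ij ∈ t.int, (Nk ν L (sU L ij) b 2 σ + s * (sU L ij).PP β b 2 (ed 0) σ) =
        ∑ ij ∈ sS K₁ K₂, if ij ∈ t.int then
          (Nk ν L (sU L ij) b 2 σ + s * (sU L ij).PP β b 2 (ed 0) σ) else 0 := by
      rw [← sum_filter, filter_mem_eq_inter, inter_eq_right.2 t.int_sub]
    simp only [Err, MM]
    rw [e1, mul_sum, mul_sum, ← sum_add_distrib, ← sum_sub_distrib]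
    refine sum_le_sum fun ij hij => ?_
    rw [Blk.M_congr (t.gψ ij hij) (t.gψ ij hij), Blk.M_add_left, Blk.M_add_right,
      Blk.M_add_right, Blk.M_smul_left, Blk.M_smul_left, Blk.M_smul_right, Blk.M_smul_right,
      Blk.M_symm (α := grad (t.r' ij.2)) (α' := ed 0)]
    have a1 := abs_le.1 (Blk.abs_M_le (U := sU L ij) (k := 2) (l := 2) (α := grad (t.r' ij.2))
      (α' := grad (t.r' ij.2)) hb one_pos σ)
    have a2 := Blk.abs_M_le (U := sU L ij) (k := 2) (l := 2) (α := ed 0)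
      (α' := grad (t.r' ij.2)) hb hs σ
    have a3 : 0 ≤ (sU L ij).PP β b 2 (grad (t.r' ij.2)) σ := Blk.PP_nonneg hβ σ
    have a4 : 0 ≤ 1 / s * (sU L ij).PP β b 2 (grad (t.r' ij.2)) σ := by positivity
    split_ifs with hi
    · have a5 := hS.Nk_nonneg hb (cor L ij) 2 σ
      have a6 : t.q ij ^ 2 ≤ 1 := by
        rw [sq_le_one_iff_abs_le_one]; exact t.bq ij
      have a7 : |t.q ij * (sU L ij).M b (T 2) (T 2) (ed 0) (grad (t.r' ij.2)) σ| ≤
          (s * (sU L ij).PP β b 2 (ed 0) σ +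
            1 / s * (sU L ij).PP β b 2 (grad (t.r' ij.2)) σ) / 2 := by
        rw [abs_mul]
        refine (mul_le_of_le_one_left (abs_nonneg _) (t.bq ij)).trans (a2.trans (le_of_eq ?_))
        ring
      have a8 := (abs_le.1 a7).1
      have a9 : (sU L ij).M b (T 2) (T 2) (ed 0) (ed 0) σ =
          ν * (L : ℝ) ^ 2 - Nk ν L (sU L ij) b 2 σ := by unfold Nk; ring
      rw [a9]
      have a10 := mul_le_mul_of_nonneg_right a6 a5
      nlinarith
    · rw [t.q0 ij hij hi]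
      nlinarith
  have hq := t.qsum
  have hc : 0 ≤ ν * (L : ℝ) ^ 2 * ∑ ij ∈ sS K₁ K₂, t.q ij ^ 2 := by positivity
  have hE : Continuous Err := by fun_prop
  have h2 : (sR L K₁ K₂).av b (fun σ =>
      (ν * (L : ℝ) ^ 2 * ∑ ij ∈ sS K₁ K₂, t.q ij ^ 2) * W σ - Err σ) τ ≤
      (sR L K₁ K₂).av b (fun σ => W σ *
        MM (sS K₁ K₂) (sU L) b (T 2) (T 2) (grad t.ψ) (grad t.ψ) σ) τ := by
    refine av_mono (by fun_prop) (by fun_prop) fun σ => ?_
    have := mul_le_mul_of_nonneg_left (hpt σ) (h0 σ)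
    have := mul_le_mul_of_nonneg_right (h1 σ) (hErr0 σ)
    nlinarith
  refine le_trans ?_ h2
  rw [av_sub (by fun_prop) hE, av_const_mul]
  have h3 : (sR L K₁ K₂).av b Err τ ≤ e + s * (2 * β * (K₁ * K₂ * (L : ℝ) ^ 2) + e) +
      (1 + 1 / s) * (K₂ * (2 * β * (52 * (K₁ : ℝ) ^ 3 * (L : ℝ) ^ 2 / (h : ℝ) ^ 2))) := by
    simp only [Err]
    rw [av_add (by fun_prop) (by fun_prop), av_const_mul, av_sum _ _ (fun _ _ => by fun_prop),
      av_sum _ _ (fun _ _ => by fun_prop)]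
    refine add_le_add ?_ (mul_le_mul_of_nonneg_left (hT.sum_PP_row hb 2 t.sr' t.nr') (by positivity))
    have h4 : ∀ ij ∈ t.int, (sR L K₁ K₂).av b (fun σ =>
        Nk ν L (sU L ij) b 2 σ + s * (sU L ij).PP β b 2 (ed 0) σ) τ ≤
        (1 + s) * (sR L K₁ K₂).av b (Nk ν L (sU L ij) b 2) τ + s * (2 * β * (L : ℝ) ^ 2) := by
      intro ij _
      rw [← av_const_mul, ← av_const (R := sR L K₁ K₂) (b := b) (τ := τ) (s * (2 * β * (L : ℝ) ^ 2)),
        ← av_add (by fun_prop) (by fun_prop)]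
      refine av_mono (by fun_prop) (by fun_prop) fun σ => ?_
      have := mul_le_mul_of_nonneg_left (PP_ed_le hb hν (cor L ij) L 2 σ) hs.le
      linarith
    refine (sum_le_sum h4).trans ?_
    rw [sum_add_distrib, ← mul_sum, sum_const, nsmul_eq_mul]
    have h5 := mul_le_mul_of_nonneg_left he (show 0 ≤ 1 + s by positivity)
    have h6 := mul_le_mul_of_nonneg_right (card_int_le t)
      (show 0 ≤ s * (2 * β * (L : ℝ) ^ 2) by positivity)
    linarith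
  have h7 : ν * (K₁ * K₂ * (L : ℝ) ^ 2) / 40 ≤
      (ν * (L : ℝ) ^ 2 * ∑ ij ∈ sS K₁ K₂, t.q ij ^ 2) * (sR L K₁ K₂).av b W τ := by
    have h8 := mul_le_mul_of_nonneg_left hq (show 0 ≤ ν * (L : ℝ) ^ 2 by positivity)
    have h9 := mul_le_mul_of_nonneg_left hW2 hc
    linarith
  linarith

/-- the mixed Hessian `T 1 ⊗ e₀`, `T 0 ⊗ ∇χ` is small -/
lemma av_abs_M1 (t : TF L K₁ K₂ h) (hS : Stiff β L ν) (hb : Cpl β b) (hν : 0 ≤ ν) {e e' : ℝ}
    (h0 : ∑ ij ∈ t.int, (sR L K₁ K₂).av b (Nk ν L (sU L ij) b 0) τ ≤ e)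
    (h1 : ∑ ij ∈ t.int, (sR L K₁ K₂).av b (Nk ν L (sU L ij) b 1) τ ≤ e)
    (h1' : ∑ ij ∈ sS K₁ K₂, (sR L K₁ K₂).av b (Nk ν L (sU L ij) b 1) τ ≤ e') {s : ℝ}
    (hs : 0 < s) :
    (sR L K₁ K₂).av b (fun σ =>
        |MM (sS K₁ K₂) (sU L) b (T 1) (T 0) (ed 0) (grad t.χ) σ|) τ ≤
      2 / L * e + s / 2 * (2 * β * (K₁ * K₂ * (L : ℝ) ^ 2) + e') +
        1 / (2 * s) * (K₂ * (2 * β * (100 * K₁ / (h : ℝ) ^ 2))) := by
  have hβ := hb.nonneg
  have hT := tiling_zero L K₁ K₂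
  have hpt : ∀ σ, |MM (sS K₁ K₂) (sU L) b (T 1) (T 0) (ed 0) (grad t.χ) σ| ≤
      1 / L * ∑ ij ∈ t.int, (Nk ν L (sU L ij) b 0 σ + Nk ν L (sU L ij) b 1 σ) +
      s / 2 * ∑ ij ∈ sS K₁ K₂, (2 * β * (L : ℝ) ^ 2 + Nk ν L (sU L ij) b 1 σ) +
      1 / (2 * s) * ∑ ij ∈ sS K₁ K₂, (sU L ij).PP β b 0 (grad (t.r ij.2)) σ := by
    intro σ
    have e1 : ∑ ij ∈ t.int, (Nk ν L (sU L ij) b 0 σ + Nk ν L (sU L ij) b 1 σ) =
        ∑ ij ∈ sS K₁ K₂, if ij ∈ t.int then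
          (Nk ν L (sU L ij) b 0 σ + Nk ν L (sU L ij) b 1 σ) else 0 := by
      rw [← sum_filter, filter_mem_eq_inter, inter_eq_right.2 t.int_sub]
    simp only [MM]
    rw [e1, mul_sum, mul_sum, mul_sum, ← sum_add_distrib, ← sum_add_distrib]
    refine (abs_sum_le_sum_abs _ _).trans (sum_le_sum fun ij hij => ?_)
    rw [Blk.M_congr (fun _ _ => rfl) (t.gχ ij hij), Blk.M_add_right, Blk.M_smul_right]
    have a2 := Blk.abs_M_le (U := sU L ij) (k := 1) (l := 0) (α := ed 0)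
      (α' := grad (t.r ij.2)) hb hs σ
    have a3 := mul_le_mul_of_nonneg_left (PP_ed_le hb hν (cor L ij) L 1 σ) hs.le
    have a4 : (sU L ij).PP β b 0 (grad (t.r ij.2)) σ / s / 2 =
        1 / (2 * s) * (sU L ij).PP β b 0 (grad (t.r ij.2)) σ := by field_simp
    refine (abs_add_le _ _).trans ?_
    have a5 : |t.p ij * (sU L ij).M b (T 1) (T 0) (ed 0) (ed 0) σ| ≤ 1 / L *
        if ij ∈ t.int then (Nk ν L (sU L ij) b 0 σ + Nk ν L (sU L ij) b 1 σ) else 0 := by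
      split_ifs with hi
      · rw [abs_mul]
        refine (mul_le_mul (t.bp ij) (hS.off hb (cor L ij) σ) (abs_nonneg _)
          (by positivity)).trans (le_of_eq ?_)
        ring
      · rw [t.p0 ij hij hi]; simp
    linarith
  refine (av_mono (by fun_prop) (by fun_prop) hpt).trans ?_
  rw [av_add (by fun_prop) (by fun_prop), av_add (by fun_prop) (by fun_prop), av_const_mul,
    av_const_mul, av_const_mul, av_sum _ _ (fun _ _ => by fun_prop),
    av_sum _ _ (fun _ _ => by fun_prop), av_sum _ _ (fun _ _ => by fun_prop)]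
  refine add_le_add (add_le_add ?_ ?_)
    (mul_le_mul_of_nonneg_left (hT.sum_PP_row hb 0 t.sr t.nr) (by positivity))
  · rw [sum_congr rfl (fun ij _ => av_add (by fun_prop) (by fun_prop)), sum_add_distrib]
    calc _ ≤ 1 / (L : ℝ) * (e + e) := mul_le_mul_of_nonneg_left (add_le_add h0 h1) (by positivity)
      _ = _ := by ring
  · refine mul_le_mul_of_nonneg_left ?_ (by positivity)
    rw [sum_congr rfl (fun ij _ => av_add (by fun_prop) (by fun_prop)), sum_add_distrib]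
    simp only [av_const]
    rw [sum_const, card_product, card_range, card_range, nsmul_eq_mul]
    push_cast
    linarith

/-- the commutator current differs little from the current of `∇ψ` -/
lemma av_abs_J_rest (t : TF L K₁ K₂ h) (hb : Cpl β b) {W : ℝ} (hW : 0 ≤ W)
    (hW' : 16 * (K₂ * (L : ℝ) ^ 2) ≤ W ^ 2) :
    (sR L K₁ K₂).av b (fun σ => |J (sR L K₁ K₂).E b (T 2)
        (fun e => ed 0 e * mid t.χ e - grad t.ψ e) σ|) τ ≤
      √β * W + K₂ * (Cb β * (2 * (K₁ : ℝ) ^ 2 * L) * (8 * K₁ / (h : ℝ))) := by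
  have e1 : J (sR L K₁ K₂).E b (T 2) (fun e => ed 0 e * mid t.χ e - grad t.ψ e) =
      J (sR L K₁ K₂).E b (T 2)
        (fun e => grad t.D e - ∑ j ∈ range K₂, t.u j e.1 * grad (t.ω j) e) :=
    J_congr fun e he => by rw [t.key e he]; ring
  rw [e1]
  have hpt : ∀ σ, |J (sR L K₁ K₂).E b (T 2)
        (fun e => grad t.D e - ∑ j ∈ range K₂, t.u j e.1 * grad (t.ω j) e) σ| ≤
      |J (sR L K₁ K₂).E b (T 2) (grad t.D) σ| + ∑ j ∈ range K₂,
        |J (sR L K₁ K₂).E b (T 2) (fun e => t.u j e.1 * grad (t.ω j) e) σ| := by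
    intro σ
    rw [J_sub, J_sum]
    exact (abs_sub _ _).trans (add_le_add_right (abs_sum_le_sum_abs _ _) _)
  refine (av_mono (by fun_prop) (by fun_prop) hpt).trans ?_
  rw [av_add (by fun_prop) (by fun_prop), av_sum _ _ (fun _ _ => by fun_prop)]
  refine add_le_add (Blk.av_abs_J hb t.sD hW (t.nD.trans hW') τ) ?_
  calc _ ≤ ∑ _j ∈ range K₂, Cb β * (2 * (K₁ : ℝ) ^ 2 * L) * (8 * K₁ / (h : ℝ)) :=
        sum_le_sum fun j _ => belt hb 2 (t.su j) (t.sω j) (by positivity)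
          (fun x => (t.bu j x).trans (le_of_eq (by ring))) (t.nu j) (t.nω j) τ
    _ = _ := by simp

/-- the current that appears when `Y` is differentiated along `χ` -/
lemma av_abs_J_mid (t : TF L K₁ K₂ h) (hb : Cpl β b) (hN : (1 : ℝ) ≤ K₁ * K₂) {a : ℝ} (ha : 0 < a)
    (ha2 : a ^ 2 = K₁ * K₂ * (L : ℝ) ^ 2) :
    (sR L K₁ K₂).av b (fun σ => |J (sR L K₁ K₂).E b (T 1)
        (fun e => grad t.ψ e * mid t.χ e) σ|) τ ≤ (K₁ * K₂) * a * (6 * Cb β + 7 * β) := by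
  have hβ := hb.nonneg
  have e1 : J (sR L K₁ K₂).E b (T 1) (fun e => grad t.ψ e * mid t.χ e) =
      J (sR L K₁ K₂).E b (T 1)
        (fun e => t.χ e.1 * grad t.ψ e + grad t.ψ e * grad t.χ e / 2) :=
    J_congr fun e _ => by simp only [mid, grad]; ring
  rw [e1]
  have hnψ := t.nψ
  have hnχ := t.nχ
  have h2 : ∑ e ∈ (sR L K₁ K₂).E, |grad t.ψ e * grad t.χ e / 2| ≤ 7 * (K₁ * K₂) * a := by
    have h3 : ∀ e ∈ (sR L K₁ K₂).E, |grad t.ψ e * grad t.χ e / 2| ≤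
        1 / a * grad t.ψ e ^ 2 + a * grad t.χ e ^ 2 := by
      intro e _
      rw [abs_div, abs_mul, abs_two, ← sq_abs (grad t.ψ e), ← sq_abs (grad t.χ e)]
      have h4 := abs_nonneg (grad t.ψ e)
      have h5 := abs_nonneg (grad t.χ e)
      generalize |grad t.ψ e| = x at *
      generalize |grad t.χ e| = y at *
      rw [← sub_nonneg]
      have : 1 / a * x ^ 2 + a * y ^ 2 - x * y / 2 = ((x - a * y) ^ 2 + 3 / 2 * a * (x * y)) / a := by
        field_simp; ring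
      rw [this]
      positivity
    refine (sum_le_sum h3).trans ?_
    rw [sum_add_distrib, ← mul_sum, ← mul_sum]
    have h6 : 1 / a * nrm (sR L K₁ K₂).E (grad t.ψ) ≤ 2 * a := by
      rw [one_div, inv_mul_le_iff₀ ha]
      nlinarith
    have h7 : a * nrm (sR L K₁ K₂).E (grad t.χ) ≤ a * (5 * K₁ * K₂) :=
      mul_le_mul_of_nonneg_left hnχ ha.le
    unfold nrm at h6 h7
    nlinarith
  have hpt : ∀ σ, |J (sR L K₁ K₂).E b (T 1)
        (fun e => t.χ e.1 * grad t.ψ e + grad t.ψ e * grad t.χ e / 2) σ| ≤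
      |J (sR L K₁ K₂).E b (T 1) (fun e => t.χ e.1 * grad t.ψ e) σ| +
        β * (7 * (K₁ * K₂) * a) := by
    intro σ
    rw [J_add]
    refine (abs_add_le _ _).trans (add_le_add_right ?_ _)
    exact (abs_J_le hb (abs_dot_T 1) σ).trans (mul_le_mul_of_nonneg_left h2 hβ)
  refine (av_mono (by fun_prop) (by fun_prop) hpt).trans ?_
  rw [av_add (by fun_prop) (by fun_prop), av_const]
  have h8 := belt (H := 3 * (K₁ * K₂)) (W := 2 * a) hb 1 t.sχ t.sψ (by positivity)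
    (fun x => (t.bχ x).trans (by linarith)) (hnχ.trans (by nlinarith))
    (hnψ.trans (by nlinarith [sq_nonneg a])) τ
  linarith

end Crest.Agent.R167
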