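import Crest.Agent.R167.TestAux

/-!
# R167 / TestAux2: the one-dimensional profiles of the test functions
-/

set_option autoImplicit false

namespace Crest.Agent.R167

open Finset

/-- the profile `f` -/
noncomputable def tF (L m x : ℤ) : ℝ :=
  tRz L (x - 1 * L) - 2 * tRz L (x - (m + 1) * L) + tRz L (x - (2 * m + 1) * L)

/-- the profile `F₀` -/
def tF0 (L m x : ℤ) : ℝ :=
  tPos (x - 1 * L) - 2 * tPos (x - (m + 1) * L) + tPos (x - (2 * m + 1) * L)

/-- the profile `F - F₀` -/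
noncomputable def tE (L m x : ℤ) : ℝ :=
  tCor L (x - 1 * L) - 2 * tCor L (x - (m + 1) * L) + tCor L (x - (2 * m + 1) * L)

/-- the slopes of `f` -/
noncomputable def tPhi (L m i : ℤ) : ℝ := (if i = 1 then 1 / (L : ℝ) else 0) -
  2 * (if i = m + 1 then 1 / (L : ℝ) else 0) + if i = 2 * m + 1 then 1 / (L : ℝ) else 0

/-- the slopes of `F₀` -/
def tS (m i : ℤ) : ℝ := (if 1 ≤ i then 1 else 0) - 2 * (if m + 1 ≤ i then 1 else 0) +
  if 2 * m + 1 ≤ i then 1 else 0

/-- the profile `g` -/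
noncomputable def tG (L h y : ℤ) : ℝ := tBump (h * L) (2 * L) ((2 * h + 2) * L) y

/-- the localised oscillation of `g` -/
noncomputable def tGh (L h j y : ℤ) : ℝ := if 2 ≤ j ∧ j ≤ 3 * h + 2 then
  (tG L h y - tG L h (j * L)) * tBump L ((j - 2) * L) ((j + 1) * L) y else 0

/-- the partition of unity -/
noncomputable def tTent (L h j y : ℤ) : ℝ := if 2 ≤ j ∧ j ≤ 3 * h + 2 then
  tBump L ((j - 1) * L) (j * L) y else 0

variable {L m h i j x y : ℤ}

lemma tF_eq (L m x : ℤ) : tF L m x =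
    tBump L (1 * L) ((m + 1) * L) x - tBump L ((m + 1) * L) ((2 * m + 1) * L) x := by
  simp only [tF, tBump]; ring

lemma tF_abs (hL : 0 < L) (hm : 1 ≤ m) (x : ℤ) : |tF L m x| ≤ 1 := by
  have h0 : 0 < m * L := by positivity
  have h1 := tBump_nonneg (a := 1 * L) (b := (m + 1) * L) hL (by linarith) x
  have h2 := tBump_nonneg (a := (m + 1) * L) (b := (2 * m + 1) * L) hL (by linarith) x
  have h3 := tBump_le_one L (1 * L) ((m + 1) * L) x
  have h4 := tBump_le_one L ((m + 1) * L) ((2 * m + 1) * L) x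
  rw [tF_eq, abs_le]
  constructor <;> linarith

lemma tF_supp (hL : 0 < L) (hm : 1 ≤ m) (h : tF L m x ≠ 0) : L < x ∧ x < (2 * m + 2) * L := by
  have h0 : 0 < m * L := by positivity
  refine ⟨not_le.1 fun h' => h ?_, not_le.1 fun h' => h ?_⟩
  · rw [tF, tRz_zero hL (by linarith), tRz_zero hL (by linarith), tRz_zero hL (by linarith)]
    ring
  · rw [tF, tRz_one hL (by linarith), tRz_one hL (by linarith), tRz_one hL (by linarith)]
    ring

lemma tF_inc (hL : 0 < L) (m : ℤ) (h1 : i * L ≤ x) (h2 : x < i * L + L) :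
    tF L m (x + 1) - tF L m x = tPhi L m i := by
  rw [tPhi, ← tRz_inc hL h1 h2, ← tRz_inc hL h1 h2, ← tRz_inc hL h1 h2, tF, tF]
  ring

lemma tPhi_abs (hL : 0 < L) (m i : ℤ) : |tPhi L m i| ≤ 2 / L := by
  have h1 : (0 : ℝ) < L := by exact_mod_cast hL
  have h2 : (0 : ℝ) < 1 / L := by positivity
  rw [tPhi, abs_le, show (2 : ℝ) / L = 2 * (1 / L) by ring]
  split_ifs <;> constructor <;> linarith

lemma t_col (hL : 0 < L) (x : ℤ) : x / L * L ≤ x ∧ x < x / L * L + L :=
  ⟨Int.ediv_mul_le _ hL.ne', by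
    have := Int.lt_ediv_add_one_mul_self x hL
    linarith⟩

lemma tF_inc_abs (hL : 0 < L) (m x : ℤ) : |tF L m (x + 1) - tF L m x| ≤ 2 / L := by
  rw [tF_inc hL m (t_col hL x).1 (t_col hL x).2]
  exact tPhi_abs hL _ _

lemma tPhi_zero (hm : 1 ≤ m) (hi : i = 0 ∨ i = 2 * m + 2) : tPhi L m i = 0 := by
  rw [tPhi, if_neg (by omega), if_neg (by omega), if_neg (by omega)]
  ring

lemma tF0_abs (hL : 0 < L) (hm : 1 ≤ m) (x : ℤ) : |tF0 L m x| ≤ m * L := by
  have h0 : 0 < m * L := by positivity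
  have : |max (x - 1 * L) 0 - 2 * max (x - (m + 1) * L) 0 + max (x - (2 * m + 1) * L) 0| ≤
      m * L := by
    rw [abs_le]
    simp only [max_def]
    split_ifs <;> constructor <;> linarith
  simp only [tF0, tPos]
  exact_mod_cast this

lemma tF0_supp (hL : 0 < L) (hm : 1 ≤ m) (h : tF0 L m x ≠ 0) : L < x ∧ x < (2 * m + 2) * L := by
  have h0 : 0 < m * L := by positivity
  refine ⟨not_le.1 fun h' => h ?_, not_le.1 fun h' => h ?_⟩
  · rw [tF0, tPos_zero (by linarith), tPos_zero (by linarith), tPos_zero (by linarith)]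
    ring
  · rw [tF0, tPos_eq (by linarith), tPos_eq (by linarith), tPos_eq (by linarith)]
    push_cast
    ring

lemma tPos_inc_col (hL : 0 < L) {k : ℤ} (h1 : i * L ≤ x) (h2 : x < i * L + L) :
    tPos (x + 1 - k * L) - tPos (x - k * L) = if k ≤ i then 1 else 0 := by
  rw [show x + 1 - k * L = x - k * L + 1 by ring, tPos_inc]
  by_cases h : k ≤ i
  · have : k * L ≤ i * L := mul_le_mul_of_nonneg_right h hL.le
    rw [if_pos h, if_pos (by linarith)]
  · have : (i + 1) * L ≤ k * L := mul_le_mul_of_nonneg_right (by omega) hL.le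
    rw [if_neg h, if_neg (by linarith)]

lemma tF0_inc (hL : 0 < L) (m : ℤ) (h1 : i * L ≤ x) (h2 : x < i * L + L) :
    tF0 L m (x + 1) - tF0 L m x = tS m i := by
  rw [tS, ← tPos_inc_col hL h1 h2, ← tPos_inc_col hL h1 h2, ← tPos_inc_col hL h1 h2, tF0, tF0]
  ring

lemma tS_abs (hm : 1 ≤ m) (i : ℤ) : |tS m i| ≤ 1 := by
  rw [tS]
  split_ifs <;> first | omega | norm_num

lemma tS_sq (h1 : 1 ≤ i) (h2 : i ≤ 2 * m) : tS m i ^ 2 = 1 := by
  rw [tS]
  split_ifs <;> first | omega | norm_num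

lemma tS_zero (hm : 1 ≤ m) (hi : i = 0 ∨ i = 2 * m + 2) : tS m i = 0 := by
  rw [tS]
  split_ifs <;> first | omega | norm_num

lemma tF0_inc_abs (hL : 0 < L) (hm : 1 ≤ m) (x : ℤ) : |tF0 L m (x + 1) - tF0 L m x| ≤ 1 := by
  rw [tF0_inc hL m (t_col hL x).1 (t_col hL x).2]
  exact tS_abs hm _

lemma tE_abs (hL : 0 < L) (m x : ℤ) : |tE L m x| ≤ L := by
  have h1 := tCor_bd hL (x - 1 * L)
  have h2 := tCor_bd hL (x - (m + 1) * L)
  have h3 := tCor_bd hL (x - (2 * m + 1) * L)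
  rw [tE, abs_le]
  constructor <;> linarith [h1.1, h1.2, h2.1, h2.2, h3.1, h3.2]

lemma tE_supp (hL : 0 < L) (hm : 1 ≤ m) (h : tE L m x ≠ 0) : L < x ∧ x < (2 * m + 2) * L := by
  have h0 : 0 < m * L := by positivity
  refine ⟨not_le.1 fun h' => h ?_, not_le.1 fun h' => h ?_⟩
  · rw [tE, tCor_left (by linarith), tCor_left (by linarith), tCor_left (by linarith)]
    ring
  · rw [tE, tCor_right hL (by linarith), tCor_right hL (by linarith), tCor_right hL (by linarith)]
    ring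

lemma tFF_inc (hL : 0 < L) (m x : ℤ) :
    tF0 L m (x + 1) + tE L m (x + 1) - (tF0 L m x + tE L m x) = (tF L m (x + 1) + tF L m x) / 2 := by
  have e : ∀ k : ℤ, x + 1 - k = x - k + 1 := fun k => by ring
  have h1 := tCor_inc hL (x - 1 * L)
  have h2 := tCor_inc hL (x - (m + 1) * L)
  have h3 := tCor_inc hL (x - (2 * m + 1) * L)
  simp only [tF0, tE, tF, e]
  linarith

lemma tFF_inc_abs (hL : 0 < L) (hm : 1 ≤ m) (x : ℤ) :
    |tF0 L m (x + 1) + tE L m (x + 1) - (tF0 L m x + tE L m x)| ≤ 1 := by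
  have h1 := abs_le.1 (tF_abs hL hm x)
  have h2 := abs_le.1 (tF_abs hL hm (x + 1))
  rw [tFF_inc hL, abs_le]
  constructor <;> linarith [h1.1, h1.2, h2.1, h2.2]

lemma tFF_abs (hL : 0 < L) (hm : 1 ≤ m) (x : ℤ) : |tF0 L m x + tE L m x| ≤ (m + 1) * L :=
  (abs_add_le _ _).trans (by linarith [tF0_abs hL hm x, tE_abs hL m x])

lemma tFF_supp (hL : 0 < L) (hm : 1 ≤ m) (h : tF0 L m x + tE L m x ≠ 0) :
    L < x ∧ x < (2 * m + 2) * L := by
  by_cases h1 : tF0 L m x = 0
  · exact tE_supp hL hm fun h2 => h (by rw [h1, h2, add_zero])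
  · exact tF0_supp hL hm h1

lemma tE_inc_sq (hL : 0 < L) (m x : ℤ) : (tE L m (x + 1) - tE L m x) ^ 2 ≤
    2 * (tCor L (x - 1 * L + 1) - tCor L (x - 1 * L)) ^ 2 +
      4 * (tCor L (x - (m + 1) * L + 1) - tCor L (x - (m + 1) * L)) ^ 2 +
      2 * (tCor L (x - (2 * m + 1) * L + 1) - tCor L (x - (2 * m + 1) * L)) ^ 2 := by
  have e : ∀ k : ℤ, x + 1 - k = x - k + 1 := fun k => by ring
  have h1 := (tCor_inc_bd hL (x - 1 * L)).2
  have h2 := (tCor_inc_bd hL (x - (m + 1) * L)).2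
  have h3 := (tCor_inc_bd hL (x - (2 * m + 1) * L)).2
  have h4 : tE L m (x + 1) - tE L m x = (tCor L (x - 1 * L + 1) - tCor L (x - 1 * L)) -
      2 * (tCor L (x - (m + 1) * L + 1) - tCor L (x - (m + 1) * L)) +
      (tCor L (x - (2 * m + 1) * L + 1) - tCor L (x - (2 * m + 1) * L)) := by
    simp only [tE, e]; ring
  rw [h4]
  generalize tCor L (x - 1 * L + 1) - tCor L (x - 1 * L) = a at *
  generalize tCor L (x - (m + 1) * L + 1) - tCor L (x - (m + 1) * L) = b at *
  generalize tCor L (x - (2 * m + 1) * L + 1) - tCor L (x - (2 * m + 1) * L) = c at *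
  nlinarith [mul_nonneg_of_nonpos_of_nonpos h1 h2, mul_nonneg_of_nonpos_of_nonpos h2 h3,
    sq_nonneg (a - c)]

lemma tG_abs (hL : 0 < L) (hh : 0 < h) (y : ℤ) : |tG L h y| ≤ 1 :=
  have h0 : 0 < h * L := by positivity
  tBump_abs h0 (by linarith) y

lemma tG_supp (hL : 0 < L) (hh : 0 < h) (hy : tG L h y ≠ 0) : 2 * L < y ∧ y < (3 * h + 2) * L := by
  have h0 : 0 < h * L := by positivity
  have := tBump_supp h0 (by linarith) hy
  constructor <;> linarith [this.1, this.2]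

lemma tG_one (hL : 0 < L) (hh : 0 < h) (h1 : h + 2 ≤ j) (h2 : j ≤ 2 * h + 2) :
    tG L h (j * L) = 1 :=
  tBump_one (by positivity) (by linarith [mul_le_mul_of_nonneg_right h1 hL.le])
    (mul_le_mul_of_nonneg_right h2 hL.le)

lemma tG_inc (hL : 0 < L) (hh : 0 < h) (y : ℤ) : |tG L h (y + 1) - tG L h y| ≤ 1 / (h * L) := by
  have := tBump_inc (ℓ := h * L) (by positivity) (2 * L) ((2 * h + 2) * L) y
  push_cast at this
  exact this

lemma tG_osc (hL : 0 < L) (hh : 0 < h) (h1 : (j - 2) * L ≤ y) (h2 : y ≤ (j + 2) * L) :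
    |tG L h y - tG L h (j * L)| ≤ 2 / h := by
  have h0 : 0 < h * L := by positivity
  have k1 : (0 : ℝ) < L := by exact_mod_cast hL
  have k2 : (0 : ℝ) < h := by exact_mod_cast hh
  have e : (2 : ℝ) / h = (2 * L) / ((h * L : ℤ) : ℝ) := by push_cast; field_simp
  rcases le_total y (j * L) with h3 | h3
  · rw [abs_sub_comm, e]
    refine (tBump_lip h0 _ _ h3).trans (div_le_div_of_nonneg_right ?_ (by positivity))
    have : j * L - y ≤ 2 * L := by linarith
    exact_mod_cast this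
  · rw [e]
    refine (tBump_lip h0 _ _ h3).trans (div_le_div_of_nonneg_right ?_ (by positivity))
    have : y - j * L ≤ 2 * L := by linarith
    exact_mod_cast this

lemma tGh_supp (hL : 0 < L) (hy : tGh L h j y ≠ 0) :
    (2 ≤ j ∧ j ≤ 3 * h + 2) ∧ (j - 2) * L < y ∧ y < (j + 2) * L := by
  rw [tGh] at hy
  split_ifs at hy with h1
  · have := tBump_supp hL (by linarith) (right_ne_zero_of_mul hy)
    exact ⟨h1, this.1, by linarith [this.2]⟩
  · exact absurd rfl hy

lemma tGh_abs (hL : 0 < L) (hh : 0 < h) (j y : ℤ) : |tGh L h j y| ≤ 2 / h := by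
  have k2 : (0 : ℝ) < h := by exact_mod_cast hh
  by_cases h0 : tGh L h j y = 0
  · rw [h0, abs_zero]; positivity
  · have h1 := tGh_supp hL h0
    rw [tGh, if_pos h1.1, abs_mul]
    exact (mul_le_mul (tG_osc hL hh h1.2.1.le h1.2.2.le) (tBump_abs hL (by linarith) y)
      (abs_nonneg _) (by positivity)).trans_eq (mul_one _)

lemma tGh_inc (hL : 0 < L) (hh : 0 < h) (j y : ℤ) :
    |tGh L h j (y + 1) - tGh L h j y| ≤ 3 / (h * L) := by
  have k1 : (0 : ℝ) < L := by exact_mod_cast hL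
  have k2 : (0 : ℝ) < h := by exact_mod_cast hh
  by_cases h0 : tGh L h j (y + 1) - tGh L h j y = 0
  · rw [h0, abs_zero]; positivity
  have h1 := t_inc_supp (fun t ht => (tGh_supp hL ht).2) h0
  by_cases h2 : 2 ≤ j ∧ j ≤ 3 * h + 2
  · rw [tGh, tGh, if_pos h2, if_pos h2]
    have h3 := mul_le_mul (tG_inc hL hh y)
      (tBump_abs (a := (j - 2) * L) (b := (j + 1) * L) hL (by linarith) (y + 1)) (abs_nonneg _)
      (by positivity)
    have h4 := mul_le_mul (tG_osc hL hh h1.1 h1.2.le)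
      (tBump_inc hL ((j - 2) * L) ((j + 1) * L) y) (abs_nonneg _) (by positivity)
    rw [← abs_mul] at h3 h4
    calc _ = |(tG L h (y + 1) - tG L h y) * tBump L ((j - 2) * L) ((j + 1) * L) (y + 1) +
          (tG L h y - tG L h (j * L)) * (tBump L ((j - 2) * L) ((j + 1) * L) (y + 1) -
            tBump L ((j - 2) * L) ((j + 1) * L) y)| := by congr 1; ring
      _ ≤ 1 / (h * L) * 1 + 2 / h * (1 / L) := (abs_add_le _ _).trans (add_le_add h3 h4)
      _ = _ := by field_simp; ring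
  · exact absurd (by rw [tGh, tGh, if_neg h2, if_neg h2, sub_self]) h0

lemma tGh_eq (hL : 0 < L) (h0 : 2 ≤ j ∧ j ≤ 3 * h + 2) (h1 : (j - 1) * L ≤ y)
    (h2 : y ≤ (j + 1) * L) : tGh L h j y = tG L h y - tG L h (j * L) := by
  rw [tGh, if_pos h0, tBump_one hL (by linarith) h2, mul_one]

lemma tGh_row (hL : 0 < L) (hh : 0 < h) (h1 : j * L ≤ y) (h2 : y ≤ j * L + L) :
    tGh L h j y = tG L h y - tG L h (j * L) := by
  by_cases h0 : 2 ≤ j ∧ j ≤ 3 * h + 2
  · exact tGh_eq hL h0 (by linarith) (by linarith)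
  · have e : ∀ t, j * L ≤ t → t ≤ j * L + L → tG L h t = 0 := fun t t1 t2 => by
      by_contra h3
      have h4 := tG_supp hL hh h3
      rcases not_and_or.1 h0 with h5 | h5
      · have : j * L ≤ 1 * L := mul_le_mul_of_nonneg_right (by omega) hL.le
        linarith [h4.1]
      · have : (3 * h + 2) * L ≤ j * L := mul_le_mul_of_nonneg_right (by omega) hL.le
        linarith [h4.2]
    rw [tGh, if_neg h0, e y h1 h2, e _ le_rfl (by linarith), sub_self]

lemma tTent_supp (hL : 0 < L) (hy : tTent L h j y ≠ 0) :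
    (2 ≤ j ∧ j ≤ 3 * h + 2) ∧ (j - 1) * L < y ∧ y < (j + 1) * L := by
  rw [tTent] at hy
  split_ifs at hy with h1
  · have := tBump_supp hL (by linarith) hy
    exact ⟨h1, this.1, by linarith [this.2]⟩
  · exact absurd rfl hy

lemma tTent_abs (hL : 0 < L) (h j y : ℤ) : |tTent L h j y| ≤ 1 := by
  rw [tTent]
  split_ifs
  · exact tBump_abs hL (by linarith) y
  · simp

lemma tTent_inc (hL : 0 < L) (h j y : ℤ) : |tTent L h j (y + 1) - tTent L h j y| ≤ 1 / L := by
  have k1 : (0 : ℝ) < L := by exact_mod_cast hL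
  rw [tTent, tTent]
  split_ifs
  · exact tBump_inc hL _ _ y
  · rw [sub_self, abs_zero]; positivity

lemma tTent_sum (hL : 0 < L) (h : ℕ) (h1 : 2 * L ≤ y) (h2 : y ≤ (3 * h + 2) * L) :
    ∑ j ∈ range (3 * h + 4), tTent L h j y = 1 := by
  have e : ∀ n : ℕ, n ≤ 3 * h + 1 → ∑ j ∈ range (n + 2), tTent L h j y =
      tRz L (y - L) - tRz L (y - (n + 1) * L) := by
    intro n hn
    induction n with
    | zero => simp [sum_range_succ, tTent]
    | succ n ih =>
      rw [sum_range_succ, ih (by omega), tTent, if_pos (by omega), tBump]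
      push_cast
      rw [show (n : ℤ) + 2 - 1 = n + 1 by ring, show (n : ℤ) + 1 + 1 = n + 2 by ring]
      ring
  rw [sum_range_succ, e _ le_rfl, tTent, if_neg (by omega), tRz_one hL (by linarith),
    tRz_zero hL (by push_cast; linarith)]
  ring

lemma tTent_key (hL : 0 < L) {h : ℕ} (hh : 0 < h) (y : ℤ) :
    ∑ j ∈ range (3 * h + 4), tTent L h j y * (tGh L h j (y + 1) - tGh L h j y) =
      tG L h (y + 1) - tG L h y := by
  have hh' : (0 : ℤ) < h := by exact_mod_cast hh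
  have e : ∀ j : ℤ, tTent L h j y * (tGh L h j (y + 1) - tGh L h j y) =
      tTent L h j y * (tG L h (y + 1) - tG L h y) := fun j => by
    by_cases h0 : tTent L h j y = 0
    · rw [h0, zero_mul, zero_mul]
    · have h1 := tTent_supp hL h0
      rw [tGh_eq hL h1.1 (by linarith [h1.2.1]) (by linarith [h1.2.2]),
        tGh_eq hL h1.1 h1.2.1.le h1.2.2.le, sub_sub_sub_cancel_right]
  simp only [e, ← sum_mul]
  by_cases h0 : tG L h (y + 1) - tG L h y = 0
  · rw [h0, mul_zero]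
  · have h1 := t_inc_supp (fun t ht => tG_supp hL hh' ht) h0
    rw [tTent_sum hL h h1.1 h1.2.le, one_mul]

end Crest.Agent.R167
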