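import Crest.Agent.R167.Stiff
import Crest.Agent.R167.TestAux2

/-!
# R167 / Test: the test functions on the strip

`K₁ = 2m + 3`, `K₂ = 3h + 4`, `K₁ ≤ h`, `γ = 1/(hL)`.  Functions on `ℤ` (`ramp L` of the real cast):

* `f x = ramp L (x - L) - 2 ramp L (x - (m+1)L) + ramp L (x - (2m+1)L)`: `|f| ≤ 1`, zero for `x ≤ L` and
  `x ≥ (2m+2)L`, affine on every column `[iL, (i+1)L]` with slope `φ i`, `|φ i| ≤ 2/L`, `φ 0 = φ (K₁-1) = 0`;
* `F₀ x = (x - L)₊ - 2 (x - (m+1)L)₊ + (x - (2m+1)L)₊`: slope `s i = 1` on the columns `1..m`, `-1` on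
  `m+1..2m`, `0` otherwise; `|F₀| ≤ mL`;
* `Q t = c²/(2L) + (t - L)₊`, `c = max 0 (min L t)`, has increments `(ramp t + ramp (t+1))/2` at integers;
  `F x = Q (x - L) - 2 Q (x - (m+1)L) + Q (x - (2m+1)L)` has increments `(f x + f (x+1))/2`, vanishes for
  `x ≤ L`, `x ≥ (2m+2)L`, `|F| ≤ K₁ L`; `F - F₀` is bounded by `2L` and its increments are bounded by `2`
  and vanish off the three columns `1, m+1, 2m+1`;
* `θ x = ramp L x - ramp L (x - (K₁-1)L)`, `θ₂ y = ramp L y - ramp L (y - (K₂-1)L)`;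
* `g y = ramp (hL) (y - 2L) - ramp (hL) (y - (2h+2)L)` (`γ`-Lipschitz, `1` on `[(h+2)L, (2h+2)L]`);
* for `2 ≤ j ≤ 3h + 2`: `ĝ j y = (g y - g (jL)) (ramp L (y - (j-2)L) - ramp L (y - (j+1)L))`, supported in
  `[(j-2)L, (j+2)L]`, `|ĝ| ≤ 2/h`, `3γ`-Lipschitz, equal to `g - g (jL)` on `[(j-1)L, (j+1)L]`;
  `tent j y = ramp L (y - (j-1)L) - ramp L (y - jL)`, `∑_j tent j = 1` on `[2L, (3h+2)L]` (telescoping);
  both are `0` for the other `j`.

`χ = tens f g`, `ψ = tens F₀ g`, `D = tens (F - F₀) g`, `Θ = tens θ θ₂`, `r j = tens f (ĝ j)`,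
`r' j = tens F₀ (ĝ j)`, `ω j = tens θ (ĝ j)`, `u j = tens F (tent j)`, `p (i,j) = φ i · g (jL)`,
`q (i,j) = s i · g (jL)`, `int = Icc 1 (K₁-2) ×ˢ Icc 1 (K₂-2)`.  Norms: `nrm_tens` and `sum_sq_le`.
`key`: on a horizontal edge with tail `(x, y)` both sides are `(F (x+1) - F x) g y` (where `F x ≠ 0`,
`θ x = θ (x+1) = 1`); on a vertical edge both sides vanish: `F x (g (y+1) - g y) (1 - ∑ tent j y) = 0`.
-/

set_option autoImplicit false

namespace Crest.Agent.R167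

open Finset

/-- lower left corner of the block `(i, j)` -/
def cor (L : ℕ) (ij : ℕ × ℕ) : Site := ((ij.1 : ℤ) * L, (ij.2 : ℤ) * L)

lemma tiling_zero (L K₁ K₂ : ℕ) : Tiling (rect 0 (K₁ * L) (K₂ * L)) (range K₁ ×ˢ range K₂)
    (fun ij => rect (cor L ij) L L) := by
  simpa [cor] using rect_tiling 0 L L K₁ K₂

lemma nrm_tens (w H : ℕ) (u v : ℤ → ℝ) : nrm (rect 0 w H).E (grad (tens u v)) =
    (∑ x ∈ Ico (0 : ℤ) w, (u (x + 1) - u x) ^ 2) * (∑ y ∈ Ico (0 : ℤ) H, v y ^ 2) +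
      (∑ x ∈ Ico (0 : ℤ) w, u x ^ 2) * ∑ y ∈ Ico (0 : ℤ) H, (v (y + 1) - v y) ^ 2 := by
  rw [nrm, sum_rect, sum_mul_sum, sum_mul_sum, ← sum_add_distrib]
  simp only [Prod.fst_zero, Prod.snd_zero, zero_add]
  refine sum_congr rfl fun x _ => ?_
  rw [← sum_add_distrib]
  refine sum_congr rfl fun y _ => ?_
  simp only [grad, hd_zero, hd_one, tens]
  ring

lemma sum_sq_le (s : Finset ℤ) (p : ℤ → ℝ) (lo : ℤ) (n : ℕ) {c : ℝ} (h₁ : ∀ y, |p y| ≤ c)
    (h₂ : ∀ y ∈ s, p y ≠ 0 → lo ≤ y ∧ y < lo + n) : ∑ y ∈ s, p y ^ 2 ≤ n * c ^ 2 := by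
  calc ∑ y ∈ s, p y ^ 2 = ∑ y ∈ s with p y ≠ 0, p y ^ 2 :=
        (sum_filter_of_ne fun y _ h => (pow_ne_zero_iff two_ne_zero).1 h).symm
    _ ≤ ∑ y ∈ Ico lo (lo + n), p y ^ 2 :=
        sum_le_sum_of_subset_of_nonneg (fun y hy => by
          rw [mem_filter] at hy
          exact mem_Ico.2 (h₂ y hy.1 hy.2)) fun _ _ _ => sq_nonneg _
    _ ≤ ∑ _y ∈ Ico lo (lo + n), c ^ 2 :=
        sum_le_sum fun y _ => sq_le_sq' (abs_le.1 (h₁ y)).1 (abs_le.1 (h₁ y)).2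
    _ = n * c ^ 2 := by simp

lemma t_sum_full (K L : ℕ) {p : ℤ → ℝ} {c : ℝ} (h : ∀ y, |p y| ≤ c) :
    ∑ y ∈ Ico (0 : ℤ) (K * L : ℕ), p y ^ 2 ≤ K * L * c ^ 2 :=
  (sum_sq_le _ p 0 (K * L) h fun y hy _ => by simpa using hy).trans_eq (by rw [Nat.cast_mul])

lemma t_nrm_le {w H : ℕ} {u v : ℤ → ℝ} {A B C D : ℝ}
    (hA : ∑ x ∈ Ico (0 : ℤ) w, (u (x + 1) - u x) ^ 2 ≤ A) (hB : ∑ y ∈ Ico (0 : ℤ) H, v y ^ 2 ≤ B)
    (hC : ∑ x ∈ Ico (0 : ℤ) w, u x ^ 2 ≤ C)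
    (hD : ∑ y ∈ Ico (0 : ℤ) H, (v (y + 1) - v y) ^ 2 ≤ D) :
    nrm (rect 0 w H).E (grad (tens u v)) ≤ A * B + C * D := by
  have h0 : ∀ (s : Finset ℤ) (p : ℤ → ℝ), 0 ≤ ∑ x ∈ s, p x ^ 2 :=
    fun s p => sum_nonneg fun _ _ => sq_nonneg _
  rw [nrm_tens]
  exact add_le_add (mul_le_mul hA hB (h0 _ _) ((h0 _ fun x => u (x + 1) - u x).trans hA))
    (mul_le_mul hC hD (h0 _ fun y => v (y + 1) - v y) ((h0 _ _).trans hC))

lemma t_supp {w H : ℕ} {u v : ℤ → ℝ} (hu : ∀ x, u x ≠ 0 → 0 < x ∧ x < w)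
    (hv : ∀ y, v y ≠ 0 → 0 < y ∧ y < H) : Supp (rect 0 w H).I (tens u v) := by
  intro x hx
  by_contra h
  refine hx (mem_rect_I.2 ?_)
  simpa using ⟨hu _ (left_ne_zero_of_mul h), hv _ (right_ne_zero_of_mul h)⟩

lemma t_abs_tens {u v : ℤ → ℝ} {a b : ℝ} (hu : ∀ x, |u x| ≤ a) (hv : ∀ y, |v y| ≤ b) (x : Site) :
    |tens u v x| ≤ a * b := by
  rw [tens, abs_mul]
  exact mul_le_mul (hu _) (hv _) (abs_nonneg _) ((abs_nonneg _).trans (hu x.1))

/-- splitting the gradient of a product function on a block -/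
lemma t_grad_blk {L : ℕ} {ij : ℕ × ℕ} {u v v' : ℤ → ℝ} {φ c : ℝ}
    (hu : ∀ x : ℤ, ij.1 * L ≤ x → x < ij.1 * L + L → u (x + 1) - u x = φ)
    (hv : ∀ y : ℤ, ij.2 * L ≤ y → y ≤ ij.2 * L + L → v' y = v y - c) {e : Edge}
    (he : e ∈ (rect (cor L ij) L L).E) :
    grad (tens u v) e = φ * c * ed 0 e + grad (tens u v') e := by
  obtain ⟨⟨x, y⟩, d⟩ := e
  have h := mem_rect_E.1 he
  simp only [cor] at h
  fin_cases d
  · simp only [grad, Fin.zero_eta, hd_zero, tens, ed, if_true]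
    rw [hv y h.2.1 h.2.2.le, ← hu x h.1.1 h.1.2]
    ring
  · simp only [grad, Fin.mk_one, hd_one, tens, ed]
    rw [hv y h.2.1 h.2.2.le, hv (y + 1) (by linarith [h.2.1]) (by linarith [h.2.2]),
      if_neg (by decide)]
    ring

/-- test functions on the strip of `K₁ × K₂` blocks of side `L` -/
structure TF (L K₁ K₂ h : ℕ) where
  χ : Site → ℝ
  ψ : Site → ℝ
  D : Site → ℝ
  Θ : Site → ℝ
  r : ℕ → Site → ℝ
  r' : ℕ → Site → ℝ
  u : ℕ → Site → ℝ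
  ω : ℕ → Site → ℝ
  p : ℕ × ℕ → ℝ
  q : ℕ × ℕ → ℝ
  int : Finset (ℕ × ℕ)
  sχ : Supp (rect 0 (K₁ * L) (K₂ * L)).I χ
  sψ : Supp (rect 0 (K₁ * L) (K₂ * L)).I ψ
  sD : Supp (rect 0 (K₁ * L) (K₂ * L)).I D
  sΘ : Supp (rect 0 (K₁ * L) (K₂ * L)).I Θ
  sr : ∀ j, Supp (rect 0 (K₁ * L) (K₂ * L)).I (r j)
  sr' : ∀ j, Supp (rect 0 (K₁ * L) (K₂ * L)).I (r' j)
  su : ∀ j, Supp (rect 0 (K₁ * L) (K₂ * L)).I (u j)
  sω : ∀ j, Supp (rect 0 (K₁ * L) (K₂ * L)).I (ω j)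
  bχ : ∀ x, |χ x| ≤ 1
  bu : ∀ j x, |u j x| ≤ (K₁ : ℝ) ^ 2 * L
  nχ : nrm (rect 0 (K₁ * L) (K₂ * L)).E (grad χ) ≤ 5 * K₁ * K₂
  nψ : nrm (rect 0 (K₁ * L) (K₂ * L)).E (grad ψ) ≤ 2 * (K₁ * K₂ * (L : ℝ) ^ 2)
  nD : nrm (rect 0 (K₁ * L) (K₂ * L)).E (grad D) ≤ 16 * (K₂ * (L : ℝ) ^ 2)
  nΘ : nrm (rect 0 (K₁ * L) (K₂ * L)).E (grad Θ) ≤ 2 * K₁ * K₂
  nr : ∀ j, nrm (rect 0 (K₁ * L) (K₂ * L)).E (grad (r j)) ≤ 100 * K₁ / (h : ℝ) ^ 2
  nr' : ∀ j, nrm (rect 0 (K₁ * L) (K₂ * L)).E (grad (r' j)) ≤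
    52 * (K₁ : ℝ) ^ 3 * (L : ℝ) ^ 2 / (h : ℝ) ^ 2
  nu : ∀ j, nrm (rect 0 (K₁ * L) (K₂ * L)).E (grad (u j)) ≤ (2 * (K₁ : ℝ) ^ 2 * L) ^ 2
  nω : ∀ j, nrm (rect 0 (K₁ * L) (K₂ * L)).E (grad (ω j)) ≤ (8 * K₁ / (h : ℝ)) ^ 2
  int_sub : int ⊆ range K₁ ×ˢ range K₂
  gχ : ∀ ij ∈ range K₁ ×ˢ range K₂, ∀ e ∈ (rect (cor L ij) L L).E,
    grad χ e = p ij * ed 0 e + grad (r ij.2) e
  gψ : ∀ ij ∈ range K₁ ×ˢ range K₂, ∀ e ∈ (rect (cor L ij) L L).E,
    grad ψ e = q ij * ed 0 e + grad (r' ij.2) e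
  bp : ∀ ij, |p ij| ≤ 2 / (L : ℝ)
  bq : ∀ ij, |q ij| ≤ 1
  p0 : ∀ ij ∈ range K₁ ×ˢ range K₂, ij ∉ int → p ij = 0
  q0 : ∀ ij ∈ range K₁ ×ˢ range K₂, ij ∉ int → q ij = 0
  Θ1 : ∀ ij ∈ int, ∀ e ∈ (rect (cor L ij) L L).E, Θ e.1 = 1 ∧ Θ (hd e) = 1
  qsum : (K₁ * K₂ : ℝ) / 20 ≤ ∑ ij ∈ range K₁ ×ˢ range K₂, q ij ^ 2
  key : ∀ e ∈ (rect 0 (K₁ * L) (K₂ * L)).E, ed 0 e * mid χ e =
    grad ψ e + grad D e - ∑ j ∈ range K₂, u j e.1 * grad (ω j) e

section norms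
variable {L m h : ℕ}

lemma t_sum_gh (hL : 1 ≤ L) (hh : 1 ≤ h) (s : Finset ℤ) (j : ℤ) :
    ∑ y ∈ s, tGh L h j y ^ 2 ≤ 16 * L / (h : ℝ) ^ 2 := by
  have hL' : (0 : ℤ) < L := by exact_mod_cast hL
  have hh' : (0 : ℤ) < h := by exact_mod_cast hh
  refine (sum_sq_le s _ ((j - 2) * L) (4 * L) (tGh_abs hL' hh' j) fun y _ hy => ?_).trans_eq ?_
  · have := (tGh_supp hL' hy).2
    push_cast
    constructor <;> linarith [this.1, this.2]
  · push_cast; ring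

lemma t_sum_gh_inc (hL : 1 ≤ L) (hh : 1 ≤ h) (s : Finset ℤ) (j : ℤ) :
    ∑ y ∈ s, (tGh L h j (y + 1) - tGh L h j y) ^ 2 ≤ 36 / ((h : ℝ) ^ 2 * L) := by
  have hL' : (0 : ℤ) < L := by exact_mod_cast hL
  have hh' : (0 : ℤ) < h := by exact_mod_cast hh
  have k1 : (0 : ℝ) < L := by exact_mod_cast hL
  have k2 : (0 : ℝ) < h := by exact_mod_cast hh
  refine (sum_sq_le s _ ((j - 2) * L) (4 * L) (tGh_inc hL' hh' j) fun y _ hy => ?_).trans_eq ?_
  · have := t_inc_supp (fun t ht => (tGh_supp hL' ht).2) hy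
    push_cast
    constructor <;> linarith [this.1, this.2]
  · push_cast; field_simp; ring

lemma t_sum_tent (hL : 1 ≤ L) (s : Finset ℤ) (j : ℤ) : ∑ y ∈ s, tTent L h j y ^ 2 ≤ 2 * L := by
  have hL' : (0 : ℤ) < L := by exact_mod_cast hL
  refine (sum_sq_le s _ ((j - 1) * L) (2 * L) (tTent_abs hL' h j) fun y _ hy => ?_).trans_eq ?_
  · have := (tTent_supp hL' hy).2
    push_cast
    constructor <;> linarith [this.1, this.2]
  · push_cast; ring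

lemma t_sum_tent_inc (hL : 1 ≤ L) (s : Finset ℤ) (j : ℤ) :
    ∑ y ∈ s, (tTent L h j (y + 1) - tTent L h j y) ^ 2 ≤ 2 / L := by
  have hL' : (0 : ℤ) < L := by exact_mod_cast hL
  have k1 : (0 : ℝ) < L := by exact_mod_cast hL
  refine (sum_sq_le s _ ((j - 1) * L) (2 * L) (tTent_inc hL' h j) fun y _ hy => ?_).trans_eq ?_
  · have := t_inc_supp (fun t ht => (tTent_supp hL' ht).2) hy
    push_cast
    constructor <;> linarith [this.1, this.2]
  · push_cast; field_simp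

lemma t_sum_E_inc (hL : 1 ≤ L) (s : Finset ℤ) (m : ℤ) :
    ∑ x ∈ s, (tE L m (x + 1) - tE L m x) ^ 2 ≤ 8 * L := by
  have hL' : (0 : ℤ) < L := by exact_mod_cast hL
  have key : ∀ k : ℤ, ∑ x ∈ s, (tCor L (x - k + 1) - tCor L (x - k)) ^ 2 ≤ L := fun k => by
    refine (sum_sq_le s _ k L (c := 1) (fun y => abs_le.2
      ⟨(tCor_inc_bd hL' _).1, (tCor_inc_bd hL' _).2.trans zero_le_one⟩) fun y _ hy => ?_).trans_eq
      (by ring)
    have := tCor_inc_supp hL' hy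
    constructor <;> linarith [this.1, this.2]
  refine (sum_le_sum fun x _ => tE_inc_sq hL' m x).trans ?_
  rw [sum_add_distrib, sum_add_distrib, ← mul_sum, ← mul_sum, ← mul_sum]
  linarith [key (1 * L), key ((m + 1) * L), key ((2 * m + 1) * L)]

lemma t_qsum (hL : 1 ≤ L) (hm : 1 ≤ m) (hh : 1 ≤ h) :
    ((2 * m + 3 : ℕ) * (3 * h + 4 : ℕ) : ℝ) / 20 ≤
      ∑ ij ∈ range (2 * m + 3) ×ˢ range (3 * h + 4), (tS m ij.1 * tG L h (ij.2 * L)) ^ 2 := by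
  have hL' : (0 : ℤ) < L := by exact_mod_cast hL
  have hh' : (0 : ℤ) < h := by exact_mod_cast hh
  have k1 : (1 : ℝ) ≤ m := by exact_mod_cast hm
  have k2 : (1 : ℝ) ≤ h := by exact_mod_cast hh
  calc _ ≤ (2 * m * (h + 1) : ℝ) := by push_cast; nlinarith
    _ = ∑ ij ∈ Ico 1 (2 * m + 1) ×ˢ Ico (h + 2) (2 * h + 3),
          (tS m ij.1 * tG L h (ij.2 * L)) ^ 2 := by
        rw [sum_congr rfl (g := fun _ => (1 : ℝ)) fun ij hij => ?_]
        · rw [sum_const, card_product, Nat.card_Ico, Nat.card_Ico, Nat.add_sub_cancel,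
            show 2 * h + 3 - (h + 2) = h + 1 by omega]
          simp
        · simp only [mem_product, mem_Ico] at hij
          rw [tG_one hL' hh' (by omega) (by omega), mul_one, tS_sq (by omega) (by omega)]
    _ ≤ _ := sum_le_sum_of_subset_of_nonneg (fun ij hij => by
        simp only [mem_product, mem_Ico, mem_range] at hij ⊢
        omega) fun _ _ _ => sq_nonneg _

end norms

theorem exists_TF {L m h : ℕ} (hL : 1 ≤ L) (hm : 1 ≤ m) (hh : 2 * m + 3 ≤ h) :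
    Nonempty (TF L (2 * m + 3) (3 * h + 4) h) := by
  have hh1 : 1 ≤ h := by omega
  have hL' : (0 : ℤ) < L := by exact_mod_cast hL
  have hm' : (1 : ℤ) ≤ m := by exact_mod_cast hm
  have hh' : (0 : ℤ) < h := by exact_mod_cast hh1
  have hmL : (0 : ℤ) < m * L := by positivity
  have hhL : (0 : ℤ) < h * L := by positivity
  have k1 : (0 : ℝ) < L := by exact_mod_cast hL
  have k2 : (0 : ℝ) < h := by exact_mod_cast hh1
  have k2' : (1 : ℝ) ≤ h := by exact_mod_cast hh1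
  have k3 : ((2 * m + 3 : ℕ) : ℝ) ≤ h := by exact_mod_cast hh
  have k4 : (1 : ℝ) ≤ (2 * m + 3 : ℕ) := by exact_mod_cast (by omega)
  have k5 : (1 : ℝ) ≤ (3 * h + 4 : ℕ) := by exact_mod_cast (by omega)
  have k6 : ((m : ℤ) + 1 : ℝ) * ((L : ℤ) : ℝ) ≤ (2 * m + 3 : ℕ) * L := by
    push_cast; nlinarith [(Nat.cast_nonneg m : (0 : ℝ) ≤ m)]
  have k7 : ((m : ℤ) : ℝ) * ((L : ℤ) : ℝ) ≤ (2 * m + 3 : ℕ) * L := by
    push_cast; nlinarith [(Nat.cast_nonneg m : (0 : ℝ) ≤ m)]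
  -- supports
  have sx : ∀ {u : ℤ → ℝ}, (∀ x, u x ≠ 0 → L < x ∧ x < (2 * m + 2) * L) →
      ∀ x, u x ≠ 0 → 0 < x ∧ x < ((2 * m + 3) * L : ℕ) := fun hu x hx => by
    have := hu x hx
    push_cast
    constructor <;> linarith [this.1, this.2]
  have sf := sx fun x => tF_supp (x := x) hL' hm'
  have sF0 := sx fun x => tF0_supp (x := x) hL' hm'
  have sE := sx fun x => tE_supp (x := x) hL' hm'
  have sF := sx fun x => tFF_supp (x := x) hL' hm'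
  have sθ : ∀ x, tBump L 0 ((2 * m + 2) * L) x ≠ 0 → 0 < x ∧ x < ((2 * m + 3) * L : ℕ) :=
    fun x hx => by
      have := tBump_supp hL' (by linarith) hx
      push_cast
      constructor <;> linarith [this.1, this.2]
  have sθ₂ : ∀ y, tBump L 0 ((3 * h + 3) * L) y ≠ 0 → 0 < y ∧ y < ((3 * h + 4) * L : ℕ) :=
    fun y hy => by
      have := tBump_supp hL' (by linarith) hy
      push_cast
      constructor <;> linarith [this.1, this.2]
  have sg : ∀ y, tG L h y ≠ 0 → 0 < y ∧ y < ((3 * h + 4) * L : ℕ) := fun y hy => by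
    have := tG_supp hL' hh' hy
    push_cast
    constructor <;> linarith [this.1, this.2]
  have sgh : ∀ j y, tGh L h j y ≠ 0 → 0 < y ∧ y < ((3 * h + 4) * L : ℕ) := fun j y hy => by
    have := tGh_supp hL' hy
    have h1 := mul_le_mul_of_nonneg_right this.1.1 hL'.le
    have h2 := mul_le_mul_of_nonneg_right this.1.2 hL'.le
    push_cast
    constructor <;> linarith [this.2.1, this.2.2]
  have st : ∀ j y, tTent L h j y ≠ 0 → 0 < y ∧ y < ((3 * h + 4) * L : ℕ) := fun j y hy => by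
    have := tTent_supp hL' hy
    have h1 := mul_le_mul_of_nonneg_right this.1.1 hL'.le
    have h2 := mul_le_mul_of_nonneg_right this.1.2 hL'.le
    push_cast
    constructor <;> linarith [this.2.1, this.2.2]
  -- one-dimensional sums
  have bθ := tBump_abs (a := 0) (b := (2 * m + 2) * L) hL' (by linarith)
  have bθ₂ := tBump_abs (a := 0) (b := (3 * h + 3) * L) hL' (by linarith)
  have bF := fun x => (tFF_abs hL' hm' x).trans k6
  have n1 := t_sum_full (2 * m + 3) L (tF_inc_abs hL' m)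
  have n2 := t_sum_full (2 * m + 3) L (tF_abs hL' hm')
  have n3 := t_sum_full (2 * m + 3) L (tF0_inc_abs hL' hm')
  have n4 := t_sum_full (2 * m + 3) L fun x => (tF0_abs hL' hm' x).trans k7
  have n5 := t_sum_full (2 * m + 3) L (tE_abs hL' m)
  have n6 := t_sum_full (2 * m + 3) L (tFF_inc_abs hL' hm')
  have n7 := t_sum_full (2 * m + 3) L bF
  have n8 := t_sum_full (2 * m + 3) L (tBump_inc hL' 0 ((2 * m + 2) * L))
  have n9 := t_sum_full (2 * m + 3) L bθ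
  have m1 := t_sum_full (3 * h + 4) L (tG_abs hL' hh')
  have m2 := t_sum_full (3 * h + 4) L (tG_inc hL' hh')
  have m3 := t_sum_full (3 * h + 4) L (tBump_inc hL' 0 ((3 * h + 3) * L))
  have m4 := t_sum_full (3 * h + 4) L bθ₂
  have p0 : ∀ ij ∈ range (2 * m + 3) ×ˢ range (3 * h + 4),
      ij ∉ Icc 1 (2 * m + 1) ×ˢ Icc 1 (3 * h + 2) →
      ((ij.1 : ℤ) = 0 ∨ (ij.1 : ℤ) = 2 * m + 2) ∨ tG L h (ij.2 * L) = 0 := fun ij h1 h2 => by
    simp only [mem_product, mem_range, mem_Icc] at h1 h2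
    by_contra h3
    rw [not_or] at h3
    have h4 := tG_supp hL' hh' h3.2
    have h5 := lt_of_mul_lt_mul_right h4.1 hL'.le
    have h6 := lt_of_mul_lt_mul_right h4.2 hL'.le
    omega
  rw [Int.cast_natCast] at n1 n5 n8 m3
  rw [Int.cast_natCast, Int.cast_natCast] at m2
  refine ⟨{
    χ := tens (tF L m) (tG L h)
    ψ := tens (tF0 L m) (tG L h)
    D := tens (tE L m) (tG L h)
    Θ := tens (tBump L 0 ((2 * m + 2) * L)) (tBump L 0 ((3 * h + 3) * L))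
    r := fun j => tens (tF L m) (tGh L h j)
    r' := fun j => tens (tF0 L m) (tGh L h j)
    u := fun j => tens (fun x => tF0 L m x + tE L m x) (tTent L h j)
    ω := fun j => tens (tBump L 0 ((2 * m + 2) * L)) (tGh L h j)
    p := fun ij => tPhi L m ij.1 * tG L h (ij.2 * L)
    q := fun ij => tS m ij.1 * tG L h (ij.2 * L)
    int := Icc 1 (2 * m + 1) ×ˢ Icc 1 (3 * h + 2)
    sχ := t_supp sf sg
    sψ := t_supp sF0 sg
    sD := t_supp sE sg
    sΘ := t_supp sθ sθ₂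
    sr := fun j => t_supp sf (sgh j)
    sr' := fun j => t_supp sF0 (sgh j)
    su := fun j => t_supp sF (st j)
    sω := fun j => t_supp sθ (sgh j)
    bχ := fun x => (t_abs_tens (tF_abs hL' hm') (tG_abs hL' hh') x).trans_eq (one_mul _)
    bu := fun j x => (t_abs_tens bF (tTent_abs hL' h j) x).trans ?_
    nχ := (t_nrm_le n1 m1 n2 m2).trans ?_
    nψ := (t_nrm_le n3 m1 n4 m2).trans ?_
    nD := (t_nrm_le (t_sum_E_inc hL _ m) m1 n5 m2).trans ?_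
    nΘ := (t_nrm_le n8 m4 n9 m3).trans ?_
    nr := fun j => (t_nrm_le n1 (t_sum_gh hL hh1 _ j) n2 (t_sum_gh_inc hL hh1 _ j)).trans ?_
    nr' := fun j => (t_nrm_le n3 (t_sum_gh hL hh1 _ j) n4 (t_sum_gh_inc hL hh1 _ j)).trans ?_
    nu := fun j => (t_nrm_le n6 (t_sum_tent hL _ j) n7 (t_sum_tent_inc hL _ j)).trans ?_
    nω := fun j => (t_nrm_le n8 (t_sum_gh hL hh1 _ j) n9 (t_sum_gh_inc hL hh1 _ j)).trans ?_
    int_sub := fun ij hij => by
      simp only [mem_product, mem_range, mem_Icc] at hij ⊢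
      omega
    gχ := fun ij _ e he => t_grad_blk (fun x => tF_inc hL' m) (fun y => tGh_row hL' hh') he
    gψ := fun ij _ e he => t_grad_blk (fun x => tF0_inc hL' m) (fun y => tGh_row hL' hh') he
    bp := fun ij => ?_
    bq := fun ij => ?_
    p0 := fun ij h1 h2 => (p0 ij h1 h2).elim (fun h => by rw [tPhi_zero hm' h, zero_mul])
      fun h => by rw [h, mul_zero]
    q0 := fun ij h1 h2 => (p0 ij h1 h2).elim (fun h => by rw [tS_zero hm' h, zero_mul])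
      fun h => by rw [h, mul_zero]
    Θ1 := fun ij hij e he => ?_
    qsum := t_qsum hL hm hh1
    key := fun e _ => ?_ }⟩
  all_goals try generalize ((2 * m + 3 : ℕ) : ℝ) = K at *
  all_goals try generalize ((3 * h + 4 : ℕ) : ℝ) = K' at *
  · nlinarith [mul_le_mul_of_nonneg_right k4 (mul_nonneg (zero_le_one.trans k4) k1.le)]
  · have e : K * L * (2 / L) ^ 2 * (K' * L * 1 ^ 2) + K * L * 1 ^ 2 * (K' * L * (1 / (h * L)) ^ 2) =
        4 * (K * K') + K * K' / h ^ 2 := by field_simp; ring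
    have : K * K' / h ^ 2 ≤ K * K' := div_le_self (by positivity) (one_le_pow₀ k2')
    rw [e]; linarith
  · have e : K * L * 1 ^ 2 * (K' * L * 1 ^ 2) + K * L * (K * L) ^ 2 * (K' * L * (1 / (h * L)) ^ 2) =
        K * K' * L ^ 2 + K * K' * L ^ 2 * (K / h) ^ 2 := by field_simp
    have : K * K' * L ^ 2 * (K / h) ^ 2 ≤ K * K' * L ^ 2 := mul_le_of_le_one_right (by positivity)
      (pow_le_one₀ (by positivity) ((div_le_one k2).2 k3))
    rw [e]; linarith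
  · have e : 8 * L * (K' * L * 1 ^ 2) + K * L * L ^ 2 * (K' * L * (1 / (h * L)) ^ 2) =
        8 * (K' * L ^ 2) + K' * L ^ 2 * (K / h * (1 / h)) := by field_simp
    have : K' * L ^ 2 * (K / h * (1 / h)) ≤ K' * L ^ 2 := mul_le_of_le_one_right (by positivity)
      (mul_le_one₀ ((div_le_one k2).2 k3) (by positivity) ((div_le_one k2).2 k2'))
    have : 0 ≤ K' * L ^ 2 := by positivity
    rw [e]; linarith
  · exact le_of_eq (by field_simp; ring)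
  · exact le_of_eq (by field_simp; ring)
  · have e : K * L * 1 ^ 2 * (16 * L / h ^ 2) + K * L * (K * L) ^ 2 * (36 / (h ^ 2 * L)) =
        (16 * K + 36 * K ^ 3) * L ^ 2 / h ^ 2 := by field_simp
    have : K ≤ K ^ 3 := le_self_pow₀ k4 (by norm_num)
    rw [e]
    gcongr
    linarith
  · have e : K * L * 1 ^ 2 * (2 * L) + K * L * (K * L) ^ 2 * (2 / L) =
        (2 * K + 2 * K ^ 3) * L ^ 2 := by field_simp
    have h1 : K ≤ K ^ 4 := le_self_pow₀ k4 (by norm_num)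
    have h2 : K ^ 3 ≤ K ^ 4 := pow_le_pow_right₀ k4 (by norm_num)
    rw [e, show (2 * K ^ 2 * L) ^ 2 = 4 * K ^ 4 * L ^ 2 by ring]
    gcongr
    linarith
  · have e : K * L * (1 / L) ^ 2 * (16 * L / h ^ 2) + K * L * 1 ^ 2 * (36 / (h ^ 2 * L)) =
        52 * K / h ^ 2 := by field_simp; ring
    rw [e, div_pow]
    gcongr
    nlinarith
  · rw [abs_mul]
    exact (mul_le_mul (tPhi_abs hL' m _) (tG_abs hL' hh' _) (abs_nonneg _) (by positivity)).trans_eq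
      (by simp)
  · rw [abs_mul]
    exact mul_le_one₀ (tS_abs hm' _) (abs_nonneg _) (tG_abs hL' hh' _)
  · obtain ⟨⟨x, y⟩, d⟩ := e
    have h1 := mem_rect_E.1 he
    simp only [cor] at h1
    simp only [mem_product, mem_Icc] at hij
    have a1 : (1 : ℤ) * L ≤ ij.1 * L := mul_le_mul_of_nonneg_right (by omega) hL'.le
    have a2 : (ij.1 : ℤ) * L ≤ (2 * m + 1) * L := mul_le_mul_of_nonneg_right (by omega) hL'.le
    have a3 : (1 : ℤ) * L ≤ ij.2 * L := mul_le_mul_of_nonneg_right (by omega) hL'.le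
    have a4 : (ij.2 : ℤ) * L ≤ (3 * h + 2) * L := mul_le_mul_of_nonneg_right (by omega) hL'.le
    obtain ⟨⟨b1, b2⟩, b3, b4⟩ := h1
    have e : ∀ x' y' : ℤ, x ≤ x' → x' ≤ x + 1 → y ≤ y' → y' ≤ y + 1 →
        tens (tBump L 0 ((2 * m + 2) * L)) (tBump L 0 ((3 * h + 3) * L)) (x', y') = 1 :=
      fun x' y' c1 c2 c3 c4 => by
        rw [tens, tBump_one hL' (by linarith) (by linarith),
          tBump_one hL' (by linarith) (by linarith), one_mul]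
    refine ⟨e x y le_rfl (by linarith) le_rfl (by linarith), ?_⟩
    fin_cases d
    · exact hd_zero _ ▸ e _ _ (by linarith) le_rfl le_rfl (by linarith)
    · exact hd_one _ ▸ e _ _ le_rfl (by linarith) (by linarith) le_rfl
  · obtain ⟨⟨x, y⟩, d⟩ := e
    have e : ∀ x' : ℤ, x ≤ x' → x' ≤ x + 1 → (tF0 L m x + tE L m x) *
        tBump L 0 ((2 * m + 2) * L) x' = tF0 L m x + tE L m x := fun x' c1 c2 => by
      by_cases h0 : tF0 L m x + tE L m x = 0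
      · rw [h0, zero_mul]
      · have := tFF_supp hL' hm' h0
        rw [tBump_one hL' (by linarith [this.1]) (by linarith [this.2]), mul_one]
    fin_cases d
    · simp only [grad, mid, Fin.zero_eta, hd_zero, tens, ed, if_true]
      rw [sum_eq_zero fun j _ => ?_]
      · linear_combination (-tG L h y) * tFF_inc hL' m x
      · linear_combination (tTent L h j y * tGh L h j y) *
          (e (x + 1) (by linarith) le_rfl - e x le_rfl (by linarith))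
    · simp only [grad, Fin.mk_one, hd_one, tens, ed]
      rw [if_neg (by decide), sum_congr rfl (g := fun j : ℕ => (tF0 L m x + tE L m x) *
        (tTent L h j y * (tGh L h j (y + 1) - tGh L h j y))) fun j _ => ?_, ← mul_sum,
        tTent_key hL' hh1]
      · ring
      · linear_combination (tTent L h j y * (tGh L h j (y + 1) - tGh L h j y)) *
          e x le_rfl (by linarith)

end Crest.Agent.R167
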