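import Crest.Agent.R167.Defs

/-!
# R167 / TestAux: one-dimensional ramps and bumps on `ℤ`
-/

set_option autoImplicit false

namespace Crest.Agent.R167

open Finset

/-- the ramp on the integers -/
noncomputable def tRz (ℓ t : ℤ) : ℝ := ramp ℓ t

variable {ℓ a b s t : ℤ}

lemma tRz_zero (hl : 0 < ℓ) (h : t ≤ 0) : tRz ℓ t = 0 := by
  have h1 : (0 : ℝ) < ℓ := by exact_mod_cast hl
  have h2 : (t : ℝ) ≤ 0 := by exact_mod_cast h
  exact max_eq_left ((min_le_right _ _).trans (div_nonpos_of_nonpos_of_nonneg h2 h1.le))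

lemma tRz_one (hl : 0 < ℓ) (h : ℓ ≤ t) : tRz ℓ t = 1 := by
  have h1 : (0 : ℝ) < ℓ := by exact_mod_cast hl
  have h2 : (ℓ : ℝ) ≤ t := by exact_mod_cast h
  rw [tRz, ramp, min_eq_left ((one_le_div h1).2 h2), max_eq_right zero_le_one]

lemma tRz_mid (hl : 0 < ℓ) (h : 0 ≤ t) (h' : t ≤ ℓ) : tRz ℓ t = t / ℓ := by
  have h1 : (0 : ℝ) < ℓ := by exact_mod_cast hl
  have h2 : (t : ℝ) ≤ ℓ := by exact_mod_cast h'
  have h3 : (0 : ℝ) ≤ t := by exact_mod_cast h
  rw [tRz, ramp, min_eq_right ((div_le_one h1).2 h2), max_eq_right (div_nonneg h3 h1.le)]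

lemma tRz_nonneg (ℓ t : ℤ) : 0 ≤ tRz ℓ t := le_max_left _ _

lemma tRz_le_one (ℓ t : ℤ) : tRz ℓ t ≤ 1 := max_le zero_le_one (min_le_left _ _)

lemma tRz_lip (hl : 0 < ℓ) (h : s ≤ t) :
    0 ≤ tRz ℓ t - tRz ℓ s ∧ tRz ℓ t - tRz ℓ s ≤ (t - s : ℝ) / ℓ := by
  have h1 : (0 : ℝ) < ℓ := by exact_mod_cast hl
  have h2 : (s : ℝ) ≤ t := by exact_mod_cast h
  have h3 : (s : ℝ) / ℓ ≤ t / ℓ := div_le_div_of_nonneg_right h2 h1.le
  rw [sub_div]
  simp only [tRz, ramp]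
  generalize (s : ℝ) / ℓ = u at *
  generalize (t : ℝ) / ℓ = v at *
  simp only [max_def, min_def]
  split_ifs <;> constructor <;> linarith

/-- increments of a ramp on the columns -/
lemma tRz_inc (hl : 0 < ℓ) {i k x : ℤ} (h1 : i * ℓ ≤ x) (h2 : x < i * ℓ + ℓ) :
    tRz ℓ (x + 1 - k * ℓ) - tRz ℓ (x - k * ℓ) = if i = k then 1 / (ℓ : ℝ) else 0 := by
  rcases lt_trichotomy i k with h | h | h
  · have : (i + 1) * ℓ ≤ k * ℓ := mul_le_mul_of_nonneg_right h hl.le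
    rw [if_neg h.ne, tRz_zero hl (by linarith), tRz_zero hl (by linarith), sub_self]
  · subst h
    rw [if_pos rfl, tRz_mid hl (by linarith) (by linarith), tRz_mid hl (by linarith) (by linarith)]
    push_cast
    ring
  · have : (k + 1) * ℓ ≤ i * ℓ := mul_le_mul_of_nonneg_right h hl.le
    rw [if_neg h.ne', tRz_one hl (by linarith), tRz_one hl (by linarith), sub_self]

/-- rises on `[a, a + ℓ]`, falls on `[b, b + ℓ]` -/
noncomputable def tBump (ℓ a b t : ℤ) : ℝ := tRz ℓ (t - a) - tRz ℓ (t - b)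

lemma tBump_left (hl : 0 < ℓ) (hab : a ≤ b) (h : t ≤ a) : tBump ℓ a b t = 0 := by
  rw [tBump, tRz_zero hl (by linarith), tRz_zero hl (by linarith), sub_self]

lemma tBump_right (hl : 0 < ℓ) (hab : a ≤ b) (h : b + ℓ ≤ t) : tBump ℓ a b t = 0 := by
  rw [tBump, tRz_one hl (by linarith), tRz_one hl (by linarith), sub_self]

lemma tBump_one (hl : 0 < ℓ) (h : a + ℓ ≤ t) (h' : t ≤ b) : tBump ℓ a b t = 1 := by
  rw [tBump, tRz_one hl (by linarith), tRz_zero hl (by linarith), sub_zero]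

lemma tBump_nonneg (hl : 0 < ℓ) (hab : a ≤ b) (t : ℤ) : 0 ≤ tBump ℓ a b t :=
  (tRz_lip hl (by linarith)).1

lemma tBump_le_one (ℓ a b t : ℤ) : tBump ℓ a b t ≤ 1 := by
  have := tRz_le_one ℓ (t - a)
  have := tRz_nonneg ℓ (t - b)
  rw [tBump]; linarith

lemma tBump_abs (hl : 0 < ℓ) (hab : a ≤ b) (t : ℤ) : |tBump ℓ a b t| ≤ 1 := by
  rw [abs_of_nonneg (tBump_nonneg hl hab t)]
  exact tBump_le_one _ _ _ _

lemma tBump_lip (hl : 0 < ℓ) (a b : ℤ) (h : s ≤ t) :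
    |tBump ℓ a b t - tBump ℓ a b s| ≤ (t - s : ℝ) / ℓ := by
  have h1 := tRz_lip (s := s - a) (t := t - a) hl (by linarith)
  have h2 := tRz_lip (s := s - b) (t := t - b) hl (by linarith)
  push_cast at h1 h2
  rw [sub_sub_sub_cancel_right] at h1 h2
  rw [abs_le, tBump, tBump]
  constructor <;> linarith [h1.1, h1.2, h2.1, h2.2]

lemma tBump_inc (hl : 0 < ℓ) (a b t : ℤ) : |tBump ℓ a b (t + 1) - tBump ℓ a b t| ≤ 1 / ℓ := by
  have := tBump_lip (s := t) (t := t + 1) hl a b (by linarith)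
  push_cast at this
  rwa [add_sub_cancel_left] at this

lemma tBump_supp (hl : 0 < ℓ) (hab : a ≤ b) (h : tBump ℓ a b t ≠ 0) : a < t ∧ t < b + ℓ :=
  ⟨not_le.1 fun h' => h (tBump_left hl hab h'), not_le.1 fun h' => h (tBump_right hl hab h')⟩

/-- a function with support in `(a, b)` has increments supported in `[a, b)` -/
lemma t_inc_supp {u : ℤ → ℝ} (h : ∀ t, u t ≠ 0 → a < t ∧ t < b) (h' : u (t + 1) - u t ≠ 0) :
    a ≤ t ∧ t < b := by
  by_cases h1 : u t = 0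
  · have := h (t + 1) fun h2 => h' (by rw [h1, h2, sub_self])
    omega
  · have := h t h1
    omega

/-- the positive part -/
def tPos (t : ℤ) : ℝ := (max t 0 : ℤ)

lemma tPos_zero (h : t ≤ 0) : tPos t = 0 := by rw [tPos, max_eq_right h, Int.cast_zero]

lemma tPos_eq (h : 0 ≤ t) : tPos t = t := by rw [tPos, max_eq_left h]

lemma tPos_inc (t : ℤ) : tPos (t + 1) - tPos t = if 0 ≤ t then 1 else 0 := by
  split_ifs with h
  · rw [tPos_eq h, tPos_eq (by omega)]; push_cast; ring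
  · rw [tPos_zero (by omega), tPos_zero (by omega), sub_self]

/-- the primitive of the ramp minus the positive part -/
noncomputable def tCor (ℓ t : ℤ) : ℝ :=
  if t ≤ 0 then 0 else if t ≤ ℓ then (t : ℝ) ^ 2 / (2 * ℓ) - t else -(ℓ : ℝ) / 2

lemma tCor_left (h : t ≤ 0) : tCor ℓ t = 0 := if_pos h

lemma tCor_mid (h : 0 ≤ t) (h' : t ≤ ℓ) : tCor ℓ t = (t : ℝ) ^ 2 / (2 * ℓ) - t := by
  rcases h.eq_or_lt with rfl | h
  · simp [tCor]
  · rw [tCor, if_neg (by omega), if_pos h']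

lemma tCor_right (hl : 0 < ℓ) (h : ℓ ≤ t) : tCor ℓ t = -(ℓ : ℝ) / 2 := by
  have h1 : (0 : ℝ) < ℓ := by exact_mod_cast hl
  rcases h.eq_or_lt with rfl | h
  · rw [tCor_mid hl.le le_rfl]; field_simp; ring
  · rw [tCor, if_neg (by omega), if_neg (by omega)]

lemma tCor_bd (hl : 0 < ℓ) (t : ℤ) : -(ℓ : ℝ) / 2 ≤ tCor ℓ t ∧ tCor ℓ t ≤ 0 := by
  have h1 : (0 : ℝ) < ℓ := by exact_mod_cast hl
  rcases le_total t 0 with h | h
  · rw [tCor_left h]; constructor <;> linarith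
  rcases le_total t ℓ with h' | h'
  · have h2 : (t : ℝ) ≤ ℓ := by exact_mod_cast h'
    have h3 : (0 : ℝ) ≤ t := by exact_mod_cast h
    rw [tCor_mid h h', le_sub_iff_add_le, le_div_iff₀ (by positivity), sub_nonpos,
      div_le_iff₀ (by positivity)]
    constructor <;> nlinarith [sq_nonneg ((t : ℝ) - ℓ)]
  · rw [tCor_right hl h']; constructor <;> linarith

lemma tCor_inc (hl : 0 < ℓ) (t : ℤ) : tCor ℓ (t + 1) - tCor ℓ t =
    (tRz ℓ (t + 1) + tRz ℓ t) / 2 - (tPos (t + 1) - tPos t) := by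
  have h1 : (0 : ℝ) < ℓ := by exact_mod_cast hl
  rw [tPos_inc]
  by_cases h : t < 0
  · rw [tCor_left (by omega), tCor_left h.le, tRz_zero hl (by omega), tRz_zero hl h.le,
      if_neg (by omega)]
    ring
  by_cases h' : t < ℓ
  · rw [tCor_mid (by omega) (by omega), tCor_mid (by omega) (by omega),
      tRz_mid hl (by omega) (by omega), tRz_mid hl (by omega) (by omega), if_pos (by omega)]
    push_cast
    field_simp
    ring
  · rw [tCor_right hl (by omega), tCor_right hl (by omega), tRz_one hl (by omega),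
      tRz_one hl (by omega), if_pos (by omega)]
    ring

lemma tCor_inc_bd (hl : 0 < ℓ) (t : ℤ) :
    -1 ≤ tCor ℓ (t + 1) - tCor ℓ t ∧ tCor ℓ (t + 1) - tCor ℓ t ≤ 0 := by
  by_cases h : t < 0
  · rw [tCor_left (by omega), tCor_left h.le]; norm_num
  · have := tRz_nonneg ℓ t
    have := tRz_nonneg ℓ (t + 1)
    have := tRz_le_one ℓ t
    have := tRz_le_one ℓ (t + 1)
    rw [tCor_inc hl, tPos_inc, if_pos (by omega)]
    constructor <;> linarith

lemma tCor_inc_supp (hl : 0 < ℓ) (h : tCor ℓ (t + 1) - tCor ℓ t ≠ 0) : 0 ≤ t ∧ t < ℓ := by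
  refine ⟨not_lt.1 fun h' => h ?_, not_le.1 fun h' => h ?_⟩
  · rw [tCor_left (by omega), tCor_left h'.le, sub_self]
  · rw [tCor_right hl (by omega), tCor_right hl h', sub_self]

end Crest.Agent.R167
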