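import Crest.Agent.R167.Cur

/-!
# R167 / Tile: tilings, the law of total variance, the belt lemma

Recipes.  `Tiling.av_av`: `gE_dlr`; `Ham R - Ham (U i) = ∑_{j ≠ i} Ham (U j)` is independent of
`(U i).I` (`indep_J`, `sep`).  `Tiling.av_mul_S`: `G · S_i = av_i (G · J_i)` (`gE_mul_left`).
`Tiling.total_var`: expand the squares (`sum_mul_sum`); off the diagonal apply the one-block form of
`av_mul_S` twice (`J_j` is independent of `I_i`, `S_i` of `I_j`); on the diagonal
`av (J_i²) = av (av_i J_i²) = av (cov_i) + av (S_i²)`.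
`belt_sin`: let `k = m + 1`, `l = m + 2 = k + 1`, `Z = J (T l) (grad ω)`, `g± = flow k u (±1)`.  By `pr_flow`,
`Rot_add`, `Rot_conj_one` and `abs_dot_Rot_sub`,
`Z ∘ g± = J (T l) (cos u · ∇ω) ∓ J (T (k + 2)) (sin u · ∇ω) + err±`, `|err±| ≤ β ∑ |∇ω| |∇u| ≤ β W H`
(`k + 2 = m`).  `gE_cs` with `F = |Z ∘ g±|`, `F₁ = (Z ∘ g±)²`, `F₂ = 1`, `s = ∓1` and `av_J_sq` give
`(E |Z ∘ g±|)² ≤ exp (β H²) β W²`.
`belt`: if `H > 0` take `u = arcsin (h / H)`; `|h/H| ≤ 1/2`, `arcsin` is `2`-Lipschitz on `[-1/2, 1/2]`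
(mean value theorem, `1/√(1 - x²) ≤ 2`), so `nrm (grad u) ≤ 4`.
-/

set_option autoImplicit false

namespace Crest.Agent.R167

open MeasureTheory Finset Matrix

variable {κ : Type} {R : Blk} {s : Finset κ} {U : κ → Blk} {b : Edge → ℝ} {β : ℝ} {A B : Mat}
  {α α' : Edge → ℝ} {k : Fin 3} {f : Site → ℝ} {F G : Cfg → ℝ}

lemma Tiling.J_eq (hT : Tiling R s U) (σ : Cfg) :
    J R.E b A α σ = ∑ i ∈ s, J (U i).E b A α σ := hT.sum _
lemma Tiling.nrm_eq (hT : Tiling R s U) : nrm R.E α = ∑ i ∈ s, nrm (U i).E α := hT.sum _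
lemma Tiling.indep_S (hT : Tiling R s U) {i j : κ} (hi : i ∈ s) (hj : j ∈ s) :
    Indep (U i).I ((U j).S b A α) := by
  by_cases h : i = j
  · subst h; exact indep_gE_self
  · exact Indep.gE (indep_J (hT.sep i hi j hj h)) (indep_J (hT.sep i hi j hj h))
lemma Tiling.indep_sumS (hT : Tiling R s U) {i : κ} (hi : i ∈ s) :
    Indep (U i).I (fun σ => ∑ j ∈ s, (U j).S b A α σ) :=
  indep_sum s _ fun _ hj => hT.indep_S hi hj
theorem Tiling.av_av (hT : Tiling R s U) {i : κ} (hi : i ∈ s) (hF : Continuous F) (τ : Cfg) :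
    R.av b ((U i).av b F) τ = R.av b F τ := by
  classical
  refine gE_dlr continuous_Ham continuous_Ham hF (hT.sub i hi) ?_ τ
  have : (fun σ => Ham R.E b σ - Ham (U i).E b σ) = fun σ => ∑ j ∈ s.erase i, Ham (U j).E b σ := by
    funext σ
    rw [Ham, hT.J_eq, ← add_sum_erase s _ hi, Ham, add_sub_cancel_left]
    rfl
  rw [this]
  exact indep_sum _ _ fun j hj =>
    indep_J (hT.sep i hi j (mem_of_mem_erase hj) (ne_of_mem_erase hj).symm)
lemma tile_one (hT : Tiling R s U) {i : κ} (hi : i ∈ s) (hG : Continuous G)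
    (hGi : Indep (U i).I G) (hF : Continuous F) (τ : Cfg) :
    R.av b (fun σ => G σ * (U i).av b F σ) τ = R.av b (fun σ => G σ * F σ) τ := by
  rw [← hT.av_av hi (hG.fun_mul hF) τ]
  congr 1
  funext σ
  exact (gE_mul_left hGi σ).symm
theorem Tiling.av_mul_S (hT : Tiling R s U) (hG : Continuous G) (hi : ∀ i ∈ s, Indep (U i).I G)
    (τ : Cfg) : R.av b (fun σ => G σ * ∑ i ∈ s, (U i).S b A α σ) τ =
      R.av b (fun σ => G σ * J R.E b A α σ) τ := by
  simp only [hT.J_eq, mul_sum, Blk.av]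
  rw [gE_sum continuous_Ham s _ fun i _ => hG.fun_mul Blk.continuous_S,
    gE_sum continuous_Ham s _ fun i _ => hG.fun_mul continuous_J]
  exact sum_congr rfl fun i h => tile_one hT h hG (hi i h) continuous_J τ
theorem Tiling.total_var (hT : Tiling R s U) (τ : Cfg) :
    R.av b (fun σ => J R.E b A α σ ^ 2) τ =
      ∑ i ∈ s, R.av b ((U i).cov b (J (U i).E b A α) (J (U i).E b A α)) τ +
        R.av b (fun σ => (∑ i ∈ s, (U i).S b A α σ) ^ 2) τ := by
  classical
  have key : ∀ i ∈ s, ∀ j ∈ s, R.av b (fun σ => J (U i).E b A α σ * J (U j).E b A α σ) τ =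
      (if i = j then R.av b ((U i).cov b (J (U i).E b A α) (J (U i).E b A α)) τ else 0) +
        R.av b (fun σ => (U i).S b A α σ * (U j).S b A α σ) τ := by
    intro i hi j hj
    split_ifs with h
    · subst h
      rw [← hT.av_av hi (continuous_J.fun_mul continuous_J), Blk.av, Blk.av, Blk.av, Blk.av,
        ← gE_add continuous_Ham (Blk.continuous_cov continuous_J continuous_J)
          (Blk.continuous_S.fun_mul Blk.continuous_S)]
      congr 1
      funext σ
      simp only [Blk.cov, Blk.S, Blk.av, sub_add_cancel]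
    · rw [zero_add]
      have h1 := tile_one (b := b) hT hi (continuous_J (E := (U j).E) (b := b) (A := A) (α := α))
        (indep_J (hT.sep i hi j hj h)) (continuous_J (E := (U i).E) (b := b) (A := A) (α := α)) τ
      have h2 := tile_one (b := b) hT hj (Blk.continuous_S (U := U i) (b := b) (A := A) (α := α))
        (hT.indep_S hj hi) (continuous_J (E := (U j).E) (b := b) (A := A) (α := α)) τ
      calc _ = R.av b (fun σ => J (U j).E b A α σ * J (U i).E b A α σ) τ := by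
            simp only [mul_comm]
        _ = R.av b (fun σ => (U i).S b A α σ * J (U j).E b A α σ) τ := by
            rw [← h1]; simp only [mul_comm, Blk.S]
        _ = _ := h2.symm
  simp only [hT.J_eq, sq, sum_mul_sum, Blk.av]
  rw [gE_sum continuous_Ham s _ fun i _ =>
      continuous_finsetSum _ fun j _ => continuous_J.fun_mul continuous_J,
    gE_sum continuous_Ham s _ fun i _ =>
      continuous_finsetSum _ fun j _ => Blk.continuous_S.fun_mul Blk.continuous_S, ← sum_add_distrib]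
  refine sum_congr rfl fun i hi => ?_
  rw [gE_sum continuous_Ham s _ fun j _ => continuous_J.fun_mul continuous_J,
    gE_sum continuous_Ham s _ fun j _ => Blk.continuous_S.fun_mul Blk.continuous_S]
  refine (sum_congr rfl (key i hi)).trans ?_
  rw [sum_add_distrib, sum_ite_eq, if_pos hi]
  rfl
theorem Tiling.M_eq (hT : Tiling R s U) (τ : Cfg) :
    R.M b A A α α τ = ∑ i ∈ s, R.av b ((U i).M b A A α α) τ -
      R.av b (fun σ => (∑ i ∈ s, (U i).S b A α σ - R.S b A α τ) ^ 2) τ := by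
  have hS : Continuous fun σ => ∑ i ∈ s, (U i).S b A α σ :=
    continuous_finsetSum _ fun j _ => Blk.continuous_S
  have h1 := hT.total_var (b := b) (A := A) (α := α) τ
  have h2 : R.av b (fun σ => ∑ i ∈ s, (U i).S b A α σ) τ = R.S b A α τ := by
    have := hT.av_mul_S (b := b) (A := A) (α := α) (G := fun _ => 1) continuous_const
      (fun i _ => indep_const 1) τ
    simp only [one_mul] at this
    exact this
  have h3 : R.av b (fun σ => (∑ i ∈ s, (U i).S b A α σ - R.S b A α τ) ^ 2) τ =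
      R.av b (fun σ => (∑ i ∈ s, (U i).S b A α σ) ^ 2) τ - R.S b A α τ * R.S b A α τ := by
    have : (fun σ => (∑ i ∈ s, (U i).S b A α σ - R.S b A α τ) ^ 2) = fun σ =>
        ((∑ i ∈ s, (U i).S b A α σ) ^ 2 - (2 * R.S b A α τ) * ∑ i ∈ s, (U i).S b A α σ) +
          R.S b A α τ * R.S b A α τ := by
      funext σ; ring
    rw [this, Blk.av, gE_add continuous_Ham ((hS.fun_pow 2).fun_sub (continuous_const.fun_mul hS))
      continuous_const, gE_sub continuous_Ham (hS.fun_pow 2) (continuous_const.fun_mul hS), gE_const_mul,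
      gE_const continuous_Ham]
    rw [Blk.av] at h2
    rw [h2, Blk.av]
    ring
  have h4 : ∀ i ∈ s, R.av b ((U i).M b A A α α) τ =
      -R.av b (J (U i).E b ((1 / 2 : ℝ) • (A * A + A * A)) fun e => α e * α e) τ -
        R.av b ((U i).cov b (J (U i).E b A α) (J (U i).E b A α)) τ := by
    intro i hi
    rw [← hT.av_av hi continuous_J]
    exact (gE_sub continuous_Ham (Blk.continuous_av continuous_J).fun_neg
        (Blk.continuous_cov continuous_J continuous_J) τ).trans (by rw [gE_neg]; rfl)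
  have h5 : R.av b (J R.E b ((1 / 2 : ℝ) • (A * A + A * A)) fun e => α e * α e) τ =
      ∑ i ∈ s, R.av b (J (U i).E b ((1 / 2 : ℝ) • (A * A + A * A)) fun e => α e * α e) τ := by
    rw [funext hT.J_eq]
    exact gE_sum continuous_Ham s _ (fun j _ => continuous_J) τ
  rw [sum_congr rfl h4, h3, sum_sub_distrib, sum_neg_distrib, ← h5, Blk.M, Blk.cov]
  simp only [sq] at h1 ⊢
  rw [h1, Blk.S]
  ring
theorem Tiling.sum_PP (hT : Tiling R s U) (hb : Cpl β b) (hf : Supp R.I f) (τ : Cfg) :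
    ∑ i ∈ s, R.av b ((U i).PP β b k (grad f)) τ ≤ 2 * β * nrm R.E (grad f) := by
  have h1 := hT.total_var (b := b) (A := T k) (α := grad f) τ
  have h2 := Blk.av_J_sq (U := R) (k := k) hb hf τ
  have h3 : 0 ≤ R.av b (fun σ => (∑ i ∈ s, (U i).S b (T k) (grad f) σ) ^ 2) τ :=
    gE_nonneg (fun σ => sq_nonneg _) τ
  have h4 : ∀ i ∈ s, R.av b ((U i).PP β b k (grad f)) τ = β * nrm (U i).E (grad f) +
      R.av b ((U i).cov b (J (U i).E b (T k) (grad f)) (J (U i).E b (T k) (grad f))) τ := by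
    intro i _
    rw [← gE_const (I := R.I) (continuous_Ham (E := R.E) (b := b)) (β * nrm (U i).E (grad f)) τ,
      Blk.av, Blk.av, ← gE_add continuous_Ham continuous_const
        (Blk.continuous_cov continuous_J continuous_J)]
    rfl
  rw [sum_congr rfl h4, sum_add_distrib, ← mul_sum, ← hT.nrm_eq]
  linarith
theorem Tiling.av_sumS_sq (hT : Tiling R s U) (hb : Cpl β b) (hf : Supp R.I f) (τ : Cfg) :
    R.av b (fun σ => (∑ i ∈ s, (U i).S b (T k) (grad f) σ) ^ 2) τ ≤ β * nrm R.E (grad f) := by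
  have h1 := hT.total_var (b := b) (A := T k) (α := grad f) τ
  have h2 := Blk.av_J_sq (U := R) (k := k) hb hf τ
  have h3 : 0 ≤ ∑ i ∈ s,
      R.av b ((U i).cov b (J (U i).E b (T k) (grad f)) (J (U i).E b (T k) (grad f))) τ :=
    sum_nonneg fun i _ => gE_nonneg (fun σ => Blk.cov_self_nonneg continuous_J σ) τ
  linarith
/-- the Mermin–Wagner inequality after integrating out the interiors of the blocks (`gE_coarse`,
`gE_cs` for `Φ = ∑ log Z_i`, `hasL_logZ`, `hasL_S`) -/
theorem Tiling.cs (hT : Tiling R s U) (hf : Supp R.I f) {c : ℝ}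
    (hc : ∀ σ, ∑ i ∈ s, (U i).M b (T k) (T k) (grad f) (grad f) σ ≤ c) (hF : Continuous F)
    (h0 : ∀ σ, 0 ≤ F σ) (hi : ∀ i ∈ s, Indep (U i).I F) (t : ℝ) (τ : Cfg) :
    R.av b F τ ^ 2 ≤ Real.exp (c * t ^ 2) * (R.av b (fun σ => F (flow k f t σ)) τ *
      R.av b (fun σ => F (flow k f (-t) σ)) τ) := by
  have hH : Ham R.E b = fun σ => ∑ i ∈ s, Ham (U i).E b σ := funext fun σ => hT.J_eq σ
  have key : ∀ G : Cfg → ℝ, Continuous G → (∀ i ∈ s, Indep (U i).I G) → R.av b G τ =
      gE R.I (fun σ => ∑ i ∈ s, Real.log (P (U i).I (fun ω => Real.exp (Ham (U i).E b ω)) σ))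
        G τ := fun G hG hGi => by
    rw [Blk.av, hH]
    exact gE_coarse s (fun i => (U i).I) (fun i => Ham (U i).E b) (fun i _ => continuous_Ham)
      hT.sub (fun i hi j hj hij => indep_J (hT.sep i hi j hj hij)) hG hGi τ
  rw [key F hF hi, key _ (hF.comp' (continuous_flow k f t)) fun i h => (hi i h).flow t,
    key _ (hF.comp' (continuous_flow k f (-t))) fun i h => (hi i h).flow (-t)]
  refine gE_cs (hasL_sum s _ _ fun i _ => hasL_logZ) (hasL_sum s _ _ fun i _ => hasL_S)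
    (fun σ => ?_) hf hF hF hF h0 h0 (fun σ => (sq _).le) t τ
  simp only [sub_self, Blk.S_mat_zero, add_zero, sum_neg_distrib]
  exact neg_le_neg (hc σ)

lemma tile_flow (hb : Cpl β b) (m : Fin 3) (u ω : Site → ℝ) (t : ℝ) (σ : Cfg) :
    |J R.E b (T (m + 2)) (grad ω) (flow (m + 1) u t σ) -
      (J R.E b (T (m + 2)) (fun e => Real.cos (t * u e.1) * grad ω e) σ -
        J R.E b (T m) (fun e => Real.sin (t * u e.1) * grad ω e) σ)| ≤
      β * ∑ e ∈ R.E, |grad ω e| * |t * grad u e| := by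
  unfold J
  rw [← sum_sub_distrib, ← sum_sub_distrib, mul_sum]
  refine (abs_sum_le_sum_abs _ _).trans (sum_le_sum fun e _ => ?_)
  have h1 : m + 2 = m + 1 + 1 := by rw [add_assoc]; rfl
  have h2 : m + 1 + 2 = m := by rw [add_assoc]; exact add_zero m
  have h3 : t * u (hd e) = t * u e.1 + t * grad u e := by simp only [grad]; ring
  have h4 := abs_dot_Rot_sub (Rot (m + 1) (t * u e.1)) (Rot_orth _ _) (m + 2) (m + 1)
    (t * grad u e) (σ e.1) (σ (hd e))
  have h5 := Rot_conj_one (m + 1) (t * u e.1)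
  rw [← h1, h2] at h5
  have h6 : pr (T (m + 2)) e (flow (m + 1) u t σ) =
      Real.cos (t * u e.1) * pr (T (m + 2)) e σ - Real.sin (t * u e.1) * pr (T m) e σ +
      co (σ e.1) ⬝ᵥ ((Rot (m + 1) (t * u e.1))ᵀ * T (m + 2) * Rot (m + 1) (t * u e.1) *
        (Rot (m + 1) (t * grad u e) - 1)) *ᵥ co (σ (hd e)) := by
    rw [pr_flow, h3, Rot_add, ← Matrix.mul_assoc, Matrix.mul_sub, Matrix.mul_one, sub_mulVec,
      dotProduct_sub, pr]
    conv_rhs => enter [2, 2]; rw [h5]
    simp only [pr, sub_mulVec, smul_mulVec, dotProduct_sub, dotProduct_smul, smul_eq_mul]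
    ring
  rw [h6]
  generalize co (σ e.1) ⬝ᵥ ((Rot (m + 1) (t * u e.1))ᵀ * T (m + 2) * Rot (m + 1) (t * u e.1) *
        (Rot (m + 1) (t * grad u e) - 1)) *ᵥ co (σ (hd e)) = r at h4
  have h7 : b e * grad ω e * (Real.cos (t * u e.1) * pr (T (m + 2)) e σ -
      Real.sin (t * u e.1) * pr (T m) e σ + r) -
      (b e * (Real.cos (t * u e.1) * grad ω e) * pr (T (m + 2)) e σ -
        b e * (Real.sin (t * u e.1) * grad ω e) * pr (T m) e σ) = b e * (grad ω e * r) := by ring
  rw [h7, abs_mul, abs_mul, abs_of_nonneg (hb e).1]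
  exact mul_le_mul (hb e).2 (mul_le_mul_of_nonneg_left h4 (abs_nonneg _)) (by positivity)
    ((hb e).1.trans (hb e).2)

lemma tile_av_flow (hb : Cpl β b) (k l : Fin 3) {u ω : Site → ℝ} (hu : Supp R.I u)
    (hω : Supp R.I ω) {H W : ℝ} (hW : 0 ≤ W) (h₁ : nrm R.E (grad u) ≤ H ^ 2)
    (h₂ : nrm R.E (grad ω) ≤ W ^ 2) {t : ℝ} (ht : t ^ 2 = 1) (τ : Cfg) :
    R.av b (fun σ => |J R.E b (T l) (grad ω) (flow k u t σ)|) τ ≤
      √β * W * Real.exp (β * H ^ 2 / 2) := by
  have hβ : 0 ≤ β := (hb (0, 0)).1.trans (hb (0, 0)).2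
  obtain ⟨Φ'', h1, h2⟩ := hasL_J_grad (E := R.E) (k := k) (f := u) hb
  have hc : Continuous fun σ => J R.E b (T l) (grad ω) (flow k u t σ) :=
    continuous_J.comp' (continuous_flow k u t)
  have h3 := gE_cs (I := R.I) (F₂ := fun _ => 1) hasL_Ham h1 h2 hu hc.abs (hc.fun_pow 2)
    continuous_const (fun σ => sq_nonneg _) (fun _ => zero_le_one) (fun σ => by simp) (-t) τ
  simp only [← flow_add, add_neg_cancel, flow_zero, neg_sq, ht, mul_one] at h3
  rw [gE_const continuous_Ham, mul_one] at h3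
  have h4 := Blk.av_J_sq (U := R) (k := l) hb hω τ
  refine abs_le_of_sq_le_sq' (h3.trans ?_) (by positivity) |>.2
  rw [mul_pow, mul_pow, Real.sq_sqrt hβ, ← Real.exp_nat_mul, mul_comm]
  refine mul_le_mul (h4.trans (mul_le_mul_of_nonneg_left h₂ hβ)) (Real.exp_le_exp.2 ?_)
    (Real.exp_pos _).le (by positivity)
  have := mul_le_mul_of_nonneg_left h₁ hβ
  push_cast
  linarith

lemma tile_arcsin {x y : ℝ} (hx : |x| ≤ 1 / 2) (hy : |y| ≤ 1 / 2) :
    |Real.arcsin x - Real.arcsin y| ≤ 2 * |x - y| := by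
  refine (convex_Icc (-(1 / 2) : ℝ) (1 / 2)).norm_image_sub_le_of_norm_hasDerivWithin_le
    (f := Real.arcsin) (f' := fun z => 1 / √(1 - z ^ 2)) (fun z hz => ?_) (fun z hz => ?_)
    (abs_le.1 hy) (abs_le.1 hx)
  · exact (Real.hasDerivAt_arcsin (by linarith [hz.1]) (by linarith [hz.2])).hasDerivWithinAt
  · have h1 : 1 / 2 ≤ √(1 - z ^ 2) := Real.le_sqrt_of_sq_le (by nlinarith [hz.1, hz.2])
    rw [Real.norm_eq_abs, abs_of_nonneg (by positivity), div_le_iff₀ (by linarith)]
    linarith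

theorem belt_sin (hb : Cpl β b) (m : Fin 3) {u ω : Site → ℝ} (hu : Supp R.I u) (hω : Supp R.I ω)
    {H W : ℝ} (hH : 0 ≤ H) (hW : 0 ≤ W) (h₁ : nrm R.E (grad u) ≤ H ^ 2)
    (h₂ : nrm R.E (grad ω) ≤ W ^ 2) (τ : Cfg) :
    R.av b (fun σ => |J R.E b (T m) (fun e => Real.sin (u e.1) * grad ω e) σ|) τ ≤
      √β * W * Real.exp (β * H ^ 2 / 2) + β * H * W := by
  have hβ : 0 ≤ β := (hb (0, 0)).1.trans (hb (0, 0)).2
  have hc : ∀ t, Continuous fun σ => |J R.E b (T (m + 2)) (grad ω) (flow (m + 1) u t σ)| :=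
    fun t => (continuous_J.comp' (continuous_flow _ u t)).abs
  have hs : ∑ e ∈ R.E, |grad ω e| * |grad u e| ≤ H * W := by
    refine abs_le_of_sq_le_sq' ((sum_mul_sq_le_sq_mul_sq _ _ _).trans ?_) (by positivity) |>.2
    simp only [sq_abs]
    rw [mul_pow, mul_comm]
    exact mul_le_mul h₁ h₂ (nrm_nonneg _ _) (sq_nonneg _)
  have h1 : ∀ σ, |J R.E b (T m) (fun e => Real.sin (u e.1) * grad ω e) σ| ≤
      (1 / 2 * |J R.E b (T (m + 2)) (grad ω) (flow (m + 1) u 1 σ)| +
        1 / 2 * |J R.E b (T (m + 2)) (grad ω) (flow (m + 1) u (-1) σ)|) + β * H * W := by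
    intro σ
    have a1 := tile_flow (R := R) hb m u ω 1 σ
    have a2 := tile_flow (R := R) hb m u ω (-1) σ
    simp only [one_mul, neg_mul, Real.cos_neg, Real.sin_neg, abs_neg] at a1 a2
    have a3 := J_smul (E := R.E) (b := b) (A := T m)
      (α := fun e => Real.sin (u e.1) * grad ω e) (-1) σ
    simp only [neg_mul, one_mul] at a3
    rw [a3] at a2
    have a4 := mul_le_mul_of_nonneg_left hs hβ
    have b1 := abs_le.1 a1
    have b2 := abs_le.1 a2
    have b3 := le_abs_self (J R.E b (T (m + 2)) (grad ω) (flow (m + 1) u 1 σ))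
    have b4 := neg_abs_le (J R.E b (T (m + 2)) (grad ω) (flow (m + 1) u 1 σ))
    have b5 := le_abs_self (J R.E b (T (m + 2)) (grad ω) (flow (m + 1) u (-1) σ))
    have b6 := neg_abs_le (J R.E b (T (m + 2)) (grad ω) (flow (m + 1) u (-1) σ))
    rw [abs_le]
    constructor <;> linarith
  refine (gE_mono continuous_Ham continuous_J.abs (((continuous_const.fun_mul (hc 1)).fun_add
    (continuous_const.fun_mul (hc (-1)))).fun_add continuous_const) h1 τ).trans ?_
  rw [gE_add continuous_Ham ((continuous_const.fun_mul (hc 1)).fun_add (continuous_const.fun_mul (hc (-1))))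
    continuous_const, gE_add continuous_Ham (continuous_const.fun_mul (hc 1))
    (continuous_const.fun_mul (hc (-1))), gE_const_mul, gE_const_mul, gE_const continuous_Ham]
  have a1 := tile_av_flow hb (m + 1) (m + 2) hu hω hW h₁ h₂ (t := 1) (by norm_num) τ
  have a2 := tile_av_flow hb (m + 1) (m + 2) hu hω hW h₁ h₂ (t := -1) (by norm_num) τ
  rw [Blk.av] at a1 a2
  linarith
theorem belt (hb : Cpl β b) (m : Fin 3) {h ω : Site → ℝ} (hh : Supp R.I h) (hω : Supp R.I ω)
    {H W : ℝ} (hW : 0 ≤ W) (h₀ : ∀ x, |h x| ≤ H / 2) (h₁ : nrm R.E (grad h) ≤ H ^ 2)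
    (h₂ : nrm R.E (grad ω) ≤ W ^ 2) (τ : Cfg) :
    R.av b (fun σ => |J R.E b (T m) (fun e => h e.1 * grad ω e) σ|) τ ≤ Cb β * H * W := by
  have hH : 0 ≤ H := by linarith [h₀ 0, abs_nonneg (h 0)]
  rcases hH.eq_or_lt with rfl | hH
  · have h0 : ∀ x, h x = 0 := fun x => abs_nonpos_iff.1 (by simpa using h₀ x)
    simp only [h0, J, zero_mul, mul_zero, sum_const_zero, abs_zero]
    exact (gE_const continuous_Ham 0 τ).le
  have hb1 : ∀ x, |h x / H| ≤ 1 / 2 := fun x => by
    rw [abs_div, abs_of_pos hH, div_le_iff₀ hH]; linarith [h₀ x]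
  have h1 := belt_sin (R := R) hb m (u := fun x => Real.arcsin (h x / H)) (H := 2)
    (fun x hx => by simp [hh x hx]) hω (by norm_num) hW (by
      have : nrm R.E (grad fun x => Real.arcsin (h x / H)) ≤ 4 / H ^ 2 * nrm R.E (grad h) := by
        rw [nrm, nrm, mul_sum]
        refine sum_le_sum fun e _ => ?_
        have a1 := tile_arcsin (hb1 (hd e)) (hb1 e.1)
        have a2 := pow_le_pow_left₀ (abs_nonneg _) a1 2
        rw [sq_abs, mul_pow, sq_abs] at a2
        refine a2.trans (le_of_eq ?_)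
        simp only [grad]
        field_simp
        ring
      refine this.trans ?_
      rw [div_mul_eq_mul_div, div_le_iff₀ (by positivity)]
      linarith) h₂ τ
  have h2 : (fun σ => |J R.E b (T m) (fun e => h e.1 * grad ω e) σ|) = fun σ => H *
      |J R.E b (T m) (fun e => Real.sin (Real.arcsin (h e.1 / H)) * grad ω e) σ| := by
    funext σ
    rw [← abs_of_pos hH, ← abs_mul, abs_of_pos hH, ← J_smul]
    congr 2
    funext e
    have := abs_le.1 (hb1 e.1)
    rw [Real.sin_arcsin (by linarith) (by linarith)]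
    field_simp
  rw [h2, Blk.av, gE_const_mul]
  refine (mul_le_mul_of_nonneg_left h1 hH.le).trans (le_of_eq ?_)
  rw [Cb, show β * 2 ^ 2 / 2 = 2 * β by ring]
  ring

end Crest.Agent.R167
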